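import Mathlib

namespace Vale.Agent.Lib.P157

open MeasureTheory ProbabilityTheory
open scoped NNReal

theorem taskD_integral_Ioi_mul_exp :
    (∫ x in Set.Ioi (0 : ℝ), x * Real.exp (-(x ^ 2 / 2))) = 1 := by
  have hderiv : ∀ x ∈ Set.Ici (0 : ℝ), HasDerivAt (fun x : ℝ => -Real.exp (-(x ^ 2 / 2)))
      (x * Real.exp (-(x ^ 2 / 2))) x := by
    intro x _
    have h1 : HasDerivAt (fun x : ℝ => -(x ^ 2 / 2)) (-x) x :=
      (((hasDerivAt_pow 2 x).div_const 2).neg).congr_deriv (by norm_num)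
    exact ((h1.exp).neg).congr_deriv (by ring)
  have hpos : ∀ x ∈ Set.Ioi (0 : ℝ), 0 ≤ x * Real.exp (-(x ^ 2 / 2)) :=
    fun x hx => mul_nonneg (le_of_lt hx) (Real.exp_pos _).le
  have htend : Filter.Tendsto (fun x : ℝ => -Real.exp (-(x ^ 2 / 2))) Filter.atTop (nhds 0) := by
    have h1 : Filter.Tendsto (fun x : ℝ => x ^ 2 / 2) Filter.atTop Filter.atTop :=
      (Filter.tendsto_pow_atTop (by norm_num : (2 : ℕ) ≠ 0)).atTop_div_const (by norm_num)
    have h2 := (Real.tendsto_exp_neg_atTop_nhds_zero.comp h1).neg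
    simpa using h2
  have := integral_Ioi_of_hasDerivAt_of_nonneg' hderiv hpos htend
  simpa using this

theorem integral_abs_gaussian : ∫ t, |t| ∂(gaussianReal 0 1) = Real.sqrt (2 / Real.pi) := by
  rw [integral_gaussianReal_eq_integral_smul (by norm_num : (1 : ℝ≥0) ≠ 0)]
  have e : ∀ x : ℝ, gaussianPDFReal 0 1 x • |x|
      = (Real.sqrt (2 * Real.pi))⁻¹ * (|x| * Real.exp (-(|x| ^ 2 / 2))) := by
    intro x
    rw [gaussianPDFReal_def]
    beta_reduce
    have hx : -(x - 0) ^ 2 / (2 * ((1 : ℝ≥0) : ℝ)) = -(|x| ^ 2 / 2) := by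
      rw [sq_abs]; simp; ring
    rw [hx]
    simp only [NNReal.coe_one, mul_one, smul_eq_mul]
    ring
  have h : (∫ x : ℝ, gaussianPDFReal 0 1 x • |x|)
      = ∫ x : ℝ, (fun y : ℝ => (Real.sqrt (2 * Real.pi))⁻¹ * (y * Real.exp (-(y ^ 2 / 2)))) |x| :=
    integral_congr_ae (Filter.Eventually.of_forall e)
  rw [h, integral_comp_abs
    (f := fun y : ℝ => (Real.sqrt (2 * Real.pi))⁻¹ * (y * Real.exp (-(y ^ 2 / 2)))),
    integral_const_mul, taskD_integral_Ioi_mul_exp, mul_one]
  have hpi : 0 < Real.pi := Real.pi_pos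
  have h1 : Real.sqrt (2 * Real.pi) = Real.sqrt 2 * Real.sqrt Real.pi :=
    Real.sqrt_mul (by norm_num) _
  have h2 : Real.sqrt (2 / Real.pi) = Real.sqrt 2 / Real.sqrt Real.pi :=
    Real.sqrt_div (by norm_num) _
  have h3 : Real.sqrt 2 * Real.sqrt 2 = 2 := Real.mul_self_sqrt (by norm_num)
  have h4 : 0 < Real.sqrt 2 := Real.sqrt_pos.2 (by norm_num)
  have h5 : 0 < Real.sqrt Real.pi := Real.sqrt_pos.2 hpi
  rw [h1, h2]
  field_simp
  linarith

theorem taskD_integrable_abs : Integrable (fun t : ℝ => |t|) (gaussianReal 0 1) := by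
  have hmem : MemLp (id : ℝ → ℝ) 1 (gaussianReal 0 1) := by
    simpa using memLp_id_gaussianReal (μ := 0) (v := 1) 1
  have hid : Integrable (fun x : ℝ => x) (gaussianReal 0 1) := memLp_one_iff_integrable.1 hmem
  exact hid.abs

theorem taskD_integrable_sq : Integrable (fun t : ℝ => t ^ 2) (gaussianReal 0 1) := by
  have hmem : MemLp (id : ℝ → ℝ) 2 (gaussianReal 0 1) := by
    simpa using memLp_id_gaussianReal (μ := 0) (v := 1) 2
  exact hmem.integrable_sq

theorem taskD_integral_sq : ∫ t, t ^ 2 ∂(gaussianReal 0 1) = 1 := by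
  have h1 : Var[id; gaussianReal 0 1] = ((1 : ℝ≥0) : ℝ) := variance_id_gaussianReal
  rw [variance_eq_integral measurable_id.aemeasurable] at h1
  have h2 : ∫ x, x ∂(gaussianReal 0 1) = 0 := integral_id_gaussianReal
  simp only [id, NNReal.coe_one] at h1
  rw [h2] at h1
  simpa using h1

theorem taskD_integrable_coord (N : ℕ) (i : Fin N) {f : ℝ → ℝ}
    (hf : Integrable f (gaussianReal 0 1)) :
    Integrable (fun z : Fin N → ℝ => f (z i))
      (Measure.pi fun _ : Fin N => gaussianReal 0 1) := by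
  have hmp := measurePreserving_eval (fun _ : Fin N => gaussianReal 0 1) i
  exact (hmp.integrable_comp hf.aestronglyMeasurable).2 hf

theorem taskD_integral_coord (N : ℕ) (i : Fin N) {f : ℝ → ℝ}
    (hf : Integrable f (gaussianReal 0 1)) :
    ∫ z : Fin N → ℝ, f (z i) ∂(Measure.pi fun _ : Fin N => gaussianReal 0 1)
      = ∫ t, f t ∂(gaussianReal 0 1) := by
  have hmp := measurePreserving_eval (fun _ : Fin N => gaussianReal 0 1) i
  have h := integral_map (μ := Measure.pi fun _ : Fin N => gaussianReal 0 1)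
    (measurable_pi_apply i).aemeasurable (f := f)
    (by rw [hmp.map_eq]; exact hf.aestronglyMeasurable)
  rw [hmp.map_eq] at h
  exact h.symm

theorem integrable_sum_abs (N : ℕ) :
    Integrable (fun z : Fin N → ℝ => ∑ i, |z i|)
      (Measure.pi fun _ : Fin N => gaussianReal 0 1) :=
  integrable_finsetSum _ fun i _ => taskD_integrable_coord N i taskD_integrable_abs

theorem integral_sum_abs (N : ℕ) :
    ∫ z : Fin N → ℝ, ∑ i, |z i| ∂(Measure.pi fun _ : Fin N => gaussianReal 0 1)
      = N * Real.sqrt (2 / Real.pi) := by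
  rw [integral_finsetSum _ fun i _ => taskD_integrable_coord N i taskD_integrable_abs]
  simp only [taskD_integral_coord N _ taskD_integrable_abs, integral_abs_gaussian,
    Finset.sum_const, Finset.card_univ, Fintype.card_fin, nsmul_eq_mul]

theorem taskD_sq_sum_abs_le (N : ℕ) (z : Fin N → ℝ) :
    (∑ i, |z i|) ^ 2 ≤ (N : ℝ) * ∑ i, (z i) ^ 2 := by
  have h := sq_sum_le_card_mul_sum_sq (s := (Finset.univ : Finset (Fin N))) (f := fun i => |z i|)
  simp only [sq_abs, Finset.card_univ, Fintype.card_fin] at h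
  exact h

theorem taskD_integrable_bound (N : ℕ) :
    Integrable (fun z : Fin N → ℝ => (N : ℝ) * ∑ i, (z i) ^ 2)
      (Measure.pi fun _ : Fin N => gaussianReal 0 1) :=
  (integrable_finsetSum _ fun i _ => taskD_integrable_coord N i taskD_integrable_sq).const_mul _

theorem integrable_sum_abs_sq (N : ℕ) :
    Integrable (fun z : Fin N → ℝ => (∑ i, |z i|) ^ 2)
      (Measure.pi fun _ : Fin N => gaussianReal 0 1) := by
  refine (taskD_integrable_bound N).mono' ?_ (Filter.Eventually.of_forall fun z => ?_)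
  · exact ((integrable_sum_abs N).aestronglyMeasurable).pow 2
  · rw [Real.norm_eq_abs, abs_of_nonneg (sq_nonneg _)]
    exact taskD_sq_sum_abs_le N z

theorem integral_sum_abs_sq_le (N : ℕ) :
    ∫ z : Fin N → ℝ, (∑ i, |z i|) ^ 2 ∂(Measure.pi fun _ : Fin N => gaussianReal 0 1)
      ≤ (N : ℝ) ^ 2 := by
  calc ∫ z : Fin N → ℝ, (∑ i, |z i|) ^ 2 ∂(Measure.pi fun _ : Fin N => gaussianReal 0 1)
      ≤ ∫ z : Fin N → ℝ, (N : ℝ) * ∑ i, (z i) ^ 2
          ∂(Measure.pi fun _ : Fin N => gaussianReal 0 1) :=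
        integral_mono (integrable_sum_abs_sq N) (taskD_integrable_bound N)
          (fun z => taskD_sq_sum_abs_le N z)
    _ = (N : ℝ) ^ 2 := by
        rw [integral_const_mul,
          integral_finsetSum _ fun i _ => taskD_integrable_coord N i taskD_integrable_sq]
        simp only [taskD_integral_coord N _ taskD_integrable_sq, taskD_integral_sq,
          Finset.sum_const, Finset.card_univ, Fintype.card_fin, nsmul_eq_mul, mul_one]
        ring

end Vale.Agent.Lib.P157
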