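import Vale.Agent.Lib.P157.Defs

namespace Vale.Agent.Lib.P157

open MeasureTheory ProbabilityTheory

/-- Concatenation of two real vectors is measurable. -/
theorem appendG_measurable (N₁ N₂ : ℕ) :
    Measurable (fun q : (Fin N₁ → ℝ) × (Fin N₂ → ℝ) => Fin.append q.1 q.2) := by
  rw [measurable_pi_iff]
  intro i
  refine Fin.addCases (fun i => ?_) (fun j => ?_) i
  · simp only [Fin.append_left]
    exact (measurable_pi_apply i).comp measurable_fst
  · simp only [Fin.append_right]
    exact (measurable_pi_apply j).comp measurable_snd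

/-- Row level: the product of two iid vectors, concatenated, is an iid vector. -/
theorem appendG_row (N₁ N₂ : ℕ) (γ : Measure ℝ) [SigmaFinite γ] :
    ((Measure.pi fun _ : Fin N₁ => γ).prod (Measure.pi fun _ : Fin N₂ => γ)).map
      (fun q : (Fin N₁ → ℝ) × (Fin N₂ → ℝ) => Fin.append q.1 q.2) =
      Measure.pi fun _ : Fin (N₁ + N₂) => γ := by
  symm
  refine Measure.pi_eq (fun t ht => ?_)
  rw [Measure.map_apply (appendG_measurable N₁ N₂) (MeasurableSet.univ_pi ht)]
  have hpre : (fun q : (Fin N₁ → ℝ) × (Fin N₂ → ℝ) => Fin.append q.1 q.2) ⁻¹'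
      (Set.pi Set.univ t) =
      (Set.pi Set.univ (fun i => t (Fin.castAdd N₂ i))) ×ˢ
        (Set.pi Set.univ (fun j => t (Fin.natAdd N₁ j))) := by
    ext q
    simp only [Set.mem_preimage, Set.mem_pi, Set.mem_univ, true_imp_iff, Set.mem_prod]
    constructor
    · intro h
      refine ⟨fun i => ?_, fun j => ?_⟩
      · have h1 := h (Fin.castAdd N₂ i)
        rwa [Fin.append_left] at h1
      · have h1 := h (Fin.natAdd N₁ j)
        rwa [Fin.append_right] at h1
    · rintro ⟨h1, h2⟩ i
      refine Fin.addCases (fun i => ?_) (fun j => ?_) i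
      · rw [Fin.append_left]
        exact h1 i
      · rw [Fin.append_right]
        exact h2 j
  rw [hpre, Measure.prod_prod, Measure.pi_pi, Measure.pi_pi, Fin.prod_univ_add]

/-- An `M × (N₁ + N₂)` array of iid standard Gaussians is obtained by placing an independent
`M × N₁` array and an `M × N₂` array side by side. -/
theorem map_append_patternLaw (M N₁ N₂ : ℕ) :
    ((patternLaw M N₁).prod (patternLaw M N₂)).map
      (fun p : (Fin M → Fin N₁ → ℝ) × (Fin M → Fin N₂ → ℝ) =>
        fun a => Fin.append (p.1 a) (p.2 a))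
      = patternLaw M (N₁ + N₂) := by
  unfold patternLaw
  have e := (measurePreserving_arrowProdEquivProdArrow (Fin N₁ → ℝ) (Fin N₂ → ℝ) (Fin M)
    (fun _ => Measure.pi fun _ : Fin N₁ => gaussianReal 0 1)
    (fun _ => Measure.pi fun _ : Fin N₂ => gaussianReal 0 1)).symm
  have hcomp : (fun p : (Fin M → Fin N₁ → ℝ) × (Fin M → Fin N₂ → ℝ) =>
      fun a => Fin.append (p.1 a) (p.2 a)) =
      (fun (x : Fin M → (Fin N₁ → ℝ) × (Fin N₂ → ℝ)) a => Fin.append (x a).1 (x a).2) ∘
        (MeasurableEquiv.arrowProdEquivProdArrow (Fin N₁ → ℝ) (Fin N₂ → ℝ) (Fin M)).symm := by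
    funext p
    rfl
  have hmeas : Measurable (fun (x : Fin M → (Fin N₁ → ℝ) × (Fin N₂ → ℝ)) a =>
      Fin.append (x a).1 (x a).2) := by
    rw [measurable_pi_iff]
    intro a
    exact (appendG_measurable N₁ N₂).comp (measurable_pi_apply a)
  rw [hcomp, ← Measure.map_map hmeas e.measurable, e.map_eq]
  have hsf : ∀ _a : Fin M, SigmaFinite
      (((Measure.pi fun _ : Fin N₁ => gaussianReal 0 1).prod
        (Measure.pi fun _ : Fin N₂ => gaussianReal 0 1)).map
        (fun q : (Fin N₁ → ℝ) × (Fin N₂ → ℝ) => Fin.append q.1 q.2)) := by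
    intro _
    rw [appendG_row]
    infer_instance
  have h := Measure.pi_map_pi
    (μ := fun _ : Fin M => (Measure.pi fun _ : Fin N₁ => gaussianReal 0 1).prod
      (Measure.pi fun _ : Fin N₂ => gaussianReal 0 1))
    (f := fun (_ : Fin M) (q : (Fin N₁ → ℝ) × (Fin N₂ → ℝ)) => Fin.append q.1 q.2)
    (fun _ => (appendG_measurable N₁ N₂).aemeasurable)
  refine h.trans ?_
  congr 1
  funext _
  exact appendG_row N₁ N₂ (gaussianReal 0 1)

end Vale.Agent.Lib.P157
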