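import Vale.Agent.Lib.P157.Defs

namespace Vale.Agent.Lib.P157

open MeasureTheory ProbabilityTheory

/-- The column decomposition as a linear map. -/
noncomputable def colDecompLin (M N : ℕ) (a : Fin M) :
    (Fin M → Fin N → ℝ) →ₗ[ℝ] (Fin N → ℝ) × (Fin N → ℝ) where
  toFun g := ((fun i => (∑ b, g b i) / Real.sqrt M),
    (fun i => (g a i - (∑ b, g b i) / M) / Real.sqrt (1 - 1 / (M : ℝ))))
  map_add' g h := by
    ext i
    · simp only [Pi.add_apply, Finset.sum_add_distrib, Prod.fst_add]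
      ring
    · simp only [Pi.add_apply, Finset.sum_add_distrib, Prod.snd_add]
      ring
  map_smul' c g := by
    ext i
    · simp only [Pi.smul_apply, smul_eq_mul, ← Finset.mul_sum, RingHom.id_apply, Prod.smul_fst]
      ring
    · simp only [Pi.smul_apply, smul_eq_mul, ← Finset.mul_sum, RingHom.id_apply, Prod.smul_snd]
      ring

theorem taskA_sum_delta (M : ℕ) (hM : 1 ≤ M) (a : Fin M) :
    ∑ b : Fin M, ((if b = a then (1 : ℝ) else 0) - 1 / (M : ℝ)) = 0 := by
  have hM0 : (M : ℝ) ≠ 0 := by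
    have : (0 : ℝ) < M := by exact_mod_cast hM
    exact this.ne'
  rw [Finset.sum_sub_distrib, Finset.sum_ite_eq' Finset.univ a, Finset.sum_const,
    Finset.card_univ, Fintype.card_fin]
  simp only [Finset.mem_univ, if_true, nsmul_eq_mul]
  field_simp
  ring

theorem taskA_sum_delta_sq (M : ℕ) (hM : 1 ≤ M) (a : Fin M) :
    ∑ b : Fin M, ((if b = a then (1 : ℝ) else 0) - 1 / (M : ℝ)) ^ 2 = 1 - 1 / (M : ℝ) := by
  have hM0 : (M : ℝ) ≠ 0 := by
    have : (0 : ℝ) < M := by exact_mod_cast hM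
    exact this.ne'
  have h : ∀ b : Fin M, ((if b = a then (1 : ℝ) else 0) - 1 / (M : ℝ)) ^ 2
      = (if b = a then (1 - 2 / (M : ℝ)) else 0) + 1 / (M : ℝ) ^ 2 := by
    intro b
    split_ifs <;> ring
  simp only [h]
  rw [Finset.sum_add_distrib, Finset.sum_ite_eq' Finset.univ a, Finset.sum_const,
    Finset.card_univ, Fintype.card_fin]
  simp only [Finset.mem_univ, if_true, nsmul_eq_mul]
  field_simp
  ring

theorem taskA_charFunDual_gaussian (l : StrongDual ℝ ℝ) :
    charFunDual (gaussianReal 0 1) l = ((Real.exp (-((l 1) ^ 2 / 2)) : ℝ) : ℂ) := by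
  have h1 : charFunDual (gaussianReal 0 1) l = charFun (gaussianReal 0 1) (l 1) := by
    rw [charFunDual_apply, charFun_apply_real]
    congr 1
    funext v
    have hv : l v = v * l 1 := by
      have := l.map_smul v (1 : ℝ)
      simpa using this
    rw [hv]
    push_cast
    ring_nf
  rw [h1, charFun_gaussianReal]
  push_cast
  congr 1
  ring

theorem taskA_sum_sq (M : ℕ) (hM : 2 ≤ M) (a : Fin M) (s t : ℝ) :
    ∑ b : Fin M, (s / Real.sqrt M + t * (((if b = a then (1 : ℝ) else 0) - 1 / (M : ℝ))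
      / Real.sqrt (1 - 1 / (M : ℝ)))) ^ 2 = s ^ 2 + t ^ 2 := by
  have hM1 : 1 ≤ M := by omega
  have hMpos : (0 : ℝ) < M := by exact_mod_cast hM1
  have hM2 : (2 : ℝ) ≤ M := by exact_mod_cast hM
  have hk2 : 0 < 1 - 1 / (M : ℝ) := by
    have : 1 / (M : ℝ) ≤ 1 / 2 := by
      rw [div_le_div_iff₀ hMpos (by norm_num)]; linarith
    linarith
  have hksq : Real.sqrt (1 - 1 / (M : ℝ)) ^ 2 = 1 - 1 / (M : ℝ) := Real.sq_sqrt hk2.le
  have hsqM : Real.sqrt M ^ 2 = M := Real.sq_sqrt hMpos.le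
  have e : ∀ b : Fin M, (s / Real.sqrt M + t * (((if b = a then (1 : ℝ) else 0) - 1 / (M : ℝ))
      / Real.sqrt (1 - 1 / (M : ℝ)))) ^ 2
      = s ^ 2 / Real.sqrt M ^ 2
        + (2 * s * t / (Real.sqrt M * Real.sqrt (1 - 1 / (M : ℝ))))
          * ((if b = a then (1 : ℝ) else 0) - 1 / (M : ℝ))
        + (t ^ 2 / Real.sqrt (1 - 1 / (M : ℝ)) ^ 2)
          * ((if b = a then (1 : ℝ) else 0) - 1 / (M : ℝ)) ^ 2 := by
    intro b
    ring
  simp only [e]
  rw [Finset.sum_add_distrib, Finset.sum_add_distrib, ← Finset.mul_sum, ← Finset.mul_sum,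
    taskA_sum_delta M hM1 a, taskA_sum_delta_sq M hM1 a, Finset.sum_const, Finset.card_univ,
    Fintype.card_fin, hsqM, hksq, nsmul_eq_mul, mul_zero, add_zero]
  have hMne : (M : ℝ) ≠ 0 := hMpos.ne'
  have hne : (M : ℝ) - 1 ≠ 0 := by
    intro h
    linarith
  field_simp

theorem map_colDecomp (M N : ℕ) (hM : 2 ≤ M) (a : Fin M) :
    (patternLaw M N).map (fun g : Fin M → Fin N → ℝ =>
        ((fun i => (∑ b, g b i) / Real.sqrt M),
         (fun i => (g a i - (∑ b, g b i) / M) / Real.sqrt (1 - 1 / (M:ℝ)))))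
      = (Measure.pi fun _ : Fin N => gaussianReal 0 1).prod
          (Measure.pi fun _ : Fin N => gaussianReal 0 1) := by
  have hM1 : 1 ≤ M := by omega
  have hMpos : (0 : ℝ) < M := by exact_mod_cast hM1
  have hM2 : (2 : ℝ) ≤ M := by exact_mod_cast hM
  have hk2 : 0 < 1 - 1 / (M : ℝ) := by
    have : 1 / (M : ℝ) ≤ 1 / 2 := by
      rw [div_le_div_iff₀ hMpos (by norm_num)]; linarith
    linarith
  have hkpos : 0 < Real.sqrt (1 - 1 / (M : ℝ)) := Real.sqrt_pos.2 hk2
  have hksq : Real.sqrt (1 - 1 / (M : ℝ)) ^ 2 = 1 - 1 / (M : ℝ) := Real.sq_sqrt hk2.le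
  have hsqM : Real.sqrt M ^ 2 = M := Real.sq_sqrt hMpos.le
  have hsqMpos : 0 < Real.sqrt M := Real.sqrt_pos.2 hMpos
  let T : (Fin M → Fin N → ℝ) →L[ℝ] (Fin N → ℝ) × (Fin N → ℝ) :=
    LinearMap.toContinuousLinearMap (colDecompLin M N a)
  have hTfun : (fun g : Fin M → Fin N → ℝ =>
        ((fun i => (∑ b, g b i) / Real.sqrt M),
         (fun i => (g a i - (∑ b, g b i) / M) / Real.sqrt (1 - 1 / (M:ℝ))))) = ⇑T := rfl
  rw [hTfun]
  have : IsProbabilityMeasure (patternLaw M N) := by unfold patternLaw; infer_instance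
  apply Measure.ext_of_charFunDual
  funext L
  rw [charFunDual_map, charFunDual_prod]
  unfold patternLaw
  rw [charFunDual_pi, charFunDual_pi, charFunDual_pi]
  simp_rw [charFunDual_pi, taskA_charFunDual_gaussian]
  have hs' : ∀ i : Fin N, ((L ∘SL ContinuousLinearMap.inl ℝ (Fin N → ℝ) (Fin N → ℝ)) ∘SL
      ContinuousLinearMap.single ℝ (fun _ : Fin N => ℝ) i) 1 = L (Pi.single i 1, 0) := by
    intro i
    simp
  have ht' : ∀ i : Fin N, ((L ∘SL ContinuousLinearMap.inr ℝ (Fin N → ℝ) (Fin N → ℝ)) ∘SL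
      ContinuousLinearMap.single ℝ (fun _ : Fin N => ℝ) i) 1 = L (0, Pi.single i 1) := by
    intro i
    simp
  have hw : ∀ (b : Fin M) (i : Fin N),
      (((L ∘SL T) ∘SL ContinuousLinearMap.single ℝ (fun _ : Fin M => Fin N → ℝ) b) ∘SL
        ContinuousLinearMap.single ℝ (fun _ : Fin N => ℝ) i) 1
      = L (Pi.single i 1, 0) / Real.sqrt M + L (0, Pi.single i 1)
        * (((if b = a then (1 : ℝ) else 0) - 1 / (M : ℝ)) / Real.sqrt (1 - 1 / (M : ℝ))) := by
    intro b i
    have hT : T (Pi.single b (Pi.single i 1))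
        = (1 / Real.sqrt M) • ((Pi.single i (1 : ℝ), 0) : (Fin N → ℝ) × (Fin N → ℝ))
          + (((if b = a then (1 : ℝ) else 0) - 1 / (M : ℝ)) / Real.sqrt (1 - 1 / (M : ℝ)))
            • ((0, Pi.single i (1 : ℝ)) : (Fin N → ℝ) × (Fin N → ℝ)) := by
      show colDecompLin M N a (Pi.single b (Pi.single i 1)) = _
      have hsum : ∀ j : Fin N, ∑ b' : Fin M,
          (Pi.single b (Pi.single i (1 : ℝ)) : Fin M → Fin N → ℝ) b' j
          = (Pi.single i (1 : ℝ) : Fin N → ℝ) j := by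
        intro j
        rw [Finset.sum_eq_single b]
        · rw [Pi.single_eq_same]
        · intro b' _ hb'
          rw [Pi.single_eq_of_ne hb']
          rfl
        · intro h; exact absurd (Finset.mem_univ b) h
      have hrow : ∀ j : Fin N, (Pi.single b (Pi.single i (1 : ℝ)) : Fin M → Fin N → ℝ) a j
          = (if b = a then (1 : ℝ) else 0) * (Pi.single i (1 : ℝ) : Fin N → ℝ) j := by
        intro j
        by_cases hba : b = a
        · subst hba
          rw [Pi.single_eq_same, if_pos rfl, one_mul]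
        · rw [Pi.single_eq_of_ne (Ne.symm hba), if_neg hba, zero_mul]
          rfl
      ext j
      · simp only [colDecompLin, LinearMap.coe_mk, AddHom.coe_mk, hsum, Prod.fst_add,
          Prod.smul_fst, Pi.add_apply, Pi.smul_apply, smul_eq_mul, Pi.zero_apply, mul_zero,
          add_zero]
        ring
      · simp only [colDecompLin, LinearMap.coe_mk, AddHom.coe_mk, hsum, hrow, Prod.snd_add,
          Prod.smul_snd, Pi.add_apply, Pi.smul_apply, smul_eq_mul, Pi.zero_apply, mul_zero,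
          zero_add]
        ring
    have hcomp : (((L ∘SL T) ∘SL ContinuousLinearMap.single ℝ (fun _ : Fin M => Fin N → ℝ) b) ∘SL
        ContinuousLinearMap.single ℝ (fun _ : Fin N => ℝ) i) 1
        = L (T (Pi.single b (Pi.single i 1))) := by
      simp
    rw [hcomp, hT, map_add, map_smul, map_smul]
    simp only [smul_eq_mul]
    ring
  simp_rw [hs', ht', hw]
  have hreal : (∏ b : Fin M, ∏ i : Fin N, Real.exp (-((L (Pi.single i 1, 0) / Real.sqrt M
      + L (0, Pi.single i 1) * (((if b = a then (1 : ℝ) else 0) - 1 / (M : ℝ))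
        / Real.sqrt (1 - 1 / (M : ℝ)))) ^ 2 / 2)))
      = (∏ i : Fin N, Real.exp (-(L (Pi.single i 1, 0) ^ 2 / 2)))
        * ∏ i : Fin N, Real.exp (-(L (0, Pi.single i 1) ^ 2 / 2)) := by
    simp_rw [← Real.exp_sum]
    rw [← Real.exp_add]
    congr 1
    rw [Finset.sum_comm, ← Finset.sum_add_distrib]
    apply Finset.sum_congr rfl
    intro i _
    have h := taskA_sum_sq M hM a (L (Pi.single i 1, 0)) (L (0, Pi.single i 1))
    rw [Finset.sum_neg_distrib, ← Finset.sum_div, h]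
    ring
  exact_mod_cast hreal

end Vale.Agent.Lib.P157
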