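import Mathlib

namespace Vale.Agent.Lib.P157

open MeasureTheory ProbabilityTheory

/-- The law of the patterns: an `M × N` array of independent standard Gaussian entries,
row `a` being the pattern `g^a`. -/
noncomputable def patternLaw (M N : ℕ) : Measure (Fin M → Fin N → ℝ) :=
  Measure.pi fun _ : Fin M => Measure.pi fun _ : Fin N => gaussianReal 0 1

/-- The spin value `+1` or `-1` coded by a Boolean. -/
def spin (b : Bool) : ℝ := if b then 1 else -1

/-- The overlap `g^a · x / sqrt N` of pattern `a` with the point `x` of the Ising cube. -/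
noncomputable def overlap {M N : ℕ} (g : Fin M → Fin N → ℝ) (x : Fin N → Bool) (a : Fin M) : ℝ :=
  (∑ i, g a i * spin (x i)) / Real.sqrt N

/-- The pressure `p_N(f)` on the Ising cube `{-1,1}^N` with its uniform probability measure,
for the realization `g` of the `M` patterns. -/
noncomputable def isingPressure (M N : ℕ) (f : ℝ → ℝ) (g : Fin M → Fin N → ℝ) : ℝ :=
  (1 / (N : ℝ)) * Real.log ((∑ x : Fin N → Bool, Real.exp (∑ a, f (overlap g x a))) / 2 ^ N)

end Vale.Agent.Lib.P157
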