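import Vale.Agent.Lib.P157.Defs

namespace Vale.Agent.Lib.P157

open MeasureTheory ProbabilityTheory

lemma sum_rpow_subadd {ι : Type*} (s : Finset ι) (w : ι → ℝ) (hw : ∀ i ∈ s, 0 ≤ w i) {p : ℝ}
    (hp0 : 0 < p) (hp1 : p ≤ 1) : (∑ i ∈ s, w i) ^ p ≤ ∑ i ∈ s, (w i) ^ p := by
  classical
  induction s using Finset.induction_on with
  | empty => simp [Real.zero_rpow hp0.ne']
  | insert a s ha ih =>
    rw [Finset.sum_insert ha, Finset.sum_insert ha]
    have h1 : 0 ≤ w a := hw a (Finset.mem_insert_self a s)
    have h2 : 0 ≤ ∑ i ∈ s, w i := Finset.sum_nonneg fun i hi => hw i (Finset.mem_insert_of_mem hi)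
    calc (w a + ∑ i ∈ s, w i) ^ p ≤ (w a) ^ p + (∑ i ∈ s, w i) ^ p :=
          Real.rpow_add_le_add_rpow h1 h2 hp0.le hp1
      _ ≤ (w a) ^ p + ∑ i ∈ s, (w i) ^ p := by
          gcongr
          exact ih fun i hi => hw i (Finset.mem_insert_of_mem hi)

lemma spin_sq (b : Bool) : spin b ^ 2 = 1 := by
  unfold spin; split <;> norm_num

/-- For a fixed point of the cube, the overlap with one standard Gaussian pattern is standard
Gaussian. -/
lemma map_overlap_row {N : ℕ} (hN : 0 < N) (x : Fin N → Bool) :
    (Measure.pi fun _ : Fin N => gaussianReal 0 1).map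
      (fun y : Fin N → ℝ => (∑ i, y i * spin (x i)) / Real.sqrt N) = gaussianReal 0 1 := by
  set u : EuclideanSpace ℝ (Fin N) := WithLp.toLp 2 (fun i => spin (x i) / Real.sqrt N) with hu
  have hsq : (0 : ℝ) < Real.sqrt N := Real.sqrt_pos.mpr (by exact_mod_cast hN)
  have hnorm : ‖u‖ = 1 := by
    rw [EuclideanSpace.norm_eq]
    have : ∑ i : Fin N, ‖u i‖ ^ 2 = 1 := by
      have h1 : ∀ i : Fin N, ‖u i‖ ^ 2 = 1 / N := by
        intro i
        simp only [hu, Real.norm_eq_abs, sq_abs, div_pow, spin_sq]
        rw [Real.sq_sqrt (by positivity)]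
      simp only [h1, Finset.sum_const, Finset.card_univ, Fintype.card_fin, nsmul_eq_mul]
      field_simp
    rw [this, Real.sqrt_one]
  set L : StrongDual ℝ (EuclideanSpace ℝ (Fin N)) := innerSL ℝ u with hL
  have hfun : (fun y : Fin N → ℝ => (∑ i, y i * spin (x i)) / Real.sqrt N) =
      (fun v => L v) ∘ (WithLp.toLp 2) := by
    funext y
    simp only [Function.comp_apply, hL, innerSL_apply_apply, hu, PiLp.inner_apply,
      RCLike.inner_apply, conj_trivial]
    rw [Finset.sum_div]
    refine Finset.sum_congr rfl fun i _ => ?_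
    ring
  rw [hfun, ← Measure.map_map (by fun_prop) (by fun_prop), map_pi_eq_stdGaussian,
    IsGaussian.map_eq_gaussianReal L, integral_strongDual_stdGaussian, variance_dual_stdGaussian]
  simp [hL, hnorm]

/-- Expectation of a product over patterns of a function of the overlaps. -/
lemma integral_prod_overlap {M N : ℕ} (hN : 0 < N) (x : Fin N → Bool) (F : ℝ → ℝ)
    (hF : Measurable F) :
    ∫ g, ∏ a, F (overlap g x a) ∂(patternLaw M N) = (∫ t, F t ∂(gaussianReal 0 1)) ^ M := by
  unfold patternLaw overlap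
  have h := integral_fintype_prod_eq_prod (𝕜 := ℝ) (ι := Fin M) (E := fun _ => Fin N → ℝ)
    (fun _ (y : Fin N → ℝ) => F ((∑ i, y i * spin (x i)) / Real.sqrt N))
    (μ := fun _ => Measure.pi fun _ : Fin N => gaussianReal 0 1)
  rw [h]
  have hmeas : Measurable (fun y : Fin N → ℝ => (∑ i, y i * spin (x i)) / Real.sqrt N) := by
    fun_prop
  have h2 : ∫ y : Fin N → ℝ, F ((∑ i, y i * spin (x i)) / Real.sqrt N)
      ∂(Measure.pi fun _ : Fin N => gaussianReal 0 1) = ∫ t, F t ∂(gaussianReal 0 1) := by
    have h3 := integral_map (μ := Measure.pi fun _ : Fin N => gaussianReal 0 1)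
      hmeas.aemeasurable (f := F) hF.aestronglyMeasurable
    rw [map_overlap_row hN x] at h3
    exact h3.symm
  simp [h2]

lemma measurable_overlap {M N : ℕ} (x : Fin N → Bool) (a : Fin M) :
    Measurable fun g : Fin M → Fin N → ℝ => overlap g x a := by
  unfold overlap
  fun_prop

instance (M N : ℕ) : IsProbabilityMeasure (patternLaw M N) := by
  unfold patternLaw; infer_instance

/-- The pressure is a bounded measurable function of the patterns, hence integrable. -/
lemma integrable_isingPressure (M N : ℕ) (hN : 0 < N) (f : ℝ → ℝ) (hf : Measurable f)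
    (hb : ∃ C, ∀ t, |f t| ≤ C) : Integrable (isingPressure M N f) (patternLaw M N) := by
  obtain ⟨C, hC⟩ := hb
  have hC0 : 0 ≤ C := le_trans (abs_nonneg _) (hC 0)
  have hNpos : (0 : ℝ) < N := by exact_mod_cast hN
  set P := patternLaw M N with hP
  set W : (Fin N → Bool) → (Fin M → Fin N → ℝ) → ℝ := fun x g => Real.exp (∑ a, f (overlap g x a))
    with hW
  have hWmeas : ∀ x, Measurable (W x) := by
    intro x
    simp only [hW]
    have := fun a => measurable_overlap (M := M) x a
    fun_prop
  have hpmeas : Measurable (isingPressure M N f) := by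
    unfold isingPressure
    have hsum : Measurable fun g : Fin M → Fin N → ℝ => ∑ x : Fin N → Bool, W x g :=
      Finset.measurable_sum _ fun x _ => hWmeas x
    simp only [hW] at hsum
    fun_prop
  have hpbd : ∀ g, |isingPressure M N f g| ≤ (1 / N) * (M * C) := by
    intro g
    unfold isingPressure
    rw [abs_mul, abs_of_nonneg (by positivity : (0 : ℝ) ≤ 1 / N)]
    apply mul_le_mul_of_nonneg_left _ (by positivity)
    have hlow : ∀ x, Real.exp (-(M * C)) ≤ W x g := by
      intro x
      simp only [hW]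
      apply Real.exp_le_exp.mpr
      calc -(M * C) = ∑ _a : Fin M, (-C) := by simp
        _ ≤ ∑ a, f (overlap g x a) := Finset.sum_le_sum fun a _ => (abs_le.mp (hC _)).1
    have hupp : ∀ x, W x g ≤ Real.exp (M * C) := by
      intro x
      simp only [hW]
      apply Real.exp_le_exp.mpr
      calc ∑ a, f (overlap g x a) ≤ ∑ _a : Fin M, C :=
            Finset.sum_le_sum fun a _ => (abs_le.mp (hC _)).2
        _ = M * C := by simp
    have hcard : (∑ _x : Fin N → Bool, (1 : ℝ)) = 2 ^ N := by simp
    have h2pos : (0 : ℝ) < 2 ^ N := by positivity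
    have hlo : Real.exp (-(M * C)) ≤ (∑ x : Fin N → Bool, W x g) / 2 ^ N := by
      rw [le_div_iff₀ h2pos]
      calc Real.exp (-(M * C)) * 2 ^ N = ∑ _x : Fin N → Bool, Real.exp (-(M * C)) := by
            simp [mul_comm]
        _ ≤ ∑ x : Fin N → Bool, W x g := Finset.sum_le_sum fun x _ => hlow x
    have hup : (∑ x : Fin N → Bool, W x g) / 2 ^ N ≤ Real.exp (M * C) := by
      rw [div_le_iff₀ h2pos]
      calc ∑ x : Fin N → Bool, W x g ≤ ∑ _x : Fin N → Bool, Real.exp (M * C) :=
            Finset.sum_le_sum fun x _ => hupp x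
        _ = Real.exp (M * C) * 2 ^ N := by simp [mul_comm]
    have hpos : 0 < (∑ x : Fin N → Bool, W x g) / 2 ^ N := lt_of_lt_of_le (Real.exp_pos _) hlo
    rw [abs_le]
    constructor
    · have := Real.log_le_log (Real.exp_pos _) hlo
      rw [Real.log_exp] at this
      simp only [hW] at this
      linarith
    · have := Real.log_le_log hpos hup
      rw [Real.log_exp] at this
      simp only [hW] at this
      linarith
  have hpint : Integrable (isingPressure M N f) P := by
    refine Integrable.of_bound (C := (1 / N) * (M * C)) hpmeas.aestronglyMeasurable ?_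
    exact Filter.Eventually.of_forall fun g => by rw [Real.norm_eq_abs]; exact hpbd g
  exact hpint

/-- The fractional-moment bound. -/
theorem fractional_moment_bound (M N : ℕ) (hN : 0 < N) (f : ℝ → ℝ) (hf : Measurable f)
    (hb : ∃ C, ∀ t, |f t| ≤ C) (lam : ℝ) (h0 : 0 < lam) (h1 : lam ≤ 1) :
    ∫ g, isingPressure M N f g ∂(patternLaw M N) ≤
      (1 / lam - 1) * Real.log 2 +
        ((M : ℝ) / N) * ((1 / lam) * Real.log (∫ t, Real.exp (lam * f t) ∂(gaussianReal 0 1))) := by
  obtain ⟨C, hC⟩ := hb
  have hC0 : 0 ≤ C := le_trans (abs_nonneg _) (hC 0)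
  have hNpos : (0 : ℝ) < N := by exact_mod_cast hN
  set P := patternLaw M N with hP
  -- weights
  set W : (Fin N → Bool) → (Fin M → Fin N → ℝ) → ℝ := fun x g => Real.exp (∑ a, f (overlap g x a))
    with hW
  set m : ℝ := ∫ t, Real.exp (lam * f t) ∂(gaussianReal 0 1) with hm
  have hmpos : 0 < m := by
    have hle : ∀ t, Real.exp (-(lam * C)) ≤ Real.exp (lam * f t) := by
      intro t
      apply Real.exp_le_exp.mpr
      have := (abs_le.mp (hC t)).1
      nlinarith
    have hint : Integrable (fun t => Real.exp (lam * f t)) (gaussianReal 0 1) := by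
      refine Integrable.of_bound (C := Real.exp (lam * C)) (by fun_prop) ?_
      refine Filter.Eventually.of_forall fun t => ?_
      rw [Real.norm_eq_abs, abs_of_pos (Real.exp_pos _)]
      apply Real.exp_le_exp.mpr
      have := (abs_le.mp (hC t)).2
      nlinarith
    calc 0 < Real.exp (-(lam * C)) := Real.exp_pos _
      _ = ∫ _t, Real.exp (-(lam * C)) ∂(gaussianReal 0 1) := by simp
      _ ≤ m := integral_mono (integrable_const _) hint hle
  -- the random variable Y = sum of the W_x ^ lam
  set Y : (Fin M → Fin N → ℝ) → ℝ := fun g => ∑ x : Fin N → Bool, (W x g) ^ lam with hY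
  have hWpos : ∀ x g, 0 < W x g := fun x g => Real.exp_pos _
  have hWmeas : ∀ x, Measurable (W x) := by
    intro x
    simp only [hW]
    have := fun a => measurable_overlap (M := M) x a
    fun_prop
  have hWlam : ∀ x g, (W x g) ^ lam = ∏ a, Real.exp (lam * f (overlap g x a)) := by
    intro x g
    simp only [hW]
    rw [← Real.exp_mul, ← Real.exp_sum, Finset.sum_mul]
    congr 1
    refine Finset.sum_congr rfl fun a _ => ?_
    ring
  have hEW : ∀ x, ∫ g, (W x g) ^ lam ∂P = m ^ M := by
    intro x
    simp only [hWlam]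
    exact integral_prod_overlap hN x (fun t => Real.exp (lam * f t)) (by fun_prop)
  have hWbd : ∀ x g, (W x g) ^ lam ≤ Real.exp (M * C) := by
    intro x g
    have h1' : W x g ≤ Real.exp (M * C) := by
      simp only [hW]
      apply Real.exp_le_exp.mpr
      calc ∑ a, f (overlap g x a) ≤ ∑ _a : Fin M, C :=
            Finset.sum_le_sum fun a _ => (abs_le.mp (hC _)).2
        _ = M * C := by simp
    have h2' : (1 : ℝ) ≤ Real.exp (M * C) := Real.one_le_exp (by positivity)
    calc (W x g) ^ lam ≤ (Real.exp (M * C)) ^ lam :=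
          Real.rpow_le_rpow (hWpos x g).le h1' h0.le
      _ ≤ (Real.exp (M * C)) ^ (1 : ℝ) := Real.rpow_le_rpow_of_exponent_le h2' h1
      _ = Real.exp (M * C) := Real.rpow_one _
  have hWint : ∀ x, Integrable (fun g => (W x g) ^ lam) P := by
    intro x
    refine Integrable.of_bound (C := Real.exp (M * C)) ?_ ?_
    · exact ((hWmeas x).pow_const lam).aestronglyMeasurable
    · refine Filter.Eventually.of_forall fun g => ?_
      rw [Real.norm_eq_abs, abs_of_pos (Real.rpow_pos_of_pos (hWpos x g) _)]
      exact hWbd x g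
  have hYint : Integrable Y P := by
    simp only [hY]
    exact integrable_finsetSum _ fun x _ => hWint x
  have hEY : ∫ g, Y g ∂P = 2 ^ N * m ^ M := by
    simp only [hY]
    rw [integral_finsetSum _ fun x _ => hWint x]
    simp [hEW]
  have hYpos : ∀ g, 0 < Y g := by
    intro g
    simp only [hY]
    exact Finset.sum_pos (fun x _ => Real.rpow_pos_of_pos (hWpos x g) _) Finset.univ_nonempty
  -- pointwise bound
  set c1 : ℝ := (1 / (N : ℝ)) * (1 / lam) / (2 ^ N * m ^ M) with hc1
  set c0 : ℝ := (1 / (N : ℝ)) * ((1 / lam) * (Real.log (2 ^ N * m ^ M) - 1) - N * Real.log 2)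
    with hc0
  have hpt : ∀ g, isingPressure M N f g ≤ c1 * Y g + c0 := by
    intro g
    unfold isingPressure
    have hS : 0 < ∑ x : Fin N → Bool, W x g :=
      Finset.sum_pos (fun x _ => hWpos x g) Finset.univ_nonempty
    have hsub : (∑ x : Fin N → Bool, W x g) ^ lam ≤ Y g :=
      sum_rpow_subadd _ _ (fun x _ => (hWpos x g).le) h0 h1
    have hlog1 : Real.log (∑ x : Fin N → Bool, W x g) ≤ (1 / lam) * Real.log (Y g) := by
      have : Real.log ((∑ x : Fin N → Bool, W x g) ^ lam) ≤ Real.log (Y g) :=
        Real.log_le_log (Real.rpow_pos_of_pos hS _) hsub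
      rw [Real.log_rpow hS] at this
      rw [one_div, inv_mul_eq_div, le_div_iff₀ h0]
      linarith
    have hK : 0 < (2 : ℝ) ^ N * m ^ M := by positivity
    have hlog2 : Real.log (Y g) ≤ Y g / (2 ^ N * m ^ M) - 1 + Real.log (2 ^ N * m ^ M) := by
      have h3 := Real.log_le_sub_one_of_pos (div_pos (hYpos g) hK)
      rw [Real.log_div (hYpos g).ne' hK.ne'] at h3
      linarith
    have hlog3 : Real.log ((∑ x : Fin N → Bool, W x g) / 2 ^ N) =
        Real.log (∑ x : Fin N → Bool, W x g) - N * Real.log 2 := by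
      rw [Real.log_div hS.ne' (by positivity), Real.log_pow]
    simp only [hW] at hlog3 hlog1
    rw [hlog3]
    have h5 : (1 / lam) * Real.log (Y g) ≤
        (1 / lam) * (Y g / (2 ^ N * m ^ M) - 1 + Real.log (2 ^ N * m ^ M)) :=
      mul_le_mul_of_nonneg_left hlog2 (by positivity)
    have h6 : c1 * Y g + c0 = (1 / (N : ℝ)) * ((1 / lam) * (Y g / (2 ^ N * m ^ M) - 1 +
        Real.log (2 ^ N * m ^ M)) - N * Real.log 2) := by
      simp only [hc1, hc0]
      field_simp
      ring
    rw [h6]
    apply mul_le_mul_of_nonneg_left _ (by positivity)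
    linarith
  have hint2 : Integrable (fun g => c1 * Y g + c0) P :=
    (hYint.const_mul c1).add (integrable_const _)
  have hpint : Integrable (isingPressure M N f) P := integrable_isingPressure M N hN f hf ⟨C, hC⟩
  have hK : 0 < (2 : ℝ) ^ N * m ^ M := by positivity
  calc ∫ g, isingPressure M N f g ∂P
      ≤ ∫ g, (c1 * Y g + c0) ∂P := integral_mono hpint hint2 hpt
    _ = c1 * (2 ^ N * m ^ M) + c0 := by
        rw [integral_add (hYint.const_mul c1) (integrable_const _), integral_const_mul, hEY]
        simp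
    _ = (1 / lam - 1) * Real.log 2 + ((M : ℝ) / N) * ((1 / lam) * Real.log m) := by
        simp only [hc1, hc0]
        rw [Real.log_mul (by positivity) (by positivity), Real.log_pow, Real.log_pow]
        field_simp
        ring

end Vale.Agent.Lib.P157
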