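import Vale.Agent.Lib.P157.FractionalMoment

namespace Vale.Agent.Lib.P157

open MeasureTheory ProbabilityTheory

/-- Expectation of a function of a single overlap. -/
lemma integral_overlap {M N : ℕ} (hN : 0 < N) (x : Fin N → Bool) (a : Fin M) (F : ℝ → ℝ)
    (hF : Measurable F) :
    ∫ g, F (overlap g x a) ∂(patternLaw M N) = ∫ t, F t ∂(gaussianReal 0 1) := by
  unfold patternLaw overlap
  have hmeas : Measurable (fun y : Fin N → ℝ => (∑ i, y i * spin (x i)) / Real.sqrt N) := by
    fun_prop
  have h1 := (measurePreserving_eval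
    (fun _ : Fin M => Measure.pi fun _ : Fin N => gaussianReal 0 1) a)
  have h2 := integral_map (μ := Measure.pi fun _ : Fin M => Measure.pi fun _ : Fin N =>
    gaussianReal 0 1) (φ := Function.eval a) (measurable_pi_apply a).aemeasurable
    (f := fun y : Fin N → ℝ => F ((∑ i, y i * spin (x i)) / Real.sqrt N))
    (hF.comp hmeas).aestronglyMeasurable
  rw [h1.map_eq] at h2
  have h3 := integral_map (μ := Measure.pi fun _ : Fin N => gaussianReal 0 1)
      hmeas.aemeasurable (f := F) hF.aestronglyMeasurable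
  rw [map_overlap_row hN x] at h3
  rw [h3]
  exact h2.symm

/-- Jensen lower bound. -/
theorem jensen_lower_bound (M N : ℕ) (hN : 0 < N) (f : ℝ → ℝ) (hf : Measurable f)
    (hb : ∃ C, ∀ t, |f t| ≤ C) :
    ((M : ℝ) / N) * ∫ t, f t ∂(gaussianReal 0 1) ≤
      ∫ g, isingPressure M N f g ∂(patternLaw M N) := by
  obtain ⟨C, hC⟩ := hb
  have hNpos : (0 : ℝ) < N := by exact_mod_cast hN
  set P := patternLaw M N with hP
  have h2pos : (0 : ℝ) < 2 ^ N := by positivity
  -- pointwise lower bound
  have hpt : ∀ g : Fin M → Fin N → ℝ,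
      (1 / (N : ℝ)) * ((∑ x : Fin N → Bool, ∑ a, f (overlap g x a)) / 2 ^ N) ≤
        isingPressure M N f g := by
    intro g
    unfold isingPressure
    apply mul_le_mul_of_nonneg_left _ (by positivity)
    set H : (Fin N → Bool) → ℝ := fun x => ∑ a, f (overlap g x a) with hH
    set hbar : ℝ := (∑ x : Fin N → Bool, H x) / 2 ^ N with hhbar
    have hcard : (∑ _x : Fin N → Bool, (1 : ℝ)) = 2 ^ N := by simp
    have key : Real.exp hbar ≤ (∑ x : Fin N → Bool, Real.exp (H x)) / 2 ^ N := by
      rw [le_div_iff₀ h2pos]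
      have h1 : ∀ x, Real.exp hbar * (1 + (H x - hbar)) ≤ Real.exp (H x) := by
        intro x
        have := Real.add_one_le_exp (H x - hbar)
        have h3 : Real.exp (H x) = Real.exp hbar * Real.exp (H x - hbar) := by
          rw [← Real.exp_add]; congr 1; ring
        rw [h3]
        apply mul_le_mul_of_nonneg_left _ (Real.exp_pos _).le
        linarith
      calc Real.exp hbar * 2 ^ N
          = ∑ x : Fin N → Bool, Real.exp hbar * (1 + (H x - hbar)) := by
            rw [← Finset.mul_sum, Finset.sum_add_distrib, Finset.sum_sub_distrib, hcard]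
            have : ∑ _x : Fin N → Bool, hbar = hbar * 2 ^ N := by simp [mul_comm]
            rw [this, hhbar]
            field_simp
            ring
        _ ≤ ∑ x : Fin N → Bool, Real.exp (H x) := Finset.sum_le_sum fun x _ => h1 x
    have := Real.log_le_log (Real.exp_pos _) key
    rw [Real.log_exp] at this
    exact this
  have hfint : ∀ (x : Fin N → Bool) (a : Fin M),
      Integrable (fun g : Fin M → Fin N → ℝ => f (overlap g x a)) P := by
    intro x a
    refine Integrable.of_bound (C := C) ?_ ?_
    · exact (hf.comp (measurable_overlap x a)).aestronglyMeasurable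
    · exact Filter.Eventually.of_forall fun g => by rw [Real.norm_eq_abs]; exact hC _
  have hint1 : Integrable (fun g : Fin M → Fin N → ℝ =>
      (1 / (N : ℝ)) * ((∑ x : Fin N → Bool, ∑ a, f (overlap g x a)) / 2 ^ N)) P := by
    apply Integrable.const_mul
    apply Integrable.div_const
    exact integrable_finsetSum _ fun x _ => integrable_finsetSum _ fun a _ => hfint x a
  have hE : ∫ g, (1 / (N : ℝ)) * ((∑ x : Fin N → Bool, ∑ a, f (overlap g x a)) / 2 ^ N) ∂P =
      ((M : ℝ) / N) * ∫ t, f t ∂(gaussianReal 0 1) := by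
    rw [integral_const_mul, integral_div,
      integral_finsetSum _ fun x _ => integrable_finsetSum _ fun a _ => hfint x a]
    have : ∀ x : Fin N → Bool, ∫ g, ∑ a, f (overlap g x a) ∂P =
        M * ∫ t, f t ∂(gaussianReal 0 1) := by
      intro x
      rw [integral_finsetSum _ fun a _ => hfint x a]
      simp [hP, integral_overlap hN x _ f hf]
    simp only [this, Finset.sum_const, Finset.card_univ, Fintype.card_pi, Fintype.card_bool,
      Finset.prod_const, Fintype.card_fin, nsmul_eq_mul]
    push_cast
    field_simp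
  rw [← hE]
  exact integral_mono hint1 (integrable_isingPressure M N hN f hf ⟨C, hC⟩) hpt


/-- Hoeffding bound on the logarithmic moment generating function of a bounded function of a
standard Gaussian. -/
lemma log_mgf_le (f : ℝ → ℝ) (hf : Measurable f) (a b : ℝ) (hab : ∀ t, a ≤ f t ∧ f t ≤ b)
    (lam : ℝ) :
    Real.log (∫ t, Real.exp (lam * f t) ∂(gaussianReal 0 1)) ≤
      lam * ∫ t, f t ∂(gaussianReal 0 1) + (b - a) ^ 2 * lam ^ 2 / 8 := by
  set γ := gaussianReal 0 1 with hγ
  set e : ℝ := ∫ t, f t ∂γ with he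
  have hle : a ≤ b := le_trans (hab 0).1 (hab 0).2
  have hsub := hasSubgaussianMGF_of_mem_Icc (μ := γ) (X := f) (a := a) (b := b)
    hf.aemeasurable (Filter.Eventually.of_forall fun t => ⟨(hab t).1, (hab t).2⟩)
  have h1 := hsub.mgf_le lam
  simp only [mgf] at h1
  have h2 : ∫ t, Real.exp (lam * f t) ∂γ =
      Real.exp (lam * e) * ∫ t, Real.exp (lam * (f t - e)) ∂γ := by
    rw [← integral_const_mul]
    congr 1
    funext t
    rw [← Real.exp_add]
    congr 1
    ring
  have hpos : 0 < ∫ t, Real.exp (lam * (f t - e)) ∂γ := by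
    apply integral_exp_pos
    exact hsub.integrable_exp_mul lam
  rw [h2, Real.log_mul (Real.exp_pos _).ne' hpos.ne', Real.log_exp]
  have h3 := Real.log_le_log hpos h1
  rw [Real.log_exp] at h3
  have h5 : (((‖b - a‖₊ / 2) ^ 2 : NNReal) : ℝ) = (b - a) ^ 2 / 4 := by
    push_cast
    rw [Real.norm_eq_abs, abs_of_nonneg (by linarith)]
    ring
  rw [h5] at h3
  linarith

/-- The fractional-moment bound combined with the Hoeffding bound. -/
lemma hoeffding_fractional (M N : ℕ) (hN : 0 < N) (f : ℝ → ℝ) (hf : Measurable f) (a b : ℝ)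
    (hab : ∀ t, a ≤ f t ∧ f t ≤ b) (lam : ℝ) (h0 : 0 < lam) (h1 : lam ≤ 1) :
    ∫ g, isingPressure M N f g ∂(patternLaw M N) ≤
      ((M : ℝ) / N) * ∫ t, f t ∂(gaussianReal 0 1) + (1 / lam - 1) * Real.log 2 +
        ((M : ℝ) / N) * (b - a) ^ 2 * lam / 8 := by
  have hb : ∃ C, ∀ t, |f t| ≤ C := by
    refine ⟨max |a| |b|, fun t => ?_⟩
    rw [abs_le]
    have h1 := (hab t).1
    have h2 := (hab t).2
    constructor
    · have := neg_abs_le a
      have := le_max_left |a| |b|
      linarith
    · have := le_abs_self b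
      have := le_max_right |a| |b|
      linarith
  have hfm := fractional_moment_bound M N hN f hf hb lam h0 h1
  have hlog := log_mgf_le f hf a b hab lam
  have hα : (0 : ℝ) ≤ (M : ℝ) / N := by positivity
  have h3 : ((M : ℝ) / N) * ((1 / lam) * Real.log (∫ t, Real.exp (lam * f t) ∂(gaussianReal 0 1)))
      ≤ ((M : ℝ) / N) * ((1 / lam) * (lam * ∫ t, f t ∂(gaussianReal 0 1) +
        (b - a) ^ 2 * lam ^ 2 / 8)) := by
    apply mul_le_mul_of_nonneg_left _ hα
    apply mul_le_mul_of_nonneg_left hlog (by positivity)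
  have h4 : ((M : ℝ) / N) * ((1 / lam) * (lam * ∫ t, f t ∂(gaussianReal 0 1) +
        (b - a) ^ 2 * lam ^ 2 / 8)) = ((M : ℝ) / N) * ∫ t, f t ∂(gaussianReal 0 1) +
        ((M : ℝ) / N) * (b - a) ^ 2 * lam / 8 := by
    field_simp
  linarith

/-- Upper bound at all densities: the Jensen lower bound is sharp up to a square-root term. -/
theorem sqrt_upper_bound (M N : ℕ) (hN : 0 < N) (f : ℝ → ℝ) (hf : Measurable f) (a b : ℝ)
    (hab : ∀ t, a ≤ f t ∧ f t ≤ b) :
    ∫ g, isingPressure M N f g ∂(patternLaw M N) ≤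
      ((M : ℝ) / N) * ∫ t, f t ∂(gaussianReal 0 1) +
        (b - a) * Real.sqrt (((M : ℝ) / N) * Real.log 2 / 2) := by
  have hle : a ≤ b := le_trans (hab 0).1 (hab 0).2
  have hα : (0 : ℝ) ≤ (M : ℝ) / N := by positivity
  have hl2 : 0 < Real.log 2 := Real.log_pos (by norm_num)
  set α : ℝ := (M : ℝ) / N with hαdef
  set d : ℝ := b - a with hd
  have hd0 : 0 ≤ d := by simp only [hd]; linarith
  set s : ℝ := Real.sqrt (α * Real.log 2 / 2) with hs
  have hs0 : 0 ≤ s := Real.sqrt_nonneg _
  have hs2 : s ^ 2 = α * Real.log 2 / 2 := Real.sq_sqrt (by positivity)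
  by_cases hcase : 8 * Real.log 2 ≤ α * d ^ 2
  · -- large density: optimise over lam
    have hαd : 0 < α * d ^ 2 := lt_of_lt_of_le (by positivity) hcase
    have hαpos : 0 < α := by
      rcases eq_or_lt_of_le hα with h | h
      · rw [← h] at hαd; simp at hαd
      · exact h
    have hdpos : 0 < d := by
      rcases eq_or_lt_of_le hd0 with h | h
      · rw [← h] at hαd; simp at hαd
      · exact h
    have hspos : 0 < s := by
      rw [hs]; exact Real.sqrt_pos.mpr (by positivity)
    set lam : ℝ := 4 * s / (α * d) with hlam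
    have hlam0 : 0 < lam := by rw [hlam]; positivity
    have hlam1 : lam ≤ 1 := by
      rw [hlam, div_le_one (by positivity)]
      have h16 : (4 * s) ^ 2 ≤ (α * d) ^ 2 := by
        rw [mul_pow, hs2]
        nlinarith
      have := abs_le_of_sq_le_sq' h16 (by positivity)
      linarith [this.2]
    have hb := hoeffding_fractional M N hN f hf a b hab lam hlam0 hlam1
    have hcalc : (1 / lam - 1) * Real.log 2 + α * d ^ 2 * lam / 8 ≤ d * s := by
      have e1 : 1 / lam * Real.log 2 = d * s / 2 := by
        rw [hlam]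
        field_simp
        nlinarith [hs2]
      have e2 : α * d ^ 2 * lam / 8 = d * s / 2 := by
        rw [hlam]
        field_simp
        ring
      nlinarith
    linarith
  · -- small density: the annealed bound suffices
    rw [not_le] at hcase
    have hb := hoeffding_fractional M N hN f hf a b hab 1 one_pos le_rfl
    have hcalc : α * d ^ 2 * 1 / 8 ≤ d * s := by
      have h1 : (α * d ^ 2 / 8) ^ 2 ≤ (d * s) ^ 2 := by
        rw [mul_pow d s, hs2]
        have : α * d ^ 2 * (α * d ^ 2) ≤ α * d ^ 2 * (8 * Real.log 2) :=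
          mul_le_mul_of_nonneg_left hcase.le (by positivity)
        nlinarith
      have := abs_le_of_sq_le_sq' h1 (by positivity)
      linarith [this.2]
    simp only [one_div, inv_one, sub_self, zero_mul, add_zero] at hb
    linarith

end Vale.Agent.Lib.P157
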