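import Mathlib

namespace Vale.Agent.Lib.P157

open MeasureTheory ProbabilityTheory
open scoped NNReal

/-! Gaussian rotation in the plane and two Cauchy-Schwarz lower bounds.
Auxiliary declarations use the stem rotH. -/

theorem rotH_charFunDual_gaussian (l : StrongDual ℝ ℝ) :
    charFunDual (gaussianReal 0 1) l = ((Real.exp (-((l 1) ^ 2 / 2)) : ℝ) : ℂ) := by
  have h1 : charFunDual (gaussianReal 0 1) l = charFun (gaussianReal 0 1) (l 1) := by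
    rw [charFunDual_apply, charFun_apply_real]
    congr 1
    funext v
    have hv : l v = v * l 1 := by
      have := l.map_smul v (1 : ℝ)
      simpa using this
    rw [hv]
    push_cast
    ring_nf
  rw [h1, charFun_gaussianReal]
  push_cast
  congr 1
  ring

/-- The rotation (in fact a reflection) as a continuous linear map. -/
noncomputable def rotHMap (r₁ r₂ : ℝ) : (ℝ × ℝ) →L[ℝ] (ℝ × ℝ) :=
  (r₁ • ContinuousLinearMap.fst ℝ ℝ ℝ + r₂ • ContinuousLinearMap.snd ℝ ℝ ℝ).prod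
    (r₂ • ContinuousLinearMap.fst ℝ ℝ ℝ - r₁ • ContinuousLinearMap.snd ℝ ℝ ℝ)

theorem rotHMap_apply (r₁ r₂ : ℝ) (p : ℝ × ℝ) :
    rotHMap r₁ r₂ p = (r₁ * p.1 + r₂ * p.2, r₂ * p.1 - r₁ * p.2) := by
  simp [rotHMap]

theorem gaussian_rotation (r₁ r₂ : ℝ) (h : r₁ ^ 2 + r₂ ^ 2 = 1) :
    ((gaussianReal 0 1).prod (gaussianReal 0 1)).map
      (fun p : ℝ × ℝ => (r₁ * p.1 + r₂ * p.2, r₂ * p.1 - r₁ * p.2))
      = (gaussianReal 0 1).prod (gaussianReal 0 1) := by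
  have hfun : (fun p : ℝ × ℝ => (r₁ * p.1 + r₂ * p.2, r₂ * p.1 - r₁ * p.2))
      = ⇑(rotHMap r₁ r₂) := by
    funext p
    rw [rotHMap_apply]
  rw [hfun]
  apply Measure.ext_of_charFunDual
  funext L
  rw [charFunDual_map, charFunDual_prod, charFunDual_prod]
  simp_rw [rotH_charFunDual_gaussian]
  have e1 : ((L.comp (rotHMap r₁ r₂)).comp (ContinuousLinearMap.inl ℝ ℝ ℝ)) 1
      = r₁ * L (1, 0) + r₂ * L (0, 1) := by
    have hR : rotHMap r₁ r₂ ((1 : ℝ), (0 : ℝ))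
        = r₁ • (((1 : ℝ), (0 : ℝ)) : ℝ × ℝ) + r₂ • (((0 : ℝ), (1 : ℝ)) : ℝ × ℝ) := by
      rw [rotHMap_apply]
      ext <;> simp
    have hc : ((L.comp (rotHMap r₁ r₂)).comp (ContinuousLinearMap.inl ℝ ℝ ℝ)) 1
        = L (rotHMap r₁ r₂ ((1 : ℝ), (0 : ℝ))) := by
      simp
    rw [hc, hR, map_add, map_smul, map_smul]
    simp only [smul_eq_mul]
  have e2 : ((L.comp (rotHMap r₁ r₂)).comp (ContinuousLinearMap.inr ℝ ℝ ℝ)) 1
      = r₂ * L (1, 0) - r₁ * L (0, 1) := by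
    have hR : rotHMap r₁ r₂ ((0 : ℝ), (1 : ℝ))
        = r₂ • (((1 : ℝ), (0 : ℝ)) : ℝ × ℝ) - r₁ • (((0 : ℝ), (1 : ℝ)) : ℝ × ℝ) := by
      rw [rotHMap_apply]
      ext <;> simp
    have hc : ((L.comp (rotHMap r₁ r₂)).comp (ContinuousLinearMap.inr ℝ ℝ ℝ)) 1
        = L (rotHMap r₁ r₂ ((0 : ℝ), (1 : ℝ))) := by
      simp
    rw [hc, hR, map_sub, map_smul, map_smul]
    simp only [smul_eq_mul]
  have e3 : (L.comp (ContinuousLinearMap.inl ℝ ℝ ℝ)) 1 = L (1, 0) := by simp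
  have e4 : (L.comp (ContinuousLinearMap.inr ℝ ℝ ℝ)) 1 = L (0, 1) := by simp
  rw [e1, e2, e3, e4]
  have hreal : Real.exp (-((r₁ * L (1, 0) + r₂ * L (0, 1)) ^ 2 / 2))
      * Real.exp (-((r₂ * L (1, 0) - r₁ * L (0, 1)) ^ 2 / 2))
      = Real.exp (-(L (1, 0) ^ 2 / 2)) * Real.exp (-(L (0, 1) ^ 2 / 2)) := by
    rw [← Real.exp_add, ← Real.exp_add]
    congr 1
    linear_combination (-(L (1, 0) ^ 2 / 2) - L (0, 1) ^ 2 / 2) * h
  exact_mod_cast hreal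

theorem rotH_measurable (r₁ r₂ : ℝ) :
    Measurable (fun p : ℝ × ℝ => (r₁ * p.1 + r₂ * p.2, r₂ * p.1 - r₁ * p.2)) := by
  fun_prop

theorem rotH_integral_comp (r₁ r₂ : ℝ) (h : r₁ ^ 2 + r₂ ^ 2 = 1) (G : ℝ × ℝ → ℝ)
    (hG : Measurable G) :
    ∫ p : ℝ × ℝ, G (r₁ * p.1 + r₂ * p.2, r₂ * p.1 - r₁ * p.2)
        ∂((gaussianReal 0 1).prod (gaussianReal 0 1))
      = ∫ q, G q ∂((gaussianReal 0 1).prod (gaussianReal 0 1)) := by
  have hm := integral_map (μ := (gaussianReal 0 1).prod (gaussianReal 0 1))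
    (rotH_measurable r₁ r₂).aemeasurable (f := G) hG.aestronglyMeasurable
  rw [gaussian_rotation r₁ r₂ h] at hm
  exact hm.symm

theorem rotH_integrable_comp (r₁ r₂ : ℝ) (h : r₁ ^ 2 + r₂ ^ 2 = 1) (G : ℝ × ℝ → ℝ)
    (hG : Measurable G) (hI : Integrable G ((gaussianReal 0 1).prod (gaussianReal 0 1))) :
    Integrable (fun p : ℝ × ℝ => G (r₁ * p.1 + r₂ * p.2, r₂ * p.1 - r₁ * p.2))
      ((gaussianReal 0 1).prod (gaussianReal 0 1)) := by
  have hI' : Integrable G (((gaussianReal 0 1).prod (gaussianReal 0 1)).map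
      (fun p : ℝ × ℝ => (r₁ * p.1 + r₂ * p.2, r₂ * p.1 - r₁ * p.2))) := by
    rw [gaussian_rotation r₁ r₂ h]
    exact hI
  exact (integrable_map_measure hG.aestronglyMeasurable
    (rotH_measurable r₁ r₂).aemeasurable).1 hI'

theorem rotH_integrable_id : Integrable (fun t : ℝ => t) (gaussianReal 0 1) := by
  have hmem : MemLp (id : ℝ → ℝ) 1 (gaussianReal 0 1) := by
    simpa using memLp_id_gaussianReal (μ := 0) (v := 1) 1
  exact memLp_one_iff_integrable.1 hmem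

theorem rotH_integrable_sq : Integrable (fun t : ℝ => t ^ 2) (gaussianReal 0 1) := by
  have hmem : MemLp (id : ℝ → ℝ) 2 (gaussianReal 0 1) := by
    simpa using memLp_id_gaussianReal (μ := 0) (v := 1) 2
  exact hmem.integrable_sq

theorem rotH_integral_id : ∫ t, t ∂(gaussianReal 0 1) = 0 := integral_id_gaussianReal

theorem rotH_integral_sq : ∫ t, t ^ 2 ∂(gaussianReal 0 1) = 1 := by
  have h1 : Var[id; gaussianReal 0 1] = ((1 : ℝ≥0) : ℝ) := variance_id_gaussianReal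
  rw [variance_eq_integral measurable_id.aemeasurable] at h1
  have h2 : ∫ x, x ∂(gaussianReal 0 1) = 0 := integral_id_gaussianReal
  simp only [id, NNReal.coe_one] at h1
  rw [h2] at h1
  simpa using h1

theorem rotH_bound (f : ℝ → ℝ) (a b : ℝ) (hab : ∀ t, a ≤ f t ∧ f t ≤ b) (t : ℝ) :
    ‖f t‖ ≤ max |a| |b| := by
  rw [Real.norm_eq_abs]
  exact abs_le_max_abs_abs (hab t).1 (hab t).2

theorem rotH_integrable_f (f : ℝ → ℝ) (hf : Measurable f) (a b : ℝ)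
    (hab : ∀ t, a ≤ f t ∧ f t ≤ b) : Integrable f (gaussianReal 0 1) :=
  Integrable.of_bound hf.aestronglyMeasurable (max |a| |b|)
    (Filter.Eventually.of_forall (rotH_bound f a b hab))

theorem rotH_integrable_id_mul (f : ℝ → ℝ) (hf : Measurable f) (a b : ℝ)
    (hab : ∀ t, a ≤ f t ∧ f t ≤ b) :
    Integrable (fun t : ℝ => t * f t) (gaussianReal 0 1) :=
  rotH_integrable_id.mul_bdd hf.aestronglyMeasurable
    (Filter.Eventually.of_forall (rotH_bound f a b hab))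

theorem rotH_integrable_sq_mul (f : ℝ → ℝ) (hf : Measurable f) (a b : ℝ)
    (hab : ∀ t, a ≤ f t ∧ f t ≤ b) :
    Integrable (fun t : ℝ => t ^ 2 * f t) (gaussianReal 0 1) :=
  rotH_integrable_sq.mul_bdd hf.aestronglyMeasurable
    (Filter.Eventually.of_forall (rotH_bound f a b hab))

theorem integral_rotate (F : ℝ → ℝ) (hF : Measurable F) (C : ℝ) (hC : ∀ t, |F t| ≤ C)
    (r₁ r₂ : ℝ) (h : r₁ ^ 2 + r₂ ^ 2 = 1) :
    ∫ u, (∫ t, F (r₁ * u + r₂ * t) ∂(gaussianReal 0 1)) ∂(gaussianReal 0 1)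
      = ∫ t, F t ∂(gaussianReal 0 1) := by
  have hm : Measurable (fun p : ℝ × ℝ => F (r₁ * p.1 + r₂ * p.2)) :=
    hF.comp (by fun_prop)
  have hI : Integrable (fun p : ℝ × ℝ => F (r₁ * p.1 + r₂ * p.2))
      ((gaussianReal 0 1).prod (gaussianReal 0 1)) :=
    Integrable.of_bound hm.aestronglyMeasurable C
      (Filter.Eventually.of_forall fun p => by rw [Real.norm_eq_abs]; exact hC _)
  have h1 := integral_prod (fun p : ℝ × ℝ => F (r₁ * p.1 + r₂ * p.2)) hI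
  have h2 := rotH_integral_comp r₁ r₂ h (fun q : ℝ × ℝ => F q.1) (hF.comp measurable_fst)
  have h3 := integral_fun_fst (μ := gaussianReal 0 1) (ν := gaussianReal 0 1) F
  simp only at h1 h2
  rw [← h1, h2, h3]
  simp

theorem measurable_tiltMoment (f : ℝ → ℝ) (hf : Measurable f) (r₁ r₂ : ℝ) :
    Measurable (fun u : ℝ => ∫ t, t * f (r₁ * u + r₂ * t) ∂(gaussianReal 0 1)) := by
  have hm : Measurable (fun p : ℝ × ℝ => p.2 * f (r₁ * p.1 + r₂ * p.2)) :=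
    measurable_snd.mul (hf.comp (by fun_prop))
  exact (hm.stronglyMeasurable.integral_prod_right').measurable

theorem rotH_cs_aux {P : Measure ℝ} (g w : ℝ → ℝ) (c : ℝ)
    (hg : Integrable (fun u => g u ^ 2) P) (hw : Integrable (fun u => w u ^ 2) P)
    (hgw : Integrable (fun u => g u * w u) P) (hw1 : ∫ u, w u ^ 2 ∂P = 1) :
    ∫ u, (g u - c * w u) ^ 2 ∂P
      = ∫ u, g u ^ 2 ∂P - 2 * c * ∫ u, g u * w u ∂P + c ^ 2 := by
  have e : ∀ u, (g u - c * w u) ^ 2 = g u ^ 2 - 2 * c * (g u * w u) + c ^ 2 * w u ^ 2 := by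
    intro u
    ring
  simp_rw [e]
  have i0 : Integrable (fun u => 2 * c * (g u * w u)) P := hgw.const_mul _
  have i1 : Integrable (fun u => g u ^ 2 - 2 * c * (g u * w u)) P := hg.sub i0
  have i2 : Integrable (fun u => c ^ 2 * w u ^ 2) P := hw.const_mul _
  rw [integral_add i1 i2, integral_sub hg i0, integral_const_mul, integral_const_mul, hw1,
    mul_one]

/-- Cauchy-Schwarz against a weight of unit second moment. -/
theorem rotH_cs {P : Measure ℝ} (g w : ℝ → ℝ)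
    (hg : Integrable (fun u => g u ^ 2) P) (hw : Integrable (fun u => w u ^ 2) P)
    (hgw : Integrable (fun u => g u * w u) P) (hw1 : ∫ u, w u ^ 2 ∂P = 1) :
    (∫ u, g u * w u ∂P) ^ 2 ≤ ∫ u, g u ^ 2 ∂P := by
  have h0 : 0 ≤ ∫ u, (g u - (∫ v, g v * w v ∂P) * w u) ^ 2 ∂P :=
    integral_nonneg fun u => sq_nonneg _
  rw [rotH_cs_aux g w _ hg hw hgw hw1] at h0
  nlinarith

/-- The smoothed first moment is bounded. -/
theorem rotH_tilt_bound (f : ℝ → ℝ) (a b : ℝ) (hab : ∀ t, a ≤ f t ∧ f t ≤ b)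
    (r₁ r₂ : ℝ) (u : ℝ) :
    ‖∫ t, t * f (r₁ * u + r₂ * t) ∂(gaussianReal 0 1)‖
      ≤ ∫ t, |t| * max |a| |b| ∂(gaussianReal 0 1) := by
  refine norm_integral_le_of_norm_le (rotH_integrable_id.abs.mul_const _)
    (Filter.Eventually.of_forall fun t => ?_)
  rw [norm_mul, Real.norm_eq_abs]
  exact mul_le_mul_of_nonneg_left (rotH_bound f a b hab _) (abs_nonneg _)

/-- Rotated integrand for the first moment. -/
noncomputable def rotHG1 (f : ℝ → ℝ) (r₁ r₂ : ℝ) (q : ℝ × ℝ) : ℝ :=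
  r₂ * ((q.1 * f q.1) * 1) - r₁ * (f q.1 * q.2)

/-- Rotated integrand for the second moment. -/
noncomputable def rotHG2 (f : ℝ → ℝ) (r₁ r₂ : ℝ) (q : ℝ × ℝ) : ℝ :=
  r₁ * r₂ * ((q.1 ^ 2 * f q.1) * 1) + (r₂ ^ 2 - r₁ ^ 2) * ((q.1 * f q.1) * q.2)
    - r₁ * r₂ * (f q.1 * q.2 ^ 2)

theorem rotHG1_comp (f : ℝ → ℝ) (r₁ r₂ : ℝ) (h : r₁ ^ 2 + r₂ ^ 2 = 1) (p : ℝ × ℝ) :
    rotHG1 f r₁ r₂ (r₁ * p.1 + r₂ * p.2, r₂ * p.1 - r₁ * p.2)
      = p.2 * f (r₁ * p.1 + r₂ * p.2) := by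
  unfold rotHG1
  simp only
  linear_combination (p.2 * f (r₁ * p.1 + r₂ * p.2)) * h

theorem rotHG2_comp (f : ℝ → ℝ) (r₁ r₂ : ℝ) (h : r₁ ^ 2 + r₂ ^ 2 = 1) (p : ℝ × ℝ) :
    rotHG2 f r₁ r₂ (r₁ * p.1 + r₂ * p.2, r₂ * p.1 - r₁ * p.2)
      = p.2 * f (r₁ * p.1 + r₂ * p.2) * p.1 := by
  unfold rotHG2
  simp only
  linear_combination (p.1 * p.2 * f (r₁ * p.1 + r₂ * p.2)) * (r₁ ^ 2 + r₂ ^ 2 + 1) * h

theorem rotHG1_measurable (f : ℝ → ℝ) (hf : Measurable f) (r₁ r₂ : ℝ) :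
    Measurable (rotHG1 f r₁ r₂) := by
  unfold rotHG1
  have hf1 : Measurable (fun q : ℝ × ℝ => f q.1) := hf.comp measurable_fst
  fun_prop

theorem rotHG2_measurable (f : ℝ → ℝ) (hf : Measurable f) (r₁ r₂ : ℝ) :
    Measurable (rotHG2 f r₁ r₂) := by
  unfold rotHG2
  have hf1 : Measurable (fun q : ℝ × ℝ => f q.1) := hf.comp measurable_fst
  fun_prop

theorem rotHG1_parts (f : ℝ → ℝ) (hf : Measurable f) (a b : ℝ)
    (hab : ∀ t, a ≤ f t ∧ f t ≤ b) :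
    Integrable (fun q : ℝ × ℝ => (q.1 * f q.1) * (1 : ℝ))
        ((gaussianReal 0 1).prod (gaussianReal 0 1)) ∧
      Integrable (fun q : ℝ × ℝ => f q.1 * q.2)
        ((gaussianReal 0 1).prod (gaussianReal 0 1)) :=
  ⟨(rotH_integrable_id_mul f hf a b hab).mul_prod (integrable_const (1 : ℝ)),
    (rotH_integrable_f f hf a b hab).mul_prod rotH_integrable_id⟩

theorem rotHG2_parts (f : ℝ → ℝ) (hf : Measurable f) (a b : ℝ)
    (hab : ∀ t, a ≤ f t ∧ f t ≤ b) :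
    Integrable (fun q : ℝ × ℝ => (q.1 ^ 2 * f q.1) * (1 : ℝ))
        ((gaussianReal 0 1).prod (gaussianReal 0 1)) ∧
      Integrable (fun q : ℝ × ℝ => (q.1 * f q.1) * q.2)
        ((gaussianReal 0 1).prod (gaussianReal 0 1)) ∧
      Integrable (fun q : ℝ × ℝ => f q.1 * q.2 ^ 2)
        ((gaussianReal 0 1).prod (gaussianReal 0 1)) :=
  ⟨(rotH_integrable_sq_mul f hf a b hab).mul_prod (integrable_const (1 : ℝ)),
    (rotH_integrable_id_mul f hf a b hab).mul_prod rotH_integrable_id,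
    (rotH_integrable_f f hf a b hab).mul_prod rotH_integrable_sq⟩

theorem rotHG1_integrable (f : ℝ → ℝ) (hf : Measurable f) (a b : ℝ)
    (hab : ∀ t, a ≤ f t ∧ f t ≤ b) (r₁ r₂ : ℝ) :
    Integrable (rotHG1 f r₁ r₂) ((gaussianReal 0 1).prod (gaussianReal 0 1)) := by
  obtain ⟨h1, h2⟩ := rotHG1_parts f hf a b hab
  exact (h1.const_mul r₂).sub (h2.const_mul r₁)

theorem rotHG2_integrable (f : ℝ → ℝ) (hf : Measurable f) (a b : ℝ)
    (hab : ∀ t, a ≤ f t ∧ f t ≤ b) (r₁ r₂ : ℝ) :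
    Integrable (rotHG2 f r₁ r₂) ((gaussianReal 0 1).prod (gaussianReal 0 1)) := by
  obtain ⟨h1, h2, h3⟩ := rotHG2_parts f hf a b hab
  exact ((h1.const_mul (r₁ * r₂)).add (h2.const_mul (r₂ ^ 2 - r₁ ^ 2))).sub
    (h3.const_mul (r₁ * r₂))

theorem rotHG1_integral (f : ℝ → ℝ) (hf : Measurable f) (a b : ℝ)
    (hab : ∀ t, a ≤ f t ∧ f t ≤ b) (r₁ r₂ : ℝ) :
    ∫ q, rotHG1 f r₁ r₂ q ∂((gaussianReal 0 1).prod (gaussianReal 0 1))
      = r₂ * ∫ t, t * f t ∂(gaussianReal 0 1) := by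
  obtain ⟨h1, h2⟩ := rotHG1_parts f hf a b hab
  unfold rotHG1
  rw [integral_sub (h1.const_mul r₂) (h2.const_mul r₁), integral_const_mul, integral_const_mul,
    integral_prod_mul (fun x : ℝ => x * f x) (fun _ : ℝ => (1 : ℝ)),
    integral_prod_mul f (fun y : ℝ => y), rotH_integral_id]
  simp

theorem rotHG2_integral (f : ℝ → ℝ) (hf : Measurable f) (a b : ℝ)
    (hab : ∀ t, a ≤ f t ∧ f t ≤ b) (r₁ r₂ : ℝ) :
    ∫ q, rotHG2 f r₁ r₂ q ∂((gaussianReal 0 1).prod (gaussianReal 0 1))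
      = r₁ * r₂ * ∫ t, (t ^ 2 - 1) * f t ∂(gaussianReal 0 1) := by
  obtain ⟨h1, h2, h3⟩ := rotHG2_parts f hf a b hab
  have hsplit : ∫ t, (t ^ 2 - 1) * f t ∂(gaussianReal 0 1)
      = (∫ t, t ^ 2 * f t ∂(gaussianReal 0 1)) - ∫ t, f t ∂(gaussianReal 0 1) := by
    rw [← integral_sub (rotH_integrable_sq_mul f hf a b hab) (rotH_integrable_f f hf a b hab)]
    congr 1
    funext t
    ring
  unfold rotHG2
  have i1 : Integrable (fun q : ℝ × ℝ => r₁ * r₂ * ((q.1 ^ 2 * f q.1) * 1))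
      ((gaussianReal 0 1).prod (gaussianReal 0 1)) := h1.const_mul _
  have i2 : Integrable (fun q : ℝ × ℝ => (r₂ ^ 2 - r₁ ^ 2) * ((q.1 * f q.1) * q.2))
      ((gaussianReal 0 1).prod (gaussianReal 0 1)) := h2.const_mul _
  have i3 : Integrable (fun q : ℝ × ℝ => r₁ * r₂ * (f q.1 * q.2 ^ 2))
      ((gaussianReal 0 1).prod (gaussianReal 0 1)) := h3.const_mul _
  have i12 : Integrable (fun q : ℝ × ℝ => r₁ * r₂ * ((q.1 ^ 2 * f q.1) * 1)
      + (r₂ ^ 2 - r₁ ^ 2) * ((q.1 * f q.1) * q.2))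
      ((gaussianReal 0 1).prod (gaussianReal 0 1)) := i1.add i2
  rw [integral_sub i12 i3, integral_add i1 i2,
    integral_const_mul, integral_const_mul, integral_const_mul,
    integral_prod_mul (fun x : ℝ => x ^ 2 * f x) (fun _ : ℝ => (1 : ℝ)),
    integral_prod_mul (fun x : ℝ => x * f x) (fun y : ℝ => y),
    integral_prod_mul f (fun y : ℝ => y ^ 2), rotH_integral_id, rotH_integral_sq, hsplit]
  simp
  ring

/-- Fubini plus rotation for the first moment of the smoothed first moment. -/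
theorem rotH_integral_tilt (f : ℝ → ℝ) (hf : Measurable f) (a b : ℝ)
    (hab : ∀ t, a ≤ f t ∧ f t ≤ b) (r₁ r₂ : ℝ) (h : r₁ ^ 2 + r₂ ^ 2 = 1) :
    ∫ u, (∫ t, t * f (r₁ * u + r₂ * t) ∂(gaussianReal 0 1)) ∂(gaussianReal 0 1)
      = r₂ * ∫ t, t * f t ∂(gaussianReal 0 1) := by
  have hI : Integrable (fun p : ℝ × ℝ => p.2 * f (r₁ * p.1 + r₂ * p.2))
      ((gaussianReal 0 1).prod (gaussianReal 0 1)) := by
    have := rotH_integrable_comp r₁ r₂ h (rotHG1 f r₁ r₂) (rotHG1_measurable f hf r₁ r₂)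
      (rotHG1_integrable f hf a b hab r₁ r₂)
    simp_rw [rotHG1_comp f r₁ r₂ h] at this
    exact this
  have h1 := integral_prod (fun p : ℝ × ℝ => p.2 * f (r₁ * p.1 + r₂ * p.2)) hI
  have h2 := rotH_integral_comp r₁ r₂ h (rotHG1 f r₁ r₂) (rotHG1_measurable f hf r₁ r₂)
  simp_rw [rotHG1_comp f r₁ r₂ h] at h2
  simp only at h1
  rw [← h1, h2, rotHG1_integral f hf a b hab]

/-- Fubini plus rotation for the correlation of the smoothed first moment with the identity. -/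
theorem rotH_integral_tilt_mul (f : ℝ → ℝ) (hf : Measurable f) (a b : ℝ)
    (hab : ∀ t, a ≤ f t ∧ f t ≤ b) (r₁ r₂ : ℝ) (h : r₁ ^ 2 + r₂ ^ 2 = 1) :
    ∫ u, (∫ t, t * f (r₁ * u + r₂ * t) ∂(gaussianReal 0 1)) * u ∂(gaussianReal 0 1)
      = r₁ * r₂ * ∫ t, (t ^ 2 - 1) * f t ∂(gaussianReal 0 1) := by
  have hI : Integrable (fun p : ℝ × ℝ => p.2 * f (r₁ * p.1 + r₂ * p.2) * p.1)
      ((gaussianReal 0 1).prod (gaussianReal 0 1)) := by
    have := rotH_integrable_comp r₁ r₂ h (rotHG2 f r₁ r₂) (rotHG2_measurable f hf r₁ r₂)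
      (rotHG2_integrable f hf a b hab r₁ r₂)
    simp_rw [rotHG2_comp f r₁ r₂ h] at this
    exact this
  have h1 := integral_prod (fun p : ℝ × ℝ => p.2 * f (r₁ * p.1 + r₂ * p.2) * p.1) hI
  have h2 := rotH_integral_comp r₁ r₂ h (rotHG2 f r₁ r₂) (rotHG2_measurable f hf r₁ r₂)
  simp_rw [rotHG2_comp f r₁ r₂ h] at h2
  simp only at h1
  simp_rw [integral_mul_const] at h1
  rw [← h1, h2, rotHG2_integral f hf a b hab]

theorem rotH_tilt_sq_integrable (f : ℝ → ℝ) (hf : Measurable f) (a b : ℝ)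
    (hab : ∀ t, a ≤ f t ∧ f t ≤ b) (r₁ r₂ : ℝ) :
    Integrable (fun u : ℝ => (∫ t, t * f (r₁ * u + r₂ * t) ∂(gaussianReal 0 1)) ^ 2)
      (gaussianReal 0 1) := by
  refine Integrable.of_bound ((measurable_tiltMoment f hf r₁ r₂).pow_const 2).aestronglyMeasurable
    ((∫ t, |t| * max |a| |b| ∂(gaussianReal 0 1)) ^ 2) (Filter.Eventually.of_forall fun u => ?_)
  have hb := rotH_tilt_bound f a b hab r₁ r₂ u
  rw [norm_pow]
  exact pow_le_pow_left₀ (norm_nonneg _) hb 2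

theorem tiltVar_ge_first (f : ℝ → ℝ) (hf : Measurable f) (a b : ℝ) (hab : ∀ t, a ≤ f t ∧ f t ≤ b)
    (r₁ r₂ : ℝ) (h : r₁ ^ 2 + r₂ ^ 2 = 1) :
    r₂ ^ 2 * (∫ t, t * f t ∂(gaussianReal 0 1)) ^ 2 ≤
      ∫ u, (∫ t, t * f (r₁ * u + r₂ * t) ∂(gaussianReal 0 1)) ^ 2 ∂(gaussianReal 0 1) := by
  have hmI : Integrable (fun u : ℝ => ∫ t, t * f (r₁ * u + r₂ * t) ∂(gaussianReal 0 1))
      (gaussianReal 0 1) :=
    Integrable.of_bound (measurable_tiltMoment f hf r₁ r₂).aestronglyMeasurable _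
      (Filter.Eventually.of_forall fun u => rotH_tilt_bound f a b hab r₁ r₂ u)
  have hcs := rotH_cs (P := gaussianReal 0 1)
    (fun u : ℝ => ∫ t, t * f (r₁ * u + r₂ * t) ∂(gaussianReal 0 1)) (fun _ => (1 : ℝ))
    (rotH_tilt_sq_integrable f hf a b hab r₁ r₂) (by simp) (by simpa using hmI) (by simp)
  simp only [mul_one] at hcs
  rw [rotH_integral_tilt f hf a b hab r₁ r₂ h] at hcs
  calc r₂ ^ 2 * (∫ t, t * f t ∂(gaussianReal 0 1)) ^ 2
      = (r₂ * ∫ t, t * f t ∂(gaussianReal 0 1)) ^ 2 := by ring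
    _ ≤ _ := hcs

theorem tiltVar_ge_second (f : ℝ → ℝ) (hf : Measurable f) (a b : ℝ)
    (hab : ∀ t, a ≤ f t ∧ f t ≤ b) (r₁ r₂ : ℝ) (h : r₁ ^ 2 + r₂ ^ 2 = 1) :
    r₁ ^ 2 * r₂ ^ 2 * (∫ t, (t ^ 2 - 1) * f t ∂(gaussianReal 0 1)) ^ 2 ≤
      ∫ u, (∫ t, t * f (r₁ * u + r₂ * t) ∂(gaussianReal 0 1)) ^ 2 ∂(gaussianReal 0 1) := by
  have hmI : Integrable
      (fun u : ℝ => (∫ t, t * f (r₁ * u + r₂ * t) ∂(gaussianReal 0 1)) * u)
      (gaussianReal 0 1) :=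
    rotH_integrable_id.bdd_mul (measurable_tiltMoment f hf r₁ r₂).aestronglyMeasurable
      (Filter.Eventually.of_forall fun u => rotH_tilt_bound f a b hab r₁ r₂ u)
  have hcs := rotH_cs (P := gaussianReal 0 1)
    (fun u : ℝ => ∫ t, t * f (r₁ * u + r₂ * t) ∂(gaussianReal 0 1)) (fun u => u)
    (rotH_tilt_sq_integrable f hf a b hab r₁ r₂) rotH_integrable_sq hmI rotH_integral_sq
  rw [rotH_integral_tilt_mul f hf a b hab r₁ r₂ h] at hcs
  calc r₁ ^ 2 * r₂ ^ 2 * (∫ t, (t ^ 2 - 1) * f t ∂(gaussianReal 0 1)) ^ 2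
      = (r₁ * r₂ * ∫ t, (t ^ 2 - 1) * f t ∂(gaussianReal 0 1)) ^ 2 := by ring
    _ ≤ _ := hcs

end Vale.Agent.Lib.P157
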