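import Mathlib
namespace Vale.Agent.Lib.P157
open MeasureTheory ProbabilityTheory

/-- On a probability space the square of the mean of the absolute value is at most the
second moment. -/
theorem scaleAux_sq_integral_abs_le {μ : Measure ℝ} [IsProbabilityMeasure μ] (h : ℝ → ℝ)
    (h1 : Integrable h μ) (h2 : Integrable (fun t => h t ^ 2) μ) :
    (∫ t, |h t| ∂μ) ^ 2 ≤ ∫ t, h t ^ 2 ∂μ := by
  have hnn : 0 ≤ ∫ t, (|h t| - ∫ u, |h u| ∂μ) ^ 2 ∂μ := integral_nonneg (fun t => sq_nonneg _)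
  have hE : ∀ t, (|h t| - ∫ u, |h u| ∂μ) ^ 2
      = h t ^ 2 + ((-2 * ∫ u, |h u| ∂μ) * |h t| + (∫ u, |h u| ∂μ) ^ 2) := by
    intro t
    rw [sub_sq, sq_abs]
    ring
  have hi1 : Integrable (fun t => (-2 * ∫ u, |h u| ∂μ) * |h t|) μ := h1.abs.const_mul _
  have hi2 : Integrable (fun t => (-2 * ∫ u, |h u| ∂μ) * |h t| + (∫ u, |h u| ∂μ) ^ 2) μ :=
    hi1.add (integrable_const _)
  simp only [hE] at hnn
  rw [integral_add h2 hi2, integral_add hi1 (integrable_const _), integral_const_mul,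
    integral_const] at hnn
  simp only [probReal_univ, smul_eq_mul, one_mul] at hnn
  nlinarith

theorem scaleAux_integrable_bdd (F : ℝ → ℝ) (hF : Measurable F) (a b : ℝ)
    (hab : ∀ t, a ≤ F t ∧ F t ≤ b) : Integrable F (gaussianReal 0 1) :=
  Integrable.of_bound hF.aestronglyMeasurable (max |a| |b|)
    (Filter.Eventually.of_forall (fun t => by
      rw [Real.norm_eq_abs]
      exact abs_le_max_abs_abs (hab t).1 (hab t).2))

theorem scaleAux_center (F : ℝ → ℝ) (a b : ℝ) (hab : ∀ t, a ≤ F t ∧ F t ≤ b) (t : ℝ) :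
    |F t - (a + b) / 2| ≤ (b - a) / 2 := by
  rw [abs_le]
  constructor <;> linarith [(hab t).1, (hab t).2]

/-- A bounded function minus its central value, integrated against a weight, is bounded by
the half-width times the mean absolute weight. -/
theorem scaleAux_weight_bound (F : ℝ → ℝ) (hF : Measurable F) (a b : ℝ)
    (hab : ∀ t, a ≤ F t ∧ F t ≤ b) (w : ℝ → ℝ) (hw : Integrable w (gaussianReal 0 1)) :
    |∫ t, w t * (F t - (a + b) / 2) ∂(gaussianReal 0 1)|
      ≤ (b - a) / 2 * ∫ t, |w t| ∂(gaussianReal 0 1) := by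
  have hbd : ∀ t, |w t * (F t - (a + b) / 2)| ≤ (b - a) / 2 * |w t| := by
    intro t
    rw [abs_mul, mul_comm]
    exact mul_le_mul_of_nonneg_right (scaleAux_center F a b hab t) (abs_nonneg _)
  have hint : Integrable (fun t => w t * (F t - (a + b) / 2)) (gaussianReal 0 1) :=
    hw.mul_bdd (hF.sub_const _).aestronglyMeasurable
      (Filter.Eventually.of_forall (fun t => by
        rw [Real.norm_eq_abs]
        exact scaleAux_center F a b hab t))
  calc |∫ t, w t * (F t - (a + b) / 2) ∂(gaussianReal 0 1)|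
      ≤ ∫ t, |w t * (F t - (a + b) / 2)| ∂(gaussianReal 0 1) := abs_integral_le_integral_abs
    _ ≤ ∫ t, (b - a) / 2 * |w t| ∂(gaussianReal 0 1) :=
        integral_mono hint.abs (hw.abs.const_mul _) hbd
    _ = (b - a) / 2 * ∫ t, |w t| ∂(gaussianReal 0 1) := integral_const_mul _ _

/-- The density ratio of the centred Gaussian of standard deviation k to the standard one. -/
noncomputable def scaleAuxRatio (k u : ℝ) : ℝ :=
  k⁻¹ * Real.exp (-(u ^ 2 / 2) * (k⁻¹ ^ 2 - 1))

/-- The density of the standard Gaussian under a dilation. -/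
theorem scaleAux_pdf (k u : ℝ) (hk : 0 < k) :
    gaussianPDFReal 0 1 (u / k)
      = gaussianPDFReal 0 1 u * Real.exp (-(u ^ 2 / 2) * (k⁻¹ ^ 2 - 1)) := by
  simp only [gaussianPDFReal, NNReal.coe_one, mul_one, sub_zero]
  rw [mul_assoc, ← Real.exp_add]
  congr 2
  field_simp
  ring

/-- Change of variables for a dilated standard Gaussian, valid for every integrand. -/
theorem scaleAux_change (H : ℝ → ℝ) (k : ℝ) (hk : 0 < k) :
    ∫ t, H (k * t) ∂(gaussianReal 0 1)
      = ∫ u, scaleAuxRatio k u * H u ∂(gaussianReal 0 1) := by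
  rw [integral_gaussianReal_eq_integral_smul one_ne_zero,
    integral_gaussianReal_eq_integral_smul one_ne_zero]
  have h1 : ∫ t, gaussianPDFReal 0 1 t • H (k * t)
      = ∫ t, (fun u => gaussianPDFReal 0 1 (u / k) • H u) (k * t) := by
    refine integral_congr_ae (Filter.Eventually.of_forall (fun t => ?_))
    simp only [mul_div_cancel_left₀ _ hk.ne']
  rw [h1, Measure.integral_comp_mul_left (fun u => gaussianPDFReal 0 1 (u / k) • H u) k,
    abs_of_pos (inv_pos.mpr hk), ← integral_smul]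
  refine integral_congr_ae (Filter.Eventually.of_forall (fun u => ?_))
  simp only [scaleAux_pdf k u hk, scaleAuxRatio, smul_eq_mul]
  ring

theorem scaleAux_ratio_nonneg (k u : ℝ) (hk : 0 < k) : 0 ≤ scaleAuxRatio k u :=
  mul_nonneg (inv_pos.mpr hk).le (Real.exp_pos _).le

theorem scaleAux_ratio_le (k u : ℝ) (hk : 0 < k) (hk1 : k ≤ 1) : scaleAuxRatio k u ≤ k⁻¹ := by
  have h1 : (1:ℝ) ≤ k⁻¹ ^ 2 := by
    have : (1:ℝ) ≤ k⁻¹ := (one_le_inv₀ hk).mpr hk1
    nlinarith
  have h2 : Real.exp (-(u ^ 2 / 2) * (k⁻¹ ^ 2 - 1)) ≤ 1 := by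
    rw [Real.exp_le_one_iff]
    have : 0 ≤ u ^ 2 / 2 * (k⁻¹ ^ 2 - 1) := mul_nonneg (by positivity) (by linarith)
    linarith
  calc scaleAuxRatio k u = k⁻¹ * Real.exp (-(u ^ 2 / 2) * (k⁻¹ ^ 2 - 1)) := rfl
    _ ≤ k⁻¹ * 1 := mul_le_mul_of_nonneg_left h2 (inv_pos.mpr hk).le
    _ = k⁻¹ := mul_one _

theorem scaleAux_ratio_continuous (k : ℝ) : Continuous (scaleAuxRatio k) := by
  unfold scaleAuxRatio
  fun_prop

theorem scaleAux_integrable_ratio (k : ℝ) (hk : 0 < k) (hk1 : k ≤ 1) :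
    Integrable (scaleAuxRatio k) (gaussianReal 0 1) :=
  Integrable.of_bound (scaleAux_ratio_continuous k).aestronglyMeasurable k⁻¹
    (Filter.Eventually.of_forall (fun u => by
      rw [Real.norm_eq_abs, abs_of_nonneg (scaleAux_ratio_nonneg k u hk)]
      exact scaleAux_ratio_le k u hk hk1))

theorem scaleAux_integrable_ratio_sq (k : ℝ) (hk : 0 < k) (hk1 : k ≤ 1) :
    Integrable (fun u => scaleAuxRatio k u ^ 2) (gaussianReal 0 1) :=
  Integrable.of_bound ((scaleAux_ratio_continuous k).pow 2).aestronglyMeasurable (k⁻¹ ^ 2)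
    (Filter.Eventually.of_forall (fun u => by
      rw [Real.norm_eq_abs, abs_of_nonneg (sq_nonneg _)]
      exact pow_le_pow_left₀ (scaleAux_ratio_nonneg k u hk) (scaleAux_ratio_le k u hk hk1) 2))

theorem scaleAux_integral_ratio (k : ℝ) (hk : 0 < k) :
    ∫ u, scaleAuxRatio k u ∂(gaussianReal 0 1) = 1 := by
  have h := scaleAux_change (fun _ => (1:ℝ)) k hk
  simp only [mul_one, integral_const, probReal_univ, smul_eq_mul] at h
  exact h.symm

/-- The second moment of the density ratio, through a second dilation. -/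
theorem scaleAux_integral_ratio_sq (k k' : ℝ) (hk' : 0 < k')
    (hrel : k'⁻¹ ^ 2 - 1 = 2 * (k⁻¹ ^ 2 - 1)) :
    ∫ u, scaleAuxRatio k u ^ 2 ∂(gaussianReal 0 1) = k⁻¹ ^ 2 * k' := by
  have hE : ∀ u, scaleAuxRatio k u ^ 2 = (k⁻¹ ^ 2 * k') * scaleAuxRatio k' u := by
    intro u
    unfold scaleAuxRatio
    rw [mul_pow, ← Real.exp_nat_mul, hrel]
    have h2 : ((2:ℕ):ℝ) * (-(u ^ 2 / 2) * (k⁻¹ ^ 2 - 1))
        = -(u ^ 2 / 2) * (2 * (k⁻¹ ^ 2 - 1)) := by
      push_cast
      ring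
    rw [h2]
    field_simp
  simp only [hE]
  rw [integral_const_mul, scaleAux_integral_ratio k' hk', mul_one]

theorem scale_compare (M : ℕ) (hM : 2 ≤ M) (F : ℝ → ℝ) (hF : Measurable F) (a b : ℝ)
    (hab : ∀ t, a ≤ F t ∧ F t ≤ b) :
    |∫ t, F (Real.sqrt (1 - 1 / (M:ℝ)) * t) ∂(gaussianReal 0 1) - ∫ t, F t ∂(gaussianReal 0 1)|
      ≤ (b - a) / (2 * M) := by
  have hab' : a ≤ b := (hab 0).1.trans (hab 0).2
  have hM2 : (2:ℝ) ≤ (M:ℝ) := by exact_mod_cast hM
  have hMpos : (0:ℝ) < (M:ℝ) := by linarith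
  obtain ⟨x, hx⟩ : ∃ x : ℝ, x = 1 / (M:ℝ) := ⟨_, rfl⟩
  have hx0 : 0 < x := by
    rw [hx]
    positivity
  have hx2 : x ≤ 1 / 2 := by
    rw [hx]
    exact one_div_le_one_div_of_le (by norm_num) hM2
  rw [← hx]
  -- the two dilation factors
  have h1x : 0 < 1 - x := by linarith
  have h1px : 0 < 1 + x := by linarith
  obtain ⟨k, hkdef⟩ : ∃ k : ℝ, k = Real.sqrt (1 - x) := ⟨_, rfl⟩
  have hk : 0 < k := by
    rw [hkdef]
    exact Real.sqrt_pos.mpr h1x
  have hksq : k ^ 2 = 1 - x := by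
    rw [hkdef]
    exact Real.sq_sqrt h1x.le
  have hk1 : k ≤ 1 := by
    rw [hkdef]
    exact Real.sqrt_le_one.mpr (by linarith)
  obtain ⟨k', hk'def⟩ : ∃ k' : ℝ, k' = Real.sqrt ((1 - x) / (1 + x)) := ⟨_, rfl⟩
  have hk' : 0 < k' := by
    rw [hk'def]
    exact Real.sqrt_pos.mpr (div_pos h1x h1px)
  have hk'sq : k' ^ 2 = (1 - x) / (1 + x) := by
    rw [hk'def]
    exact Real.sq_sqrt (div_pos h1x h1px).le
  have hkinv : k⁻¹ ^ 2 = 1 / (1 - x) := by
    rw [inv_pow, hksq, one_div]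
  have hk'inv : k'⁻¹ ^ 2 = (1 + x) / (1 - x) := by
    rw [inv_pow, hk'sq, inv_div]
  have hrel : k'⁻¹ ^ 2 - 1 = 2 * (k⁻¹ ^ 2 - 1) := by
    rw [hkinv, hk'inv]
    field_simp
    ring
  rw [← hkdef]
  -- the second moment of the ratio
  have hS := scaleAux_integral_ratio_sq k k' hk' hrel
  have hSle : k⁻¹ ^ 2 * k' ≤ 1 + x ^ 2 := by
    have hnn : 0 ≤ k⁻¹ ^ 2 * k' := by positivity
    have hsq : (k⁻¹ ^ 2 * k') ^ 2 ≤ (1 + x ^ 2) ^ 2 := by
      rw [mul_pow, hk'sq, hkinv]
      have hval : (1 / (1 - x)) ^ 2 * ((1 - x) / (1 + x)) = 1 / ((1 - x) * (1 + x)) := by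
        field_simp
      rw [hval, div_le_iff₀ (mul_pos h1x h1px)]
      have hx4 : x ^ 2 ≤ 1 / 4 := by nlinarith
      nlinarith [sq_nonneg x, sq_nonneg (x ^ 2), mul_nonneg (sq_nonneg x) (sq_nonneg x),
        mul_nonneg (sq_nonneg x) (by linarith : (0:ℝ) ≤ 1 / 4 - x ^ 2)]
    exact (abs_le_of_sq_le_sq' hsq (by positivity)).2
  -- the mean absolute deviation of the ratio from one
  have hr := scaleAux_integrable_ratio k hk hk1
  have hr2 := scaleAux_integrable_ratio_sq k hk hk1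
  have hdiff : Integrable (fun u => scaleAuxRatio k u - 1) (gaussianReal 0 1) :=
    hr.sub (integrable_const _)
  have hEsq : ∀ u, (scaleAuxRatio k u - 1) ^ 2
      = scaleAuxRatio k u ^ 2 + ((-2) * scaleAuxRatio k u + 1) := by
    intro u
    ring
  have hi1 : Integrable (fun u => (-2) * scaleAuxRatio k u + 1) (gaussianReal 0 1) :=
    (hr.const_mul _).add (integrable_const _)
  have hdiff2 : Integrable (fun u => (scaleAuxRatio k u - 1) ^ 2) (gaussianReal 0 1) := by
    simp only [hEsq]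
    exact hr2.add hi1
  have hint2 : ∫ u, (scaleAuxRatio k u - 1) ^ 2 ∂(gaussianReal 0 1) = k⁻¹ ^ 2 * k' - 1 := by
    simp only [hEsq]
    rw [integral_add hr2 hi1, integral_add (hr.const_mul _) (integrable_const _),
      integral_const_mul, hS, scaleAux_integral_ratio k hk, integral_const]
    simp only [probReal_univ, smul_eq_mul]
    ring
  have habs : ∫ u, |scaleAuxRatio k u - 1| ∂(gaussianReal 0 1) ≤ x := by
    have h := scaleAux_sq_integral_abs_le (μ := gaussianReal 0 1)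
      (fun u => scaleAuxRatio k u - 1) hdiff hdiff2
    rw [hint2] at h
    have h3 : (∫ u, |scaleAuxRatio k u - 1| ∂(gaussianReal 0 1)) ^ 2 ≤ x ^ 2 := by linarith
    exact (abs_le_of_sq_le_sq' h3 hx0.le).2
  -- assembling
  have hFint := scaleAux_integrable_bdd F hF a b hab
  have hFbd : ∀ᵐ t ∂(gaussianReal 0 1), ‖F t‖ ≤ max |a| |b| :=
    Filter.Eventually.of_forall (fun t => by
      rw [Real.norm_eq_abs]
      exact abs_le_max_abs_abs (hab t).1 (hab t).2)
  have hrF : Integrable (fun u => scaleAuxRatio k u * F u) (gaussianReal 0 1) :=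
    hr.mul_bdd hF.aestronglyMeasurable hFbd
  have hkey : ∫ t, F (k * t) ∂(gaussianReal 0 1) - ∫ t, F t ∂(gaussianReal 0 1)
      = ∫ u, (scaleAuxRatio k u - 1) * (F u - (a + b) / 2) ∂(gaussianReal 0 1) := by
    have hE : ∀ u : ℝ, (scaleAuxRatio k u - 1) * (F u - (a + b) / 2)
        = (scaleAuxRatio k u * F u - F u) - (a + b) / 2 * (scaleAuxRatio k u - 1) := by
      intro u
      ring
    have hi2 : Integrable (fun u => scaleAuxRatio k u * F u - F u) (gaussianReal 0 1) :=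
      hrF.sub hFint
    simp only [hE]
    rw [integral_sub hi2 (hdiff.const_mul _), integral_sub hrF hFint, integral_const_mul,
      integral_sub hr (integrable_const _), scaleAux_integral_ratio k hk, integral_const,
      scaleAux_change F k hk]
    simp
  rw [hkey]
  refine (scaleAux_weight_bound F hF a b hab _ hdiff).trans ?_
  have hfin : (b - a) / 2 * x = (b - a) / (2 * M) := by
    rw [hx]
    field_simp
  rw [← hfin]
  exact mul_le_mul_of_nonneg_left habs (by linarith)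

end Vale.Agent.Lib.P157
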