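import Vale.Agent.Lib.P157.ScaleCompare
namespace Vale.Agent.Lib.P157
open MeasureTheory ProbabilityTheory

/-- The Gaussian mean of a function with values in `[a, b]` lies in `[a, b]`. -/
theorem scaleGen_integral_mem (G : ℝ → ℝ) (hG : Measurable G) (a b : ℝ)
    (hab : ∀ t, a ≤ G t ∧ G t ≤ b) :
    a ≤ ∫ t, G t ∂(gaussianReal 0 1) ∧ ∫ t, G t ∂(gaussianReal 0 1) ≤ b := by
  have hint := scaleAux_integrable_bdd G hG a b hab
  constructor
  · have h := integral_mono (integrable_const a) hint (fun t => (hab t).1)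
    simpa using h
  · have h := integral_mono hint (integrable_const b) (fun t => (hab t).2)
    simpa using h

/-- The chi-square comparison for a dilation factor `k` with `k ^ 2 = 1 - x`, `0 < x ≤ 1/2`. -/
theorem scaleGen_core (x : ℝ) (hx0 : 0 < x) (hx2 : x ≤ 1 / 2) (k : ℝ) (hk : 0 < k)
    (hksq : k ^ 2 = 1 - x) (F : ℝ → ℝ) (hF : Measurable F) (a b : ℝ)
    (hab : ∀ t, a ≤ F t ∧ F t ≤ b) :
    |∫ t, F (k * t) ∂(gaussianReal 0 1) - ∫ t, F t ∂(gaussianReal 0 1)|
      ≤ (b - a) / 2 * x := by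
  have hab' : a ≤ b := (hab 0).1.trans (hab 0).2
  have h1x : 0 < 1 - x := by linarith
  have h1px : 0 < 1 + x := by linarith
  have hk1 : k ≤ 1 := by nlinarith
  obtain ⟨k', hk'def⟩ : ∃ k' : ℝ, k' = Real.sqrt ((1 - x) / (1 + x)) := ⟨_, rfl⟩
  have hk' : 0 < k' := by
    rw [hk'def]
    exact Real.sqrt_pos.mpr (div_pos h1x h1px)
  have hk'sq : k' ^ 2 = (1 - x) / (1 + x) := by
    rw [hk'def]
    exact Real.sq_sqrt (div_pos h1x h1px).le
  have hkinv : k⁻¹ ^ 2 = 1 / (1 - x) := by
    rw [inv_pow, hksq, one_div]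
  have hk'inv : k'⁻¹ ^ 2 = (1 + x) / (1 - x) := by
    rw [inv_pow, hk'sq, inv_div]
  have hrel : k'⁻¹ ^ 2 - 1 = 2 * (k⁻¹ ^ 2 - 1) := by
    rw [hkinv, hk'inv]
    field_simp
    ring
  have hS := scaleAux_integral_ratio_sq k k' hk' hrel
  have hSle : k⁻¹ ^ 2 * k' ≤ 1 + x ^ 2 := by
    have hnn : 0 ≤ k⁻¹ ^ 2 * k' := by positivity
    have hsq : (k⁻¹ ^ 2 * k') ^ 2 ≤ (1 + x ^ 2) ^ 2 := by
      rw [mul_pow, hk'sq, hkinv]
      have hval : (1 / (1 - x)) ^ 2 * ((1 - x) / (1 + x)) = 1 / ((1 - x) * (1 + x)) := by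
        field_simp
      rw [hval, div_le_iff₀ (mul_pos h1x h1px)]
      have hx4 : x ^ 2 ≤ 1 / 4 := by nlinarith
      nlinarith [sq_nonneg x, sq_nonneg (x ^ 2), mul_nonneg (sq_nonneg x) (sq_nonneg x),
        mul_nonneg (sq_nonneg x) (by linarith : (0:ℝ) ≤ 1 / 4 - x ^ 2)]
    exact (abs_le_of_sq_le_sq' hsq (by positivity)).2
  have hr := scaleAux_integrable_ratio k hk hk1
  have hr2 := scaleAux_integrable_ratio_sq k hk hk1
  have hdiff : Integrable (fun u => scaleAuxRatio k u - 1) (gaussianReal 0 1) :=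
    hr.sub (integrable_const _)
  have hEsq : ∀ u, (scaleAuxRatio k u - 1) ^ 2
      = scaleAuxRatio k u ^ 2 + ((-2) * scaleAuxRatio k u + 1) := by
    intro u
    ring
  have hi1 : Integrable (fun u => (-2) * scaleAuxRatio k u + 1) (gaussianReal 0 1) :=
    (hr.const_mul _).add (integrable_const _)
  have hdiff2 : Integrable (fun u => (scaleAuxRatio k u - 1) ^ 2) (gaussianReal 0 1) := by
    simp only [hEsq]
    exact hr2.add hi1
  have hint2 : ∫ u, (scaleAuxRatio k u - 1) ^ 2 ∂(gaussianReal 0 1) = k⁻¹ ^ 2 * k' - 1 := by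
    simp only [hEsq]
    rw [integral_add hr2 hi1, integral_add (hr.const_mul _) (integrable_const _),
      integral_const_mul, hS, scaleAux_integral_ratio k hk, integral_const]
    simp only [probReal_univ, smul_eq_mul]
    ring
  have habs : ∫ u, |scaleAuxRatio k u - 1| ∂(gaussianReal 0 1) ≤ x := by
    have h := scaleAux_sq_integral_abs_le (μ := gaussianReal 0 1)
      (fun u => scaleAuxRatio k u - 1) hdiff hdiff2
    rw [hint2] at h
    have h3 : (∫ u, |scaleAuxRatio k u - 1| ∂(gaussianReal 0 1)) ^ 2 ≤ x ^ 2 := by linarith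
    exact (abs_le_of_sq_le_sq' h3 hx0.le).2
  have hFint := scaleAux_integrable_bdd F hF a b hab
  have hFbd : ∀ᵐ t ∂(gaussianReal 0 1), ‖F t‖ ≤ max |a| |b| :=
    Filter.Eventually.of_forall (fun t => by
      rw [Real.norm_eq_abs]
      exact abs_le_max_abs_abs (hab t).1 (hab t).2)
  have hrF : Integrable (fun u => scaleAuxRatio k u * F u) (gaussianReal 0 1) :=
    hr.mul_bdd hF.aestronglyMeasurable hFbd
  have hkey : ∫ t, F (k * t) ∂(gaussianReal 0 1) - ∫ t, F t ∂(gaussianReal 0 1)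
      = ∫ u, (scaleAuxRatio k u - 1) * (F u - (a + b) / 2) ∂(gaussianReal 0 1) := by
    have hE : ∀ u : ℝ, (scaleAuxRatio k u - 1) * (F u - (a + b) / 2)
        = (scaleAuxRatio k u * F u - F u) - (a + b) / 2 * (scaleAuxRatio k u - 1) := by
      intro u
      ring
    have hi2 : Integrable (fun u => scaleAuxRatio k u * F u - F u) (gaussianReal 0 1) :=
      hrF.sub hFint
    simp only [hE]
    rw [integral_sub hi2 (hdiff.const_mul _), integral_sub hrF hFint, integral_const_mul,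
      integral_sub hr (integrable_const _), scaleAux_integral_ratio k hk, integral_const,
      scaleAux_change F k hk]
    simp
  rw [hkey]
  refine (scaleAux_weight_bound F hF a b hab _ hdiff).trans ?_
  exact mul_le_mul_of_nonneg_left habs (by linarith)

theorem scale_compare_general (κ : ℝ) (h0 : 0 ≤ κ) (h1 : κ ≤ 1) (F : ℝ → ℝ) (hF : Measurable F)
    (a b : ℝ) (hab : ∀ t, a ≤ F t ∧ F t ≤ b) :
    |∫ t, F (κ * t) ∂(gaussianReal 0 1) - ∫ t, F t ∂(gaussianReal 0 1)|
      ≤ 2 * (b - a) * (1 - κ ^ 2) := by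
  have hab' : a ≤ b := (hab 0).1.trans (hab 0).2
  have hκ2 : κ ^ 2 ≤ 1 := by nlinarith
  by_cases hcase : κ ^ 2 < 1 / 2
  · have hI1 := scaleGen_integral_mem (fun t => F (κ * t)) (hF.comp (measurable_const_mul κ)) a b
      (fun t => hab _)
    have hI2 := scaleGen_integral_mem F hF a b hab
    have hle : |∫ t, F (κ * t) ∂(gaussianReal 0 1) - ∫ t, F t ∂(gaussianReal 0 1)| ≤ b - a := by
      rw [abs_le]
      constructor <;> linarith [hI1.1, hI1.2, hI2.1, hI2.2]
    have hba : 0 ≤ b - a := by linarith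
    nlinarith
  · have hge : 1 / 2 ≤ κ ^ 2 := not_lt.mp hcase
    by_cases hone : κ ^ 2 = 1
    · have hκ1 : κ = 1 := by
        have h2 : (κ - 1) * (κ + 1) = 0 := by nlinarith
        rcases mul_eq_zero.mp h2 with h | h
        · linarith
        · linarith
      subst hκ1
      simp
    · have hx : 0 < 1 - κ ^ 2 := by
        have : κ ^ 2 < 1 := lt_of_le_of_ne hκ2 hone
        linarith
      have hκpos : 0 < κ := by
        rcases h0.lt_or_eq with h | h
        · exact h
        · rw [← h] at hge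
          norm_num at hge
      have h := scaleGen_core (1 - κ ^ 2) hx (by linarith) κ hκpos (by ring) F hF a b hab
      have hba : 0 ≤ b - a := by linarith
      nlinarith

end Vale.Agent.Lib.P157
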