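import Mathlib
namespace Vale.Agent.Lib.P157
open MeasureTheory ProbabilityTheory

/-- On a probability space the square of the mean of the absolute value is at most the
second moment. -/
theorem shiftAux_sq_integral_abs_le {μ : Measure ℝ} [IsProbabilityMeasure μ] (h : ℝ → ℝ)
    (h1 : Integrable h μ) (h2 : Integrable (fun t => h t ^ 2) μ) :
    (∫ t, |h t| ∂μ) ^ 2 ≤ ∫ t, h t ^ 2 ∂μ := by
  have hnn : 0 ≤ ∫ t, (|h t| - ∫ u, |h u| ∂μ) ^ 2 ∂μ := integral_nonneg (fun t => sq_nonneg _)
  have hE : ∀ t, (|h t| - ∫ u, |h u| ∂μ) ^ 2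
      = h t ^ 2 + ((-2 * ∫ u, |h u| ∂μ) * |h t| + (∫ u, |h u| ∂μ) ^ 2) := by
    intro t
    rw [sub_sq, sq_abs]
    ring
  have hi1 : Integrable (fun t => (-2 * ∫ u, |h u| ∂μ) * |h t|) μ := h1.abs.const_mul _
  have hi2 : Integrable (fun t => (-2 * ∫ u, |h u| ∂μ) * |h t| + (∫ u, |h u| ∂μ) ^ 2) μ :=
    hi1.add (integrable_const _)
  simp only [hE] at hnn
  rw [integral_add h2 hi2, integral_add hi1 (integrable_const _), integral_const_mul,
    integral_const] at hnn
  simp only [probReal_univ, smul_eq_mul, one_mul] at hnn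
  nlinarith

theorem shiftAux_integrable_id : Integrable (fun t : ℝ => t) (gaussianReal 0 1) :=
  (memLp_id_gaussianReal' (μ := 0) (v := 1) 1 (by simp)).integrable le_rfl

theorem shiftAux_integrable_sq : Integrable (fun t : ℝ => t ^ 2) (gaussianReal 0 1) :=
  (memLp_id_gaussianReal' (μ := 0) (v := 1) 2 (by simp)).integrable_sq

theorem shiftAux_integral_sq : ∫ t, t ^ 2 ∂(gaussianReal 0 1) = 1 := by
  have h := variance_fun_id_gaussianReal (μ := 0) (v := 1)
  rw [variance_eq_integral measurable_id'.aemeasurable] at h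
  simpa using h

theorem shiftAux_integral_abs_le_one : ∫ t, |t| ∂(gaussianReal 0 1) ≤ 1 := by
  have h := shiftAux_sq_integral_abs_le (μ := gaussianReal 0 1) (fun t => t)
    shiftAux_integrable_id shiftAux_integrable_sq
  rw [shiftAux_integral_sq] at h
  have h0 : 0 ≤ ∫ t, |t| ∂(gaussianReal 0 1) := integral_nonneg (fun t => abs_nonneg t)
  nlinarith

theorem shiftAux_integrable_bdd (F : ℝ → ℝ) (hF : Measurable F) (a b : ℝ)
    (hab : ∀ t, a ≤ F t ∧ F t ≤ b) : Integrable F (gaussianReal 0 1) :=
  Integrable.of_bound hF.aestronglyMeasurable (max |a| |b|)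
    (Filter.Eventually.of_forall (fun t => by
      rw [Real.norm_eq_abs]
      exact abs_le_max_abs_abs (hab t).1 (hab t).2))

theorem shiftAux_center (F : ℝ → ℝ) (a b : ℝ) (hab : ∀ t, a ≤ F t ∧ F t ≤ b) (t : ℝ) :
    |F t - (a + b) / 2| ≤ (b - a) / 2 := by
  rw [abs_le]
  constructor <;> linarith [(hab t).1, (hab t).2]

/-- A bounded function minus its central value, integrated against a weight, is bounded by
the half-width times the mean absolute weight. -/
theorem shiftAux_weight_bound (F : ℝ → ℝ) (hF : Measurable F) (a b : ℝ)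
    (hab : ∀ t, a ≤ F t ∧ F t ≤ b) (w : ℝ → ℝ) (hw : Integrable w (gaussianReal 0 1)) :
    |∫ t, w t * (F t - (a + b) / 2) ∂(gaussianReal 0 1)|
      ≤ (b - a) / 2 * ∫ t, |w t| ∂(gaussianReal 0 1) := by
  have hbd : ∀ t, |w t * (F t - (a + b) / 2)| ≤ (b - a) / 2 * |w t| := by
    intro t
    rw [abs_mul, mul_comm]
    exact mul_le_mul_of_nonneg_right (shiftAux_center F a b hab t) (abs_nonneg _)
  have hint : Integrable (fun t => w t * (F t - (a + b) / 2)) (gaussianReal 0 1) :=
    hw.mul_bdd (hF.sub_const _).aestronglyMeasurable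
      (Filter.Eventually.of_forall (fun t => by
        rw [Real.norm_eq_abs]
        exact shiftAux_center F a b hab t))
  calc |∫ t, w t * (F t - (a + b) / 2) ∂(gaussianReal 0 1)|
      ≤ ∫ t, |w t * (F t - (a + b) / 2)| ∂(gaussianReal 0 1) := abs_integral_le_integral_abs
    _ ≤ ∫ t, (b - a) / 2 * |w t| ∂(gaussianReal 0 1) :=
        integral_mono hint.abs (hw.abs.const_mul _) hbd
    _ = (b - a) / 2 * ∫ t, |w t| ∂(gaussianReal 0 1) := integral_const_mul _ _

theorem abs_firstMoment_le (F : ℝ → ℝ) (hF : Measurable F) (a b : ℝ)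
    (hab : ∀ t, a ≤ F t ∧ F t ≤ b) :
    |∫ t, t * F t ∂(gaussianReal 0 1)| ≤ (b - a) / 2 := by
  have hab' : a ≤ b := (hab 0).1.trans (hab 0).2
  have hFint := shiftAux_integrable_bdd F hF a b hab
  have hsplit : ∫ t, t * F t ∂(gaussianReal 0 1)
      = ∫ t, t * (F t - (a + b) / 2) ∂(gaussianReal 0 1) := by
    have hE : ∀ t : ℝ, t * F t = t * (F t - (a + b) / 2) + (a + b) / 2 * t := by
      intro t
      ring
    have hint : Integrable (fun t => t * (F t - (a + b) / 2)) (gaussianReal 0 1) :=
      shiftAux_integrable_id.mul_bdd (hF.sub_const _).aestronglyMeasurable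
        (Filter.Eventually.of_forall (fun t => by
          rw [Real.norm_eq_abs]
          exact shiftAux_center F a b hab t))
    simp only [hE]
    rw [integral_add hint (shiftAux_integrable_id.const_mul _), integral_const_mul,
      integral_id_gaussianReal, mul_zero, add_zero]
  rw [hsplit]
  refine (shiftAux_weight_bound F hF a b hab (fun t => t) shiftAux_integrable_id).trans ?_
  have h1 := shiftAux_integral_abs_le_one
  nlinarith

/-- The density of the standard Gaussian under a shift. -/
theorem shiftAux_pdf (s u : ℝ) :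
    gaussianPDFReal 0 1 (u - s) = gaussianPDFReal 0 1 u * Real.exp (s * u - s ^ 2 / 2) := by
  simp only [gaussianPDFReal, NNReal.coe_one, mul_one, sub_zero]
  rw [mul_assoc, ← Real.exp_add]
  congr 2
  ring

/-- The Cameron-Martin formula for the standard Gaussian on the line. -/
theorem shiftAux_cameron_martin (H : ℝ → ℝ) (s : ℝ) :
    ∫ t, H (s + t) ∂(gaussianReal 0 1)
      = ∫ t, Real.exp (s * t - s ^ 2 / 2) * H t ∂(gaussianReal 0 1) := by
  rw [integral_gaussianReal_eq_integral_smul one_ne_zero,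
    integral_gaussianReal_eq_integral_smul one_ne_zero]
  have h1 : ∫ t, gaussianPDFReal 0 1 t • H (s + t)
      = ∫ t, (fun u => gaussianPDFReal 0 1 (u - s) • H u) (s + t) := by
    refine integral_congr_ae (Filter.Eventually.of_forall (fun t => ?_))
    simp only [add_sub_cancel_left]
  rw [h1, integral_add_left_eq_self (fun u => gaussianPDFReal 0 1 (u - s) • H u) s]
  refine integral_congr_ae (Filter.Eventually.of_forall (fun u => ?_))
  simp only [shiftAux_pdf, smul_eq_mul, mul_assoc]

theorem shiftAux_integrable_A (s : ℝ) :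
    Integrable (fun t => Real.exp (s * t - s ^ 2 / 2)) (gaussianReal 0 1) := by
  have h := (integrable_exp_mul_gaussianReal (μ := 0) (v := 1) s).mul_const
    (Real.exp (-(s ^ 2 / 2)))
  refine h.congr (Filter.Eventually.of_forall (fun t => ?_))
  simp only
  rw [← Real.exp_add]
  congr 1

theorem shiftAux_integral_A (s : ℝ) :
    ∫ t, Real.exp (s * t - s ^ 2 / 2) ∂(gaussianReal 0 1) = 1 := by
  have h := shiftAux_cameron_martin (fun _ => (1:ℝ)) s
  simp only [mul_one, integral_const, probReal_univ, smul_eq_mul] at h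
  exact h.symm

theorem shiftAux_integral_A_mul_id (s : ℝ) :
    ∫ t, Real.exp (s * t - s ^ 2 / 2) * t ∂(gaussianReal 0 1) = s := by
  have h := shiftAux_cameron_martin (fun t => t) s
  rw [← h, integral_add (integrable_const _) shiftAux_integrable_id, integral_const,
    integral_id_gaussianReal]
  simp

theorem shiftAux_A_sq (s t : ℝ) :
    Real.exp (s * t - s ^ 2 / 2) ^ 2
      = Real.exp (s ^ 2) * Real.exp ((2 * s) * t - (2 * s) ^ 2 / 2) := by
  rw [← Real.exp_nat_mul, ← Real.exp_add]
  congr 1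
  push_cast
  ring

theorem shiftAux_integrable_A_sq (s : ℝ) :
    Integrable (fun t => Real.exp (s * t - s ^ 2 / 2) ^ 2) (gaussianReal 0 1) := by
  simp only [shiftAux_A_sq]
  exact (shiftAux_integrable_A (2 * s)).const_mul _

theorem shiftAux_integral_A_sq (s : ℝ) :
    ∫ t, Real.exp (s * t - s ^ 2 / 2) ^ 2 ∂(gaussianReal 0 1) = Real.exp (s ^ 2) := by
  simp only [shiftAux_A_sq]
  rw [integral_const_mul, shiftAux_integral_A, mul_one]

theorem shiftAux_integrable_A_mul_id (s : ℝ) :
    Integrable (fun t => Real.exp (s * t - s ^ 2 / 2) * t) (gaussianReal 0 1) := by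
  refine Integrable.mono' ((shiftAux_integrable_A_sq s).add shiftAux_integrable_sq)
    (by fun_prop) (Filter.Eventually.of_forall (fun t => ?_))
  simp only [Pi.add_apply, Real.norm_eq_abs]
  rw [abs_mul]
  nlinarith [sq_nonneg (|Real.exp (s * t - s ^ 2 / 2)| - |t|), sq_abs t,
    sq_abs (Real.exp (s * t - s ^ 2 / 2)), abs_nonneg t,
    abs_nonneg (Real.exp (s * t - s ^ 2 / 2)), sq_nonneg t,
    sq_nonneg (Real.exp (s * t - s ^ 2 / 2))]

/-- The weight of the second-order remainder. -/
theorem shiftAux_expand (s t : ℝ) :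
    (Real.exp (s * t - s ^ 2 / 2) - (1 + s * t)) ^ 2
      = Real.exp (s * t - s ^ 2 / 2) ^ 2 + ((-2) * Real.exp (s * t - s ^ 2 / 2)
        + ((-2 * s) * (Real.exp (s * t - s ^ 2 / 2) * t)
        + (1 + ((2 * s) * t + s ^ 2 * t ^ 2)))) := by
  ring

theorem shiftAux_integrable_diff (s : ℝ) :
    Integrable (fun t => Real.exp (s * t - s ^ 2 / 2) - (1 + s * t)) (gaussianReal 0 1) :=
  (shiftAux_integrable_A s).sub ((integrable_const _).add (shiftAux_integrable_id.const_mul s))

theorem shiftAux_integral_diff (s : ℝ) :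
    ∫ t, (Real.exp (s * t - s ^ 2 / 2) - (1 + s * t)) ∂(gaussianReal 0 1) = 0 := by
  have i1 : Integrable (fun t : ℝ => 1 + s * t) (gaussianReal 0 1) :=
    (integrable_const _).add (shiftAux_integrable_id.const_mul s)
  rw [integral_sub (shiftAux_integrable_A s) i1,
    integral_add (integrable_const _) (shiftAux_integrable_id.const_mul s),
    shiftAux_integral_A, integral_const, integral_const_mul, integral_id_gaussianReal]
  simp

theorem shiftAux_integrable_diff_sq (s : ℝ) :
    Integrable (fun t => (Real.exp (s * t - s ^ 2 / 2) - (1 + s * t)) ^ 2)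
      (gaussianReal 0 1) := by
  simp only [shiftAux_expand]
  exact (shiftAux_integrable_A_sq s).add (((shiftAux_integrable_A s).const_mul _).add
    (((shiftAux_integrable_A_mul_id s).const_mul _).add ((integrable_const _).add
      ((shiftAux_integrable_id.const_mul _).add (shiftAux_integrable_sq.const_mul _)))))

theorem shiftAux_integral_diff_sq (s : ℝ) :
    ∫ t, (Real.exp (s * t - s ^ 2 / 2) - (1 + s * t)) ^ 2 ∂(gaussianReal 0 1)
      = Real.exp (s ^ 2) - 1 - s ^ 2 := by
  have i5 : Integrable (fun t : ℝ => (2 * s) * t + s ^ 2 * t ^ 2) (gaussianReal 0 1) :=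
    (shiftAux_integrable_id.const_mul _).add (shiftAux_integrable_sq.const_mul _)
  have i4 : Integrable (fun t : ℝ => 1 + ((2 * s) * t + s ^ 2 * t ^ 2)) (gaussianReal 0 1) :=
    (integrable_const _).add i5
  have i3 : Integrable (fun t : ℝ => (-2 * s) * (Real.exp (s * t - s ^ 2 / 2) * t)
      + (1 + ((2 * s) * t + s ^ 2 * t ^ 2))) (gaussianReal 0 1) :=
    ((shiftAux_integrable_A_mul_id s).const_mul _).add i4
  have i2 : Integrable (fun t : ℝ => (-2) * Real.exp (s * t - s ^ 2 / 2)
      + ((-2 * s) * (Real.exp (s * t - s ^ 2 / 2) * t)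
      + (1 + ((2 * s) * t + s ^ 2 * t ^ 2)))) (gaussianReal 0 1) :=
    ((shiftAux_integrable_A s).const_mul _).add i3
  simp only [shiftAux_expand]
  rw [integral_add (shiftAux_integrable_A_sq s) i2,
    integral_add ((shiftAux_integrable_A s).const_mul _) i3,
    integral_add ((shiftAux_integrable_A_mul_id s).const_mul _) i4,
    integral_add (integrable_const _) i5,
    integral_add (shiftAux_integrable_id.const_mul _) (shiftAux_integrable_sq.const_mul _),
    integral_const_mul, integral_const_mul, integral_const_mul, integral_const_mul,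
    shiftAux_integral_A_sq, shiftAux_integral_A, shiftAux_integral_A_mul_id,
    integral_id_gaussianReal, shiftAux_integral_sq, integral_const]
  simp only [probReal_univ, smul_eq_mul]
  ring

theorem shiftAux_integral_abs_diff_le (s : ℝ) (hs : |s| ≤ 1) :
    ∫ t, |Real.exp (s * t - s ^ 2 / 2) - (1 + s * t)| ∂(gaussianReal 0 1) ≤ s ^ 2 := by
  have h := shiftAux_sq_integral_abs_le (μ := gaussianReal 0 1)
    (fun t => Real.exp (s * t - s ^ 2 / 2) - (1 + s * t))
    (shiftAux_integrable_diff s) (shiftAux_integrable_diff_sq s)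
  rw [shiftAux_integral_diff_sq] at h
  have hs2 : |s ^ 2| ≤ 1 := by
    rw [abs_pow]
    exact pow_le_one₀ (abs_nonneg s) hs
  have h2 := Real.abs_exp_sub_one_sub_id_le hs2
  have h3 : Real.exp (s ^ 2) - 1 - s ^ 2 ≤ (s ^ 2) ^ 2 := (le_abs_self _).trans h2
  have h0 : 0 ≤ ∫ t, |Real.exp (s * t - s ^ 2 / 2) - (1 + s * t)| ∂(gaussianReal 0 1) :=
    integral_nonneg (fun t => abs_nonneg _)
  exact abs_le_of_sq_le_sq' (h.trans h3) (sq_nonneg s) |>.2

theorem shift_taylor (F : ℝ → ℝ) (hF : Measurable F) (a b : ℝ)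
    (hab : ∀ t, a ≤ F t ∧ F t ≤ b) (s : ℝ) :
    |∫ t, F (s + t) ∂(gaussianReal 0 1) - ∫ t, F t ∂(gaussianReal 0 1)
        - s * ∫ t, t * F t ∂(gaussianReal 0 1)| ≤ 3 / 2 * (b - a) * s ^ 2 := by
  have hab' : a ≤ b := (hab 0).1.trans (hab 0).2
  have hFint := shiftAux_integrable_bdd F hF a b hab
  by_cases hs : |s| ≤ 1
  · -- small shifts: Cameron-Martin and the chi-square bound
    have hFbd : ∀ᵐ t ∂(gaussianReal 0 1), ‖F t‖ ≤ max |a| |b| :=
      Filter.Eventually.of_forall (fun t => by
        rw [Real.norm_eq_abs]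
        exact abs_le_max_abs_abs (hab t).1 (hab t).2)
    have hAF : Integrable (fun t => Real.exp (s * t - s ^ 2 / 2) * F t) (gaussianReal 0 1) :=
      (shiftAux_integrable_A s).mul_bdd hF.aestronglyMeasurable hFbd
    have htF : Integrable (fun t => t * F t) (gaussianReal 0 1) :=
      shiftAux_integrable_id.mul_bdd hF.aestronglyMeasurable hFbd
    have hwF : Integrable (fun t => (Real.exp (s * t - s ^ 2 / 2) - (1 + s * t)) * F t)
        (gaussianReal 0 1) :=
      (shiftAux_integrable_diff s).mul_bdd hF.aestronglyMeasurable hFbd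
    have hkey : ∫ t, F (s + t) ∂(gaussianReal 0 1) - ∫ t, F t ∂(gaussianReal 0 1)
        - s * ∫ t, t * F t ∂(gaussianReal 0 1)
        = ∫ t, (Real.exp (s * t - s ^ 2 / 2) - (1 + s * t)) * (F t - (a + b) / 2)
            ∂(gaussianReal 0 1) := by
      have hE : ∀ t : ℝ, (Real.exp (s * t - s ^ 2 / 2) - (1 + s * t)) * (F t - (a + b) / 2)
          = (Real.exp (s * t - s ^ 2 / 2) - (1 + s * t)) * F t
            - (a + b) / 2 * (Real.exp (s * t - s ^ 2 / 2) - (1 + s * t)) := by
        intro t
        ring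
      have hE2 : ∀ t : ℝ, (Real.exp (s * t - s ^ 2 / 2) - (1 + s * t)) * F t
          = Real.exp (s * t - s ^ 2 / 2) * F t - (F t + s * (t * F t)) := by
        intro t
        ring
      simp only [hE]
      rw [integral_sub hwF ((shiftAux_integrable_diff s).const_mul _), integral_const_mul,
        shiftAux_integral_diff, mul_zero, sub_zero]
      have i2 : Integrable (fun t : ℝ => F t + s * (t * F t)) (gaussianReal 0 1) :=
        hFint.add (htF.const_mul s)
      simp only [hE2]
      rw [integral_sub hAF i2, integral_add hFint (htF.const_mul s),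
        integral_const_mul, shiftAux_cameron_martin F s]
      ring
    rw [hkey]
    refine (shiftAux_weight_bound F hF a b hab _ (shiftAux_integrable_diff s)).trans ?_
    have h1 := shiftAux_integral_abs_diff_le s hs
    have h2 : 0 ≤ s ^ 2 := sq_nonneg s
    nlinarith
  · -- large shifts: crude bounds
    push Not at hs
    have hs2 : 1 ≤ s ^ 2 := by
      have h1 : (1:ℝ) ≤ |s| ^ 2 := by nlinarith [abs_nonneg s]
      rwa [sq_abs] at h1
    have hshift : Integrable (fun t => F (s + t)) (gaussianReal 0 1) :=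
      shiftAux_integrable_bdd (fun t => F (s + t)) (hF.comp (measurable_const_add s)) a b
        (fun t => hab (s + t))
    have hlow : ∀ G : ℝ → ℝ, Integrable G (gaussianReal 0 1) → (∀ t, a ≤ G t ∧ G t ≤ b) →
        a ≤ ∫ t, G t ∂(gaussianReal 0 1) ∧ ∫ t, G t ∂(gaussianReal 0 1) ≤ b := by
      intro G hG hGab
      constructor
      · have h := integral_mono (integrable_const a) hG (fun t => (hGab t).1)
        simpa using h
      · have h := integral_mono hG (integrable_const b) (fun t => (hGab t).2)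
        simpa using h
    obtain ⟨l1, u1⟩ := hlow (fun t => F (s + t)) hshift (fun t => hab (s + t))
    obtain ⟨l2, u2⟩ := hlow F hFint hab
    have h1 : |∫ t, F (s + t) ∂(gaussianReal 0 1) - ∫ t, F t ∂(gaussianReal 0 1)| ≤ b - a := by
      rw [abs_le]
      constructor <;> linarith
    have h2 := abs_firstMoment_le F hF a b hab
    have h3 : |s * ∫ t, t * F t ∂(gaussianReal 0 1)| ≤ s ^ 2 * ((b - a) / 2) := by
      rw [abs_mul]
      have h4 : |s| ≤ s ^ 2 := by
        have : |s| ≤ |s| ^ 2 := by nlinarith [abs_nonneg s]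
        rwa [sq_abs] at this
      exact mul_le_mul h4 h2 (abs_nonneg _) (sq_nonneg s)
    calc |∫ t, F (s + t) ∂(gaussianReal 0 1) - ∫ t, F t ∂(gaussianReal 0 1)
          - s * ∫ t, t * F t ∂(gaussianReal 0 1)|
        ≤ |∫ t, F (s + t) ∂(gaussianReal 0 1) - ∫ t, F t ∂(gaussianReal 0 1)|
          + |s * ∫ t, t * F t ∂(gaussianReal 0 1)| := abs_sub _ _
      _ ≤ (b - a) + s ^ 2 * ((b - a) / 2) := add_le_add h1 h3
      _ ≤ 3 / 2 * (b - a) * s ^ 2 := by nlinarith

end Vale.Agent.Lib.P157
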