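import Vale.Agent.Lib.P157.LargeDensity
import Vale.Agent.Lib.P157.ColDecomp
import Vale.Agent.Lib.P157.ScaleCompare
import Vale.Agent.Lib.P157.ShiftTaylor
import Vale.Agent.Lib.P157.AbsMoments

namespace Vale.Agent.Lib.P157
open MeasureTheory ProbabilityTheory

/-- The pressure dominates the value of any single configuration, up to `log 2`. -/
lemma pressure_ge_config (M N : ℕ) (hN : 0 < N) (f : ℝ → ℝ) (g : Fin M → Fin N → ℝ)
    (x : Fin N → Bool) :
    (1 / (N : ℝ)) * (∑ a, f (overlap g x a)) - Real.log 2 ≤ isingPressure M N f g := by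
  unfold isingPressure
  have hNpos : (0 : ℝ) < N := by exact_mod_cast hN
  have h2pos : (0 : ℝ) < 2 ^ N := by positivity
  have h1 : Real.exp (∑ a, f (overlap g x a)) / 2 ^ N ≤
      (∑ x : Fin N → Bool, Real.exp (∑ a, f (overlap g x a))) / 2 ^ N := by
    apply div_le_div_of_nonneg_right _ h2pos.le
    exact Finset.single_le_sum (f := fun x : Fin N → Bool => Real.exp (∑ a, f (overlap g x a)))
      (fun _ _ => (Real.exp_pos _).le) (Finset.mem_univ x)
  have h2 := Real.log_le_log (by positivity) h1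
  rw [Real.log_div (Real.exp_pos _).ne' h2pos.ne', Real.log_exp, Real.log_pow] at h2
  have h3 : (1 / (N : ℝ)) * (∑ a, f (overlap g x a)) - Real.log 2 =
      (1 / (N : ℝ)) * ((∑ a, f (overlap g x a)) - N * Real.log 2) := by
    field_simp
  rw [h3]
  exact mul_le_mul_of_nonneg_left h2 (by positivity)

/-- The real sign `+1` or `-1` of `ε * t` (value `+1` at zero). -/
noncomputable def sgn (ε t : ℝ) : ℝ := if 0 ≤ ε * t then 1 else -1

/-- The Boolean coding the sign of `ε * t`. -/
noncomputable def signBit (ε t : ℝ) : Bool := decide (0 ≤ ε * t)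

lemma spin_signBit (ε t : ℝ) : spin (signBit ε t) = sgn ε t := by
  unfold spin signBit sgn
  by_cases h : 0 ≤ ε * t <;> simp [h]

lemma measurable_sgn (ε : ℝ) : Measurable (sgn ε) := by
  unfold sgn
  exact Measurable.ite (measurableSet_le measurable_const (measurable_const.mul measurable_id))
    measurable_const measurable_const

lemma mul_sgn (ε t : ℝ) (hε : ε = 1 ∨ ε = -1) : t * sgn ε t = ε * |t| := by
  unfold sgn
  rcases hε with rfl | rfl
  · by_cases h : (0 : ℝ) ≤ 1 * t
    · rw [if_pos h]; rw [one_mul] at h; rw [abs_of_nonneg h]; ring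
    · rw [if_neg h]; rw [one_mul, not_le] at h; rw [abs_of_neg h]; ring
  · by_cases h : (0 : ℝ) ≤ -1 * t
    · rw [if_pos h]
      have : t ≤ 0 := by linarith
      rw [abs_of_nonpos this]; ring
    · rw [if_neg h]
      have : 0 < t := by rw [not_le] at h; linarith
      rw [abs_of_pos this]; ring

lemma sgn_div (ε t c : ℝ) (hc : 0 < c) : sgn ε (t / c) = sgn ε t := by
  unfold sgn
  have : (0 ≤ ε * (t / c)) ↔ (0 ≤ ε * t) := by
    rw [← mul_div_assoc]
    constructor
    · intro h
      by_contra h'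
      rw [not_le] at h'
      have := div_neg_of_neg_of_pos h' hc
      linarith
    · intro h
      exact div_nonneg h hc.le
  simp only [this]

/-- The strategy: coordinate `i` of the configuration is the sign of `ε` times the sum of
column `i` of the pattern array. -/
noncomputable def strat {M N : ℕ} (ε : ℝ) (g : Fin M → Fin N → ℝ) : Fin N → Bool :=
  fun i => signBit ε (∑ b, g b i)


/-- The overlap of the strategy configuration, split into a drift part and a Gaussian part. -/
lemma overlap_strat (M N : ℕ) (hM : 2 ≤ M) (hN : 0 < N) (ε : ℝ) (hε : ε = 1 ∨ ε = -1)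
    (g : Fin M → Fin N → ℝ) (a : Fin M) :
    overlap g (strat ε g) a =
      ε * ((∑ i, |(∑ b, g b i) / Real.sqrt M|) / (Real.sqrt M * Real.sqrt N)) +
        Real.sqrt (1 - 1 / (M : ℝ)) *
          ((∑ i, ((g a i - (∑ b, g b i) / M) / Real.sqrt (1 - 1 / (M : ℝ))) *
            spin (signBit ε ((∑ b, g b i) / Real.sqrt M))) / Real.sqrt N) := by
  have hMpos : (0 : ℝ) < M := by
    have : 0 < M := by omega
    exact_mod_cast this
  have hNpos : (0 : ℝ) < N := by exact_mod_cast hN
  have hsM : 0 < Real.sqrt M := Real.sqrt_pos.mpr hMpos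
  have hsN : 0 < Real.sqrt N := Real.sqrt_pos.mpr hNpos
  have hk2 : (0 : ℝ) < 1 - 1 / (M : ℝ) := by
    have h2 : (2 : ℝ) ≤ M := by exact_mod_cast hM
    have : 1 / (M : ℝ) ≤ 1 / 2 := by
      apply one_div_le_one_div_of_le (by norm_num) h2
    linarith
  have hk : 0 < Real.sqrt (1 - 1 / (M : ℝ)) := Real.sqrt_pos.mpr hk2
  have hsq : Real.sqrt M * Real.sqrt M = M := Real.mul_self_sqrt hMpos.le
  generalize Real.sqrt (1 - 1 / (M : ℝ)) = κ at hk ⊢
  have key : ∑ i, g a i * spin (signBit ε (∑ b, g b i)) =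
      ε * ((∑ i, |(∑ b, g b i) / Real.sqrt M|) / Real.sqrt M) +
        κ * (∑ i, ((g a i - (∑ b, g b i) / M) / κ) *
            spin (signBit ε ((∑ b, g b i) / Real.sqrt M))) := by
    rw [Finset.sum_div, Finset.mul_sum, Finset.mul_sum, ← Finset.sum_add_distrib]
    refine Finset.sum_congr rfl fun i _ => ?_
    rw [spin_signBit, spin_signBit, sgn_div _ _ _ hsM]
    set T := ∑ b, g b i with hT
    have h1 := mul_sgn ε T hε
    rw [abs_div, abs_of_pos hsM]
    have h2 : g a i * sgn ε T = (T * sgn ε T) / M + (g a i - T / M) * sgn ε T := by ring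
    rw [h2, h1]
    have h3 : ε * (|T| / Real.sqrt M / Real.sqrt M) = ε * |T| / M := by
      rw [div_div, hsq]; ring
    rw [h3]
    congr 1
    field_simp
  unfold overlap strat
  rw [key]
  ring


/-- The test function on the decomposed pattern space. -/
noncomputable def stratFun (M N : ℕ) (f : ℝ → ℝ) (ε : ℝ) (p : (Fin N → ℝ) × (Fin N → ℝ)) : ℝ :=
  f (ε * ((∑ i, |p.1 i|) / (Real.sqrt M * Real.sqrt N)) +
      Real.sqrt (1 - 1 / (M : ℝ)) * ((∑ i, p.2 i * spin (signBit ε (p.1 i))) / Real.sqrt N))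

lemma measurable_stratFun (M N : ℕ) (f : ℝ → ℝ) (hf : Measurable f) (ε : ℝ) :
    Measurable (stratFun M N f ε) := by
  unfold stratFun
  simp only [spin_signBit]
  have hs := measurable_sgn ε
  fun_prop

/-- The map sending the pattern array to its column decomposition. -/
noncomputable def colMap (M N : ℕ) (a : Fin M) (g : Fin M → Fin N → ℝ) :
    (Fin N → ℝ) × (Fin N → ℝ) :=
  ((fun i => (∑ b, g b i) / Real.sqrt M),
   (fun i => (g a i - (∑ b, g b i) / M) / Real.sqrt (1 - 1 / (M : ℝ))))

lemma measurable_colMap (M N : ℕ) (a : Fin M) : Measurable (colMap M N a) := by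
  unfold colMap
  fun_prop

lemma strat_eq_stratFun (M N : ℕ) (hM : 2 ≤ M) (hN : 0 < N) (f : ℝ → ℝ) (ε : ℝ)
    (hε : ε = 1 ∨ ε = -1) (a : Fin M) (g : Fin M → Fin N → ℝ) :
    f (overlap g (strat ε g) a) = stratFun M N f ε (colMap M N a g) := by
  rw [overlap_strat M N hM hN ε hε g a]
  rfl

/-- The Gaussian average of `f` after a shift by the drift and a rescaling. -/
noncomputable def driftAvg (M N : ℕ) (f : ℝ → ℝ) (ε : ℝ) (z : Fin N → ℝ) : ℝ :=
  ∫ t, f (ε * ((∑ i, |z i|) / (Real.sqrt M * Real.sqrt N)) +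
    Real.sqrt (1 - 1 / (M : ℝ)) * t) ∂(gaussianReal 0 1)

lemma inner_stratFun (M N : ℕ) (hN : 0 < N) (f : ℝ → ℝ) (hf : Measurable f) (ε : ℝ)
    (z : Fin N → ℝ) :
    ∫ h, stratFun M N f ε (z, h) ∂(Measure.pi fun _ : Fin N => gaussianReal 0 1) =
      driftAvg M N f ε z := by
  unfold driftAvg stratFun
  have hmeas : Measurable (fun y : Fin N → ℝ =>
      (∑ i, y i * spin (signBit ε (z i))) / Real.sqrt N) := by fun_prop
  have hF : Measurable (fun t : ℝ => f (ε * ((∑ i, |z i|) / (Real.sqrt M * Real.sqrt N)) +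
      Real.sqrt (1 - 1 / (M : ℝ)) * t)) := by fun_prop
  have h3 := integral_map (μ := Measure.pi fun _ : Fin N => gaussianReal 0 1)
    hmeas.aemeasurable hF.aestronglyMeasurable
  rw [map_overlap_row hN (fun i => signBit ε (z i))] at h3
  exact h3.symm

lemma integrable_stratFun (M N : ℕ) (f : ℝ → ℝ) (hf : Measurable f) (C : ℝ)
    (hC : ∀ t, |f t| ≤ C) (ε : ℝ) :
    Integrable (stratFun M N f ε)
      ((Measure.pi fun _ : Fin N => gaussianReal 0 1).prod
        (Measure.pi fun _ : Fin N => gaussianReal 0 1)) :=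
  Integrable.of_bound (measurable_stratFun M N f hf ε).aestronglyMeasurable C
    (Filter.Eventually.of_forall fun p => by rw [Real.norm_eq_abs]; exact hC _)

lemma integrable_driftAvg (M N : ℕ) (hN : 0 < N) (f : ℝ → ℝ) (hf : Measurable f) (C : ℝ)
    (hC : ∀ t, |f t| ≤ C) (ε : ℝ) :
    Integrable (driftAvg M N f ε) (Measure.pi fun _ : Fin N => gaussianReal 0 1) := by
  have h := (integrable_stratFun M N f hf C hC ε).integral_prod_left
  refine h.congr (Filter.Eventually.of_forall fun z => ?_)
  exact inner_stratFun M N hN f hf ε z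

lemma integral_strat (M N : ℕ) (hM : 2 ≤ M) (hN : 0 < N) (f : ℝ → ℝ) (hf : Measurable f)
    (C : ℝ) (hC : ∀ t, |f t| ≤ C) (ε : ℝ) (hε : ε = 1 ∨ ε = -1) (a : Fin M) :
    ∫ g, f (overlap g (strat ε g) a) ∂(patternLaw M N) =
      ∫ z, driftAvg M N f ε z ∂(Measure.pi fun _ : Fin N => gaussianReal 0 1) := by
  simp_rw [strat_eq_stratFun M N hM hN f ε hε a]
  have hΦ := measurable_stratFun M N f hf ε
  have h1 := integral_map (μ := patternLaw M N) (measurable_colMap M N a).aemeasurable
    hΦ.aestronglyMeasurable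
  have h2 : (patternLaw M N).map (colMap M N a) =
      (Measure.pi fun _ : Fin N => gaussianReal 0 1).prod
        (Measure.pi fun _ : Fin N => gaussianReal 0 1) := map_colDecomp M N hM a
  rw [h2] at h1
  rw [← h1, integral_prod _ (integrable_stratFun M N f hf C hC ε)]
  exact integral_congr_ae (Filter.Eventually.of_forall fun z => inner_stratFun M N hN f hf ε z)


/-- Pointwise lower bound for the drift average. -/
lemma driftAvg_ge (M N : ℕ) (hM : 2 ≤ M) (f : ℝ → ℝ) (hf : Measurable f) (a b : ℝ)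
    (hab : ∀ t, a ≤ f t ∧ f t ≤ b) (ε : ℝ) (hε : ε = 1 ∨ ε = -1)
    (hm : ε * ∫ t, t * f t ∂(gaussianReal 0 1) = |∫ t, t * f t ∂(gaussianReal 0 1)|)
    (z : Fin N → ℝ) :
    ∫ t, f t ∂(gaussianReal 0 1)
      + ((∑ i, |z i|) / (Real.sqrt M * Real.sqrt N)) * |∫ t, t * f t ∂(gaussianReal 0 1)|
      - 3 / 2 * (b - a) * ((∑ i, |z i|) / (Real.sqrt M * Real.sqrt N)) ^ 2
      - (b - a) / (2 * M) ≤ driftAvg M N f ε z := by
  unfold driftAvg
  set D := (∑ i, |z i|) / (Real.sqrt M * Real.sqrt N) with hD
  have h1 := scale_compare M hM (fun u => f (ε * D + u)) (by fun_prop) a b (fun t => hab _)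
  have h2 := shift_taylor f hf a b hab (ε * D)
  have hε2 : (ε * D) ^ 2 = D ^ 2 := by rcases hε with rfl | rfl <;> ring
  rw [hε2] at h2
  have h3 : ε * D * ∫ t, t * f t ∂(gaussianReal 0 1) =
      D * |∫ t, t * f t ∂(gaussianReal 0 1)| := by
    rw [← hm]; ring
  rw [h3] at h2
  have h1' := (abs_le.mp h1).1
  have h2' := (abs_le.mp h2).1
  linarith

/-- Lower bound of order `sqrt (M / N)` for the expected pressure. -/
theorem sqrt_lower_bound (M N : ℕ) (hN : 0 < N) (f : ℝ → ℝ) (hf : Measurable f) (a b : ℝ)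
    (hab : ∀ t, a ≤ f t ∧ f t ≤ b) :
    ((M : ℝ) / N) * ∫ t, f t ∂(gaussianReal 0 1) +
        Real.sqrt (2 * M / (Real.pi * N)) * |∫ t, t * f t ∂(gaussianReal 0 1)|
        - 2 * (b - a) - Real.log 2 ≤
      ∫ g, isingPressure M N f g ∂(patternLaw M N) := by
  have hNpos : (0 : ℝ) < N := by exact_mod_cast hN
  have hN1 : (1 : ℝ) ≤ N := by exact_mod_cast hN
  have hba : 0 ≤ b - a := by have := hab 0; linarith
  have hlog : 0 ≤ Real.log 2 := Real.log_nonneg (by norm_num)
  set m0 := ∫ t, f t ∂(gaussianReal 0 1) with hm0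
  set m1 := ∫ t, t * f t ∂(gaussianReal 0 1) with hm1
  have hm1le : |m1| ≤ (b - a) / 2 := abs_firstMoment_le f hf a b hab
  have hC : ∀ t, |f t| ≤ max |a| |b| := by
    intro t
    rw [abs_le]
    have h1 := (hab t).1
    have h2 := (hab t).2
    constructor
    · have := neg_abs_le a
      have := le_max_left |a| |b|
      linarith
    · have := le_abs_self b
      have := le_max_right |a| |b|
      linarith
  set C := max |a| |b| with hCdef
  by_cases hM : M ≤ 1
  · have hJ := jensen_lower_bound M N hN f hf ⟨C, hC⟩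
    have hM1 : (M : ℝ) ≤ 1 := by exact_mod_cast hM
    have h1 : Real.sqrt (2 * M / (Real.pi * N)) ≤ 1 := by
      apply Real.sqrt_le_one.mpr
      rw [div_le_one (by positivity)]
      have := Real.pi_gt_three
      nlinarith
    have h0 := Real.sqrt_nonneg (2 * (M : ℝ) / (Real.pi * N))
    have h2 : Real.sqrt (2 * M / (Real.pi * N)) * |m1| ≤ 1 * ((b - a) / 2) :=
      mul_le_mul h1 hm1le (abs_nonneg _) zero_le_one
    linarith
  · have hM2 : 2 ≤ M := by omega
    have hMpos : (0 : ℝ) < M := by
      have : 0 < M := by omega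
      exact_mod_cast this
    have hsM : 0 < Real.sqrt M := Real.sqrt_pos.mpr hMpos
    have hsN : 0 < Real.sqrt N := Real.sqrt_pos.mpr hNpos
    set ε : ℝ := if 0 ≤ m1 then 1 else -1 with hεdef
    have hε : ε = 1 ∨ ε = -1 := by
      by_cases h : 0 ≤ m1
      · left; simp [hεdef, h]
      · right; simp [hεdef, h]
    have hm : ε * m1 = |m1| := by
      by_cases h : 0 ≤ m1
      · simp [hεdef, h, abs_of_nonneg h]
      · have h' : m1 < 0 := not_le.mp h
        simp [hεdef, h, abs_of_neg h']
    set P := patternLaw M N with hP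
    set π := Measure.pi fun _ : Fin N => gaussianReal 0 1 with hπ
    -- integrability of the single-configuration values
    have hfint : ∀ a₀ : Fin M,
        Integrable (fun g : Fin M → Fin N → ℝ => f (overlap g (strat ε g) a₀)) P := by
      intro a₀
      refine Integrable.of_bound (C := C) ?_ ?_
      · have : (fun g : Fin M → Fin N → ℝ => f (overlap g (strat ε g) a₀)) =
            fun g => stratFun M N f ε (colMap M N a₀ g) := by
          funext g
          exact strat_eq_stratFun M N hM2 hN f ε hε a₀ g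
        rw [this]
        exact ((measurable_stratFun M N f hf ε).comp
          (measurable_colMap M N a₀)).aestronglyMeasurable
      · exact Filter.Eventually.of_forall fun g => by rw [Real.norm_eq_abs]; exact hC _
    have hint1 : Integrable (fun g : Fin M → Fin N → ℝ =>
        (1 / (N : ℝ)) * (∑ a₀, f (overlap g (strat ε g) a₀)) - Real.log 2) P := by
      apply Integrable.sub _ (integrable_const _)
      apply Integrable.const_mul
      exact integrable_finsetSum _ fun a₀ _ => hfint a₀
    have hstep1 : ∫ g, ((1 / (N : ℝ)) * (∑ a₀, f (overlap g (strat ε g) a₀)) - Real.log 2) ∂P ≤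
        ∫ g, isingPressure M N f g ∂P :=
      integral_mono hint1 (integrable_isingPressure M N hN f hf ⟨C, hC⟩)
        (fun g => pressure_ge_config M N hN f g (strat ε g))
    set J := ∫ z, driftAvg M N f ε z ∂π with hJ
    have hE : ∫ g, ((1 / (N : ℝ)) * (∑ a₀, f (overlap g (strat ε g) a₀)) - Real.log 2) ∂P =
        (1 / (N : ℝ)) * (M * J) - Real.log 2 := by
      have hall : ∀ a₀ : Fin M, ∫ g, f (overlap g (strat ε g) a₀) ∂P = J :=
        fun a₀ => integral_strat M N hM2 hN f hf C hC ε hε a₀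
      rw [integral_sub (Integrable.const_mul (integrable_finsetSum _ fun a₀ _ => hfint a₀) _)
        (integrable_const _), integral_const_mul,
        integral_finsetSum _ fun a₀ _ => hfint a₀]
      simp only [hall]
      simp
    -- lower bound for J
    set D : (Fin N → ℝ) → ℝ := fun z => (∑ i, |z i|) / (Real.sqrt M * Real.sqrt N) with hD
    have hDint : Integrable D π := (integrable_sum_abs N).div_const _
    have hD2int : Integrable (fun z => D z ^ 2) π := by
      have : (fun z => D z ^ 2) =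
          fun z : Fin N → ℝ => (∑ i, |z i|) ^ 2 / (Real.sqrt M * Real.sqrt N) ^ 2 := by
        funext z
        simp only [hD, div_pow]
      rw [this]
      exact (integrable_sum_abs_sq N).div_const _
    have hED : ∫ z, D z ∂π = (N * Real.sqrt (2 / Real.pi)) / (Real.sqrt M * Real.sqrt N) := by
      simp only [hD]
      rw [integral_div, integral_sum_abs]
    have hED2 : ∫ z, D z ^ 2 ∂π ≤ (N : ℝ) / M := by
      have : (fun z => D z ^ 2) =
          fun z : Fin N → ℝ => (∑ i, |z i|) ^ 2 / (Real.sqrt M * Real.sqrt N) ^ 2 := by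
        funext z
        simp only [hD, div_pow]
      rw [this, integral_div]
      have h1 := integral_sum_abs_sq_le N
      have h2 : (Real.sqrt M * Real.sqrt N) ^ 2 = M * N := by
        rw [mul_pow, Real.sq_sqrt hMpos.le, Real.sq_sqrt hNpos.le]
      rw [h2, div_le_div_iff₀ (by positivity) hMpos]
      nlinarith
    have hlowint : Integrable (fun z => m0 + D z * |m1| - 3 / 2 * (b - a) * D z ^ 2
        - (b - a) / (2 * M)) π := by
      apply Integrable.sub _ (integrable_const _)
      apply Integrable.sub _ (hD2int.const_mul _)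
      exact (integrable_const _).add (hDint.mul_const _)
    have hJlow : ∫ z, (m0 + D z * |m1| - 3 / 2 * (b - a) * D z ^ 2 - (b - a) / (2 * M)) ∂π ≤ J :=
      integral_mono hlowint (integrable_driftAvg M N hN f hf C hC ε)
        (fun z => driftAvg_ge M N hM2 f hf a b hab ε hε hm z)
    have hJeq : ∫ z, (m0 + D z * |m1| - 3 / 2 * (b - a) * D z ^ 2 - (b - a) / (2 * M)) ∂π =
        m0 + (∫ z, D z ∂π) * |m1| - 3 / 2 * (b - a) * (∫ z, D z ^ 2 ∂π) - (b - a) / (2 * M) := by
      have hA1 : Integrable (fun z => D z * |m1|) π := hDint.mul_const _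
      have hA2 : Integrable (fun z => m0 + D z * |m1|) π := (integrable_const _).add hA1
      have hA3 : Integrable (fun z => 3 / 2 * (b - a) * D z ^ 2) π := hD2int.const_mul _
      have hA4 : Integrable (fun z => m0 + D z * |m1| - 3 / 2 * (b - a) * D z ^ 2) π :=
        hA2.sub hA3
      rw [integral_sub hA4 (integrable_const _), integral_sub hA2 hA3,
        integral_add (integrable_const _) hA1, integral_mul_const, integral_const_mul]
      simp
    rw [hJeq, hED] at hJlow
    -- the square-root identity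
    have hsqrt : Real.sqrt (2 * M / (Real.pi * N)) =
        ((M : ℝ) / N) * ((N * Real.sqrt (2 / Real.pi)) / (Real.sqrt M * Real.sqrt N)) := by
      have h1 : 2 * (M : ℝ) / (Real.pi * N) = (2 / Real.pi) * (M / N) := by
        field_simp
      rw [h1, Real.sqrt_mul (by positivity), Real.sqrt_div hMpos.le]
      have h2 : (M : ℝ) = Real.sqrt M * Real.sqrt M := (Real.mul_self_sqrt hMpos.le).symm
      field_simp
      nth_rewrite 2 [h2]
      ring
    rw [hsqrt]
    have hfin : ((M : ℝ) / N) * m0 +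
        ((M : ℝ) / N) * ((N * Real.sqrt (2 / Real.pi)) / (Real.sqrt M * Real.sqrt N)) * |m1|
        - 2 * (b - a) - Real.log 2 ≤ (1 / (N : ℝ)) * (M * J) - Real.log 2 := by
      have hMN : 0 < (M : ℝ) / N := by positivity
      have h1 := mul_le_mul_of_nonneg_left hJlow hMN.le
      have h2 : ((M : ℝ) / N) * (3 / 2 * (b - a) * (∫ z, D z ^ 2 ∂π)) ≤ 3 / 2 * (b - a) := by
        have h3 : ((M : ℝ) / N) * (∫ z, D z ^ 2 ∂π) ≤ ((M : ℝ) / N) * ((N : ℝ) / M) :=
          mul_le_mul_of_nonneg_left hED2 hMN.le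
        have h4 : ((M : ℝ) / N) * ((N : ℝ) / M) = 1 := by field_simp
        rw [h4] at h3
        nlinarith
      have h5 : ((M : ℝ) / N) * ((b - a) / (2 * M)) ≤ (b - a) / 2 := by
        have h6 : ((M : ℝ) / N) * ((b - a) / (2 * M)) = (b - a) / 2 / N := by field_simp
        rw [h6]
        exact div_le_self (by linarith) hN1
      have h7 : (1 / (N : ℝ)) * (M * J) = ((M : ℝ) / N) * J := by ring
      rw [h7]
      linarith
    calc _ ≤ (1 / (N : ℝ)) * (M * J) - Real.log 2 := hfin
      _ = ∫ g, ((1 / (N : ℝ)) * (∑ a₀, f (overlap g (strat ε g) a₀)) - Real.log 2) ∂P := hE.symm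
      _ ≤ _ := hstep1

end Vale.Agent.Lib.P157
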