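import Mathlib

namespace Vale.Agent.Lib.P157

open MeasureTheory ProbabilityTheory Complex

/-- Rotation invariance of the product of two standard Gaussians, in the form used below. -/
theorem tvz_rotation (r₁ r₂ : ℝ) (h2 : 0 ≤ r₂) (h : r₁ ^ 2 + r₂ ^ 2 = 1) :
    ((gaussianReal 0 1).prod (gaussianReal 0 1)).map
      (fun p : ℝ × ℝ => (r₁ * p.1 - r₂ * p.2, r₂ * p.1 + r₁ * p.2))
      = (gaussianReal 0 1).prod (gaussianReal 0 1) := by
  have hr1 : -1 ≤ r₁ ∧ r₁ ≤ 1 := by constructor <;> nlinarith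
  have hcos : Real.cos (-Real.arccos r₁) = r₁ := by
    rw [Real.cos_neg, Real.cos_arccos hr1.1 hr1.2]
  have hsin : Real.sin (-Real.arccos r₁) = -r₂ := by
    rw [Real.sin_neg, Real.sin_arccos]
    have h3 : 1 - r₁ ^ 2 = r₂ ^ 2 := by linarith
    rw [h3, Real.sqrt_sq h2]
  have key := IsGaussian.map_rotation_eq_self (μ := gaussianReal 0 1)
    (by simp [integral_id_gaussianReal]) (-Real.arccos r₁)
  have hfun : (fun p : ℝ × ℝ => (r₁ * p.1 - r₂ * p.2, r₂ * p.1 + r₁ * p.2))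
      = ⇑(ContinuousLinearMap.rotation (E := ℝ) (-Real.arccos r₁)) := by
    funext p
    rw [ContinuousLinearMap.rotation_apply, hcos, hsin]
    simp [sub_eq_add_neg]
  rw [hfun]
  exact key

theorem tvz_integrable_id : Integrable (fun t : ℝ => t) (gaussianReal 0 1) := by
  have h := memLp_id_gaussianReal (μ := 0) (v := 1) 1
  simp only [ENNReal.coe_one] at h
  exact memLp_one_iff_integrable.mp h

theorem tvz_hasDerivAt_exp (x l : ℝ) :
    HasDerivAt (fun l : ℝ => cexp (((l * x : ℝ) : ℂ) * I))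
      (cexp (((l * x : ℝ) : ℂ) * I) * ((x : ℂ) * I)) l := by
  have h1 : HasDerivAt (fun l : ℝ => ((l * x : ℝ) : ℂ)) ((x : ℝ) : ℂ) l :=
    (hasDerivAt_mul_const x).ofReal_comp
  exact (h1.mul_const I).cexp

theorem tvz_norm_exp (l x : ℝ) : ‖cexp (((l * x : ℝ) : ℂ) * I)‖ = 1 :=
  Complex.norm_exp_ofReal_mul_I _

theorem tvz_integrable₀ (g : ℝ → ℂ) (hg : Measurable g) (M : ℝ) (hM : ∀ x, ‖g x‖ ≤ M) (l : ℝ) :
    Integrable (fun x : ℝ => cexp (((l * x : ℝ) : ℂ) * I) * g x) (gaussianReal 0 1) := by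
  refine Integrable.of_bound (Measurable.aestronglyMeasurable (by fun_prop)) M ?_
  refine Filter.Eventually.of_forall fun x => ?_
  rw [norm_mul, tvz_norm_exp, one_mul]
  exact hM x

theorem tvz_integrable₁ (g : ℝ → ℂ) (hg : Measurable g) (M : ℝ) (hM : ∀ x, ‖g x‖ ≤ M) (l : ℝ) :
    Integrable (fun x : ℝ => (x : ℂ) * (cexp (((l * x : ℝ) : ℂ) * I) * g x))
      (gaussianReal 0 1) := by
  refine Integrable.mono' (tvz_integrable_id.abs.mul_const M)
    (Measurable.aestronglyMeasurable (by fun_prop)) ?_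
  refine Filter.Eventually.of_forall fun x => ?_
  rw [norm_mul, norm_mul, tvz_norm_exp, one_mul, Complex.norm_real, Real.norm_eq_abs]
  exact mul_le_mul_of_nonneg_left (hM x) (abs_nonneg _)

theorem tvz_hasDerivAt (g : ℝ → ℂ) (hg : Measurable g) (M : ℝ) (hM : ∀ x, ‖g x‖ ≤ M) (l : ℝ) :
    HasDerivAt (fun l : ℝ => ∫ x, cexp (((l * x : ℝ) : ℂ) * I) * g x ∂(gaussianReal 0 1))
      (I * ∫ x, (x : ℂ) * (cexp (((l * x : ℝ) : ℂ) * I) * g x) ∂(gaussianReal 0 1)) l := by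
  have key := hasDerivAt_integral_of_dominated_loc_of_deriv_le
    (μ := gaussianReal 0 1) (F := fun (l : ℝ) (x : ℝ) => cexp (((l * x : ℝ) : ℂ) * I) * g x)
    (F' := fun (l : ℝ) (x : ℝ) => I * ((x : ℂ) * (cexp (((l * x : ℝ) : ℂ) * I) * g x)))
    (x₀ := l) (bound := fun x => |x| * M) (s := Set.univ) Filter.univ_mem
    (Filter.Eventually.of_forall fun l => Measurable.aestronglyMeasurable (by fun_prop))
    (tvz_integrable₀ g hg M hM l)
    (Measurable.aestronglyMeasurable (by fun_prop)) ?_ (tvz_integrable_id.abs.mul_const M) ?_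
  · have h2 := key.2
    rw [integral_const_mul] at h2
    exact h2
  · refine Filter.Eventually.of_forall fun x l _ => ?_
    rw [norm_mul, norm_mul, norm_mul, tvz_norm_exp, one_mul, Complex.norm_real, Real.norm_eq_abs,
      Complex.norm_I, one_mul]
    exact mul_le_mul_of_nonneg_left (hM x) (abs_nonneg _)
  · refine Filter.Eventually.of_forall fun x l _ => ?_
    have h1 := (tvz_hasDerivAt_exp x l).mul_const (g x)
    have h3 : I * ((x : ℂ) * (cexp (((l * x : ℝ) : ℂ) * I) * g x))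
        = cexp (((l * x : ℝ) : ℂ) * I) * ((x : ℂ) * I) * g x := by ring
    rw [h3]
    exact h1

/-- The characteristic integral of the standard Gaussian. -/
theorem tvz_gauss₀ (l : ℝ) :
    ∫ x, cexp (((l * x : ℝ) : ℂ) * I) * (1 : ℂ) ∂(gaussianReal 0 1)
      = cexp (-((l : ℂ) ^ 2 / 2)) := by
  have h := charFun_gaussianReal (μ := 0) (v := 1) l
  rw [charFun_apply_real] at h
  have h2 : (fun x : ℝ => cexp (((l * x : ℝ) : ℂ) * I) * (1 : ℂ))
      = fun x : ℝ => cexp ((l : ℂ) * x * I) := by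
    funext x
    push_cast
    ring_nf
  rw [h2, h]
  congr 1
  simp

theorem tvz_gauss₁ (l : ℝ) :
    ∫ x, (x : ℂ) * (cexp (((l * x : ℝ) : ℂ) * I) * (1 : ℂ)) ∂(gaussianReal 0 1)
      = I * l * cexp (-((l : ℂ) ^ 2 / 2)) := by
  have hd := tvz_hasDerivAt (fun _ => (1 : ℂ)) measurable_const 1 (by simp) l
  have hfun : (fun l : ℝ => ∫ x, cexp (((l * x : ℝ) : ℂ) * I) * (1 : ℂ) ∂(gaussianReal 0 1))
      = fun l : ℝ => cexp (-((l : ℂ) ^ 2 / 2)) := funext tvz_gauss₀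
  rw [hfun] at hd
  have hd2 : HasDerivAt (fun l : ℝ => cexp (-((l : ℂ) ^ 2 / 2)))
      (cexp (-((l : ℂ) ^ 2 / 2)) * (-(l : ℂ))) l := by
    have h1 : HasDerivAt (fun l : ℝ => (l : ℂ)) 1 l := (hasDerivAt_id l).ofReal_comp
    have h2 : HasDerivAt (fun l : ℝ => -((l : ℂ) ^ 2 / 2)) (-(l : ℂ)) l := by
      have h3 := ((h1.pow 2).div_const 2).neg
      have h4 : -(((2 : ℕ) : ℂ) * (l : ℂ) ^ (2 - 1) * 1 / 2) = -(l : ℂ) := by
        norm_num
      rw [h4] at h3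
      exact h3
    exact h2.cexp
  have huniq := hd.unique hd2
  have h5 : ∫ x, (x : ℂ) * (cexp (((l * x : ℝ) : ℂ) * I) * (1 : ℂ)) ∂(gaussianReal 0 1)
      = -I * (I * ∫ x, (x : ℂ) * (cexp (((l * x : ℝ) : ℂ) * I) * (1 : ℂ)) ∂(gaussianReal 0 1)) := by
    rw [← mul_assoc, neg_mul, I_mul_I, neg_neg, one_mul]
  rw [h5, huniq]
  ring

/-- Step 1: the smoothed first moment vanishes almost everywhere. -/
theorem tvz_ae_zero (f : ℝ → ℝ) (hf : Measurable f) (M : ℝ) (hM : ∀ t, |f t| ≤ M) (r₁ r₂ : ℝ)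
    (hV : ∫ u, (∫ t, t * f (r₁ * u + r₂ * t) ∂(gaussianReal 0 1)) ^ 2 ∂(gaussianReal 0 1) = 0) :
    ∀ᵐ u ∂(gaussianReal 0 1), ∫ t, t * f (r₁ * u + r₂ * t) ∂(gaussianReal 0 1) = 0 := by
  have hmeas : Measurable (fun u : ℝ => ∫ t, t * f (r₁ * u + r₂ * t) ∂(gaussianReal 0 1)) := by
    have h1 : StronglyMeasurable
        (Function.uncurry fun (u t : ℝ) => t * f (r₁ * u + r₂ * t)) := by
      apply Measurable.stronglyMeasurable
      unfold Function.uncurry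
      fun_prop
    exact (h1.integral_prod_right (ν := gaussianReal 0 1)).measurable
  have hbound : ∀ u : ℝ, |∫ t, t * f (r₁ * u + r₂ * t) ∂(gaussianReal 0 1)|
      ≤ M * ∫ t, |t| ∂(gaussianReal 0 1) := by
    intro u
    calc |∫ t, t * f (r₁ * u + r₂ * t) ∂(gaussianReal 0 1)|
        = ‖∫ t, t * f (r₁ * u + r₂ * t) ∂(gaussianReal 0 1)‖ := (Real.norm_eq_abs _).symm
      _ ≤ ∫ t, ‖t * f (r₁ * u + r₂ * t)‖ ∂(gaussianReal 0 1) := norm_integral_le_integral_norm _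
      _ ≤ ∫ t, M * |t| ∂(gaussianReal 0 1) := by
          apply integral_mono_of_nonneg
          · exact Filter.Eventually.of_forall fun t => norm_nonneg _
          · exact (tvz_integrable_id.abs.const_mul M)
          · exact Filter.Eventually.of_forall fun t => by
              simp only [norm_mul, Real.norm_eq_abs]
              rw [mul_comm]
              exact mul_le_mul_of_nonneg_right (hM _) (abs_nonneg _)
      _ = M * ∫ t, |t| ∂(gaussianReal 0 1) := integral_const_mul _ _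
  have hint : Integrable
      (fun u : ℝ => (∫ t, t * f (r₁ * u + r₂ * t) ∂(gaussianReal 0 1)) ^ 2) (gaussianReal 0 1) := by
    refine Integrable.of_bound (hmeas.pow_const 2).aestronglyMeasurable
      ((M * ∫ t, |t| ∂(gaussianReal 0 1)) ^ 2) ?_
    refine Filter.Eventually.of_forall fun u => ?_
    rw [Real.norm_eq_abs, abs_pow]
    exact pow_le_pow_left₀ (abs_nonneg _) (hbound u) 2
  have h0 := (integral_eq_zero_iff_of_nonneg (fun u => sq_nonneg _) hint).mp hV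
  filter_upwards [h0] with u hu
  exact (pow_eq_zero_iff two_ne_zero).mp hu

/-- Step 2: rotating and integrating out the second coordinate. -/
theorem tvz_moment (f : ℝ → ℝ) (hf : Measurable f) (M : ℝ) (hM : ∀ t, |f t| ≤ M)
    (r₁ r₂ : ℝ) (h2 : 0 < r₂) (h : r₁ ^ 2 + r₂ ^ 2 = 1)
    (hμ : ∀ᵐ u ∂(gaussianReal 0 1), ∫ t, t * f (r₁ * u + r₂ * t) ∂(gaussianReal 0 1) = 0)
    (θ : ℝ) :
    ∫ x, (x : ℂ) * (cexp (((θ * r₁ * x : ℝ) : ℂ) * I) * (f x : ℂ)) ∂(gaussianReal 0 1)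
      = I * ((θ * r₁ : ℝ) : ℂ)
        * ∫ x, cexp (((θ * r₁ * x : ℝ) : ℂ) * I) * (f x : ℂ) ∂(gaussianReal 0 1) := by
  have hMc : ∀ x : ℝ, ‖(f x : ℂ)‖ ≤ M := by
    intro x
    rw [Complex.norm_real, Real.norm_eq_abs]
    exact hM x
  have hfc : Measurable (fun x : ℝ => (f x : ℂ)) := by fun_prop
  have hHmeas : Measurable (fun p : ℝ × ℝ => cexp (((θ * p.1 : ℝ) : ℂ) * I)
      * ((p.2 * f (r₁ * p.1 + r₂ * p.2) : ℝ) : ℂ)) := by fun_prop
  have hHint : Integrable (fun p : ℝ × ℝ => cexp (((θ * p.1 : ℝ) : ℂ) * I)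
      * ((p.2 * f (r₁ * p.1 + r₂ * p.2) : ℝ) : ℂ))
      ((gaussianReal 0 1).prod (gaussianReal 0 1)) := by
    refine Integrable.mono' ((tvz_integrable_id.abs.mul_const M).comp_snd (gaussianReal 0 1))
      hHmeas.aestronglyMeasurable ?_
    refine Filter.Eventually.of_forall fun p => ?_
    rw [norm_mul, tvz_norm_exp, one_mul, Complex.norm_real, Real.norm_eq_abs, abs_mul]
    exact mul_le_mul_of_nonneg_left (hM _) (abs_nonneg _)
  have hA : ∫ p : ℝ × ℝ, cexp (((θ * p.1 : ℝ) : ℂ) * I)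
      * ((p.2 * f (r₁ * p.1 + r₂ * p.2) : ℝ) : ℂ)
      ∂((gaussianReal 0 1).prod (gaussianReal 0 1)) = 0 := by
    rw [integral_prod _ hHint]
    apply integral_eq_zero_of_ae
    filter_upwards [hμ] with u hu
    rw [integral_const_mul, integral_complex_ofReal, hu]
    simp
  have hR : Measurable (fun p : ℝ × ℝ => (r₁ * p.1 - r₂ * p.2, r₂ * p.1 + r₁ * p.2)) := by
    fun_prop
  have hB : ∫ p : ℝ × ℝ, cexp (((θ * (r₁ * p.1 - r₂ * p.2) : ℝ) : ℂ) * I)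
      * (((r₂ * p.1 + r₁ * p.2) * f (r₁ * (r₁ * p.1 - r₂ * p.2) + r₂ * (r₂ * p.1 + r₁ * p.2)) : ℝ)
        : ℂ) ∂((gaussianReal 0 1).prod (gaussianReal 0 1)) = 0 := by
    have h3 := integral_map (μ := (gaussianReal 0 1).prod (gaussianReal 0 1))
      hR.aemeasurable (f := fun p : ℝ × ℝ => cexp (((θ * p.1 : ℝ) : ℂ) * I)
      * ((p.2 * f (r₁ * p.1 + r₂ * p.2) : ℝ) : ℂ)) hHmeas.aestronglyMeasurable
    rw [tvz_rotation r₁ r₂ h2.le h, hA] at h3
    exact h3.symm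
  have hHR : ∀ p : ℝ × ℝ, cexp (((θ * (r₁ * p.1 - r₂ * p.2) : ℝ) : ℂ) * I)
      * (((r₂ * p.1 + r₁ * p.2) * f (r₁ * (r₁ * p.1 - r₂ * p.2) + r₂ * (r₂ * p.1 + r₁ * p.2)) : ℝ)
        : ℂ) =
      (r₂ : ℂ) * (((p.1 : ℂ) * (cexp (((θ * r₁ * p.1 : ℝ) : ℂ) * I) * (f p.1 : ℂ)))
          * (cexp (((-(θ * r₂) * p.2 : ℝ) : ℂ) * I) * (1 : ℂ)))
      + (r₁ : ℂ) * ((cexp (((θ * r₁ * p.1 : ℝ) : ℂ) * I) * (f p.1 : ℂ))
          * ((p.2 : ℂ) * (cexp (((-(θ * r₂) * p.2 : ℝ) : ℂ) * I) * (1 : ℂ)))) := by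
    intro p
    have harg : r₁ * (r₁ * p.1 - r₂ * p.2) + r₂ * (r₂ * p.1 + r₁ * p.2) = p.1 := by
      have h4 : r₁ * (r₁ * p.1 - r₂ * p.2) + r₂ * (r₂ * p.1 + r₁ * p.2)
          = (r₁ ^ 2 + r₂ ^ 2) * p.1 := by ring
      rw [h4, h, one_mul]
    have hexp : cexp (((θ * (r₁ * p.1 - r₂ * p.2) : ℝ) : ℂ) * I)
        = cexp (((θ * r₁ * p.1 : ℝ) : ℂ) * I) * cexp (((-(θ * r₂) * p.2 : ℝ) : ℂ) * I) := by
      rw [← Complex.exp_add]
      congr 1
      push_cast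
      ring
    rw [harg, hexp]
    push_cast
    ring
  have hI1 := tvz_integrable₁ (fun x : ℝ => (f x : ℂ)) hfc M hMc (θ * r₁)
  have hI0 := tvz_integrable₀ (fun x : ℝ => (f x : ℂ)) hfc M hMc (θ * r₁)
  have hJ1 := tvz_integrable₁ (fun _ : ℝ => (1 : ℂ)) measurable_const 1 (by simp) (-(θ * r₂))
  have hJ0 := tvz_integrable₀ (fun _ : ℝ => (1 : ℂ)) measurable_const 1 (by simp) (-(θ * r₂))
  have hC : ∫ p : ℝ × ℝ, cexp (((θ * (r₁ * p.1 - r₂ * p.2) : ℝ) : ℂ) * I)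
      * (((r₂ * p.1 + r₁ * p.2) * f (r₁ * (r₁ * p.1 - r₂ * p.2) + r₂ * (r₂ * p.1 + r₁ * p.2)) : ℝ)
        : ℂ) ∂((gaussianReal 0 1).prod (gaussianReal 0 1))
      = (r₂ : ℂ) * ((∫ x, (x : ℂ) * (cexp (((θ * r₁ * x : ℝ) : ℂ) * I) * (f x : ℂ))
            ∂(gaussianReal 0 1))
          * cexp (-(((-(θ * r₂) : ℝ) : ℂ) ^ 2 / 2)))
        + (r₁ : ℂ) * ((∫ x, cexp (((θ * r₁ * x : ℝ) : ℂ) * I) * (f x : ℂ) ∂(gaussianReal 0 1))
          * (I * ((-(θ * r₂) : ℝ) : ℂ) * cexp (-(((-(θ * r₂) : ℝ) : ℂ) ^ 2 / 2)))) := by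
    have hP1 : ∫ p : ℝ × ℝ, ((p.1 : ℂ) * (cexp (((θ * r₁ * p.1 : ℝ) : ℂ) * I) * (f p.1 : ℂ)))
          * (cexp (((-(θ * r₂) * p.2 : ℝ) : ℂ) * I) * (1 : ℂ))
          ∂((gaussianReal 0 1).prod (gaussianReal 0 1))
        = (∫ x, (x : ℂ) * (cexp (((θ * r₁ * x : ℝ) : ℂ) * I) * (f x : ℂ)) ∂(gaussianReal 0 1))
          * ∫ y, cexp (((-(θ * r₂) * y : ℝ) : ℂ) * I) * (1 : ℂ) ∂(gaussianReal 0 1) :=
      integral_prod_mul (fun x : ℝ => (x : ℂ) * (cexp (((θ * r₁ * x : ℝ) : ℂ) * I) * (f x : ℂ)))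
        (fun y : ℝ => cexp (((-(θ * r₂) * y : ℝ) : ℂ) * I) * (1 : ℂ))
    have hP0 : ∫ p : ℝ × ℝ, (cexp (((θ * r₁ * p.1 : ℝ) : ℂ) * I) * (f p.1 : ℂ))
          * ((p.2 : ℂ) * (cexp (((-(θ * r₂) * p.2 : ℝ) : ℂ) * I) * (1 : ℂ)))
          ∂((gaussianReal 0 1).prod (gaussianReal 0 1))
        = (∫ x, cexp (((θ * r₁ * x : ℝ) : ℂ) * I) * (f x : ℂ) ∂(gaussianReal 0 1))
          * ∫ y, (y : ℂ) * (cexp (((-(θ * r₂) * y : ℝ) : ℂ) * I) * (1 : ℂ))
            ∂(gaussianReal 0 1) :=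
      integral_prod_mul (fun x : ℝ => cexp (((θ * r₁ * x : ℝ) : ℂ) * I) * (f x : ℂ))
        (fun y : ℝ => (y : ℂ) * (cexp (((-(θ * r₂) * y : ℝ) : ℂ) * I) * (1 : ℂ)))
    rw [integral_congr_ae (Filter.Eventually.of_forall hHR),
      integral_add ((hI1.mul_prod hJ0).const_mul _) ((hI0.mul_prod hJ1).const_mul _),
      integral_const_mul, integral_const_mul, hP1, hP0,
      tvz_gauss₀, tvz_gauss₁]
  rw [hB] at hC
  have hE : cexp (-(((-(θ * r₂) : ℝ) : ℂ) ^ 2 / 2)) ≠ 0 := Complex.exp_ne_zero _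
  have hr2 : (r₂ : ℂ) ≠ 0 := by exact_mod_cast h2.ne'
  have h6 : (r₂ : ℂ) * cexp (-(((-(θ * r₂) : ℝ) : ℂ) ^ 2 / 2))
      * ((∫ x, (x : ℂ) * (cexp (((θ * r₁ * x : ℝ) : ℂ) * I) * (f x : ℂ)) ∂(gaussianReal 0 1))
        - I * ((θ * r₁ : ℝ) : ℂ)
          * ∫ x, cexp (((θ * r₁ * x : ℝ) : ℂ) * I) * (f x : ℂ) ∂(gaussianReal 0 1)) = 0 := by
    rw [hC]
    push_cast
    ring
  rcases mul_eq_zero.mp h6 with h7 | h7
  · exact absurd h7 (mul_ne_zero hr2 hE)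
  · exact sub_eq_zero.mp h7

/-- Step 3: the first order equation forces the characteristic integral to be Gaussian. -/
theorem tvz_charInt (f : ℝ → ℝ) (hf : Measurable f) (M : ℝ) (hM : ∀ t, |f t| ≤ M)
    (hmom : ∀ l : ℝ,
      ∫ x, (x : ℂ) * (cexp (((l * x : ℝ) : ℂ) * I) * (f x : ℂ)) ∂(gaussianReal 0 1)
        = I * (l : ℂ) * ∫ x, cexp (((l * x : ℝ) : ℂ) * I) * (f x : ℂ) ∂(gaussianReal 0 1))
    (l : ℝ) :
    ∫ x, cexp (((l * x : ℝ) : ℂ) * I) * (f x : ℂ) ∂(gaussianReal 0 1)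
      = cexp (-((l : ℂ) ^ 2 / 2)) * ((∫ x, f x ∂(gaussianReal 0 1) : ℝ) : ℂ) := by
  have hMc : ∀ x : ℝ, ‖(f x : ℂ)‖ ≤ M := by
    intro x
    rw [Complex.norm_real, Real.norm_eq_abs]
    exact hM x
  have hfc : Measurable (fun x : ℝ => (f x : ℂ)) := by fun_prop
  have hΦd : ∀ l : ℝ, HasDerivAt
      (fun l : ℝ => ∫ x, cexp (((l * x : ℝ) : ℂ) * I) * (f x : ℂ) ∂(gaussianReal 0 1))
      (-(l : ℂ) * ∫ x, cexp (((l * x : ℝ) : ℂ) * I) * (f x : ℂ) ∂(gaussianReal 0 1)) l := by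
    intro l
    have hd := tvz_hasDerivAt (fun x : ℝ => (f x : ℂ)) hfc M hMc l
    rw [hmom l] at hd
    have h3 : I * (I * (l : ℂ) * ∫ x, cexp (((l * x : ℝ) : ℂ) * I) * (f x : ℂ) ∂(gaussianReal 0 1))
        = -(l : ℂ) * ∫ x, cexp (((l * x : ℝ) : ℂ) * I) * (f x : ℂ) ∂(gaussianReal 0 1) := by
      rw [← mul_assoc, ← mul_assoc, I_mul_I]
      ring
    rw [← h3]
    exact hd
  have hΨd : ∀ l : ℝ, HasDerivAt
      (fun l : ℝ => cexp ((l : ℂ) ^ 2 / 2)
        * ∫ x, cexp (((l * x : ℝ) : ℂ) * I) * (f x : ℂ) ∂(gaussianReal 0 1)) 0 l := by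
    intro l
    have h1 : HasDerivAt (fun l : ℝ => (l : ℂ)) 1 l := (hasDerivAt_id l).ofReal_comp
    have h2 : HasDerivAt (fun l : ℝ => (l : ℂ) ^ 2 / 2) (l : ℂ) l := by
      have h3 := (h1.pow 2).div_const 2
      have h4 : ((2 : ℕ) : ℂ) * (l : ℂ) ^ (2 - 1) * 1 / 2 = (l : ℂ) := by
        norm_num
      rw [h4] at h3
      exact h3
    have h5 := h2.cexp.mul (hΦd l)
    have h6 : cexp ((l : ℂ) ^ 2 / 2) * (l : ℂ)
          * (∫ x, cexp (((l * x : ℝ) : ℂ) * I) * (f x : ℂ) ∂(gaussianReal 0 1))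
        + cexp ((l : ℂ) ^ 2 / 2)
          * (-(l : ℂ) * ∫ x, cexp (((l * x : ℝ) : ℂ) * I) * (f x : ℂ) ∂(gaussianReal 0 1))
        = 0 := by ring
    rw [h6] at h5
    exact h5
  have hconst := is_const_of_deriv_eq_zero (fun x => (hΨd x).differentiableAt)
    (fun x => (hΨd x).deriv) l 0
  simp only [Complex.ofReal_zero, zero_mul, Complex.exp_zero, one_mul, ne_eq,
    OfNat.ofNat_ne_zero, not_false_eq_true, zero_pow, zero_div, integral_complex_ofReal]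
    at hconst
  rw [← hconst, ← mul_assoc, ← Complex.exp_add]
  simp

/-- The characteristic function of a Gaussian measure reweighted by a nonnegative density. -/
theorem tvz_charFun_withDensity (ρ : ℝ → ℝ) (hρ : Measurable ρ) (hρ0 : ∀ x, 0 ≤ ρ x) (l : ℝ) :
    charFun ((gaussianReal 0 1).withDensity (fun x => ENNReal.ofReal (ρ x))) l
      = ∫ x, cexp (((l * x : ℝ) : ℂ) * I) * (ρ x : ℂ) ∂(gaussianReal 0 1) := by
  rw [charFun_apply_real, integral_withDensity_eq_integral_toReal_smul (by fun_prop) (by simp)]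
  refine integral_congr_ae (Filter.Eventually.of_forall fun x => ?_)
  simp only [ENNReal.toReal_ofReal (hρ0 x), Complex.real_smul]
  push_cast
  ring

/-- If the Gaussian-smoothed first moment of a bounded measurable function vanishes in the
mean-square sense, the function is almost everywhere constant. -/
theorem ae_const_of_tiltVar_eq_zero (f : ℝ → ℝ) (hf : Measurable f) (a b : ℝ)
    (hab : ∀ t, a ≤ f t ∧ f t ≤ b) (r₁ r₂ : ℝ) (h1 : 0 < r₁) (h2 : 0 < r₂)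
    (h : r₁ ^ 2 + r₂ ^ 2 = 1)
    (hV : ∫ u, (∫ t, t * f (r₁ * u + r₂ * t) ∂(gaussianReal 0 1)) ^ 2 ∂(gaussianReal 0 1) = 0) :
    ∀ᵐ t ∂(gaussianReal 0 1), f t = ∫ s, f s ∂(gaussianReal 0 1) := by
  have hM : ∀ t, |f t| ≤ max |a| |b| := fun t => abs_le_max_abs_abs (hab t).1 (hab t).2
  have hMc : ∀ x : ℝ, ‖(f x : ℂ)‖ ≤ max |a| |b| := by
    intro x
    rw [Complex.norm_real, Real.norm_eq_abs]
    exact hM x
  have hfc : Measurable (fun x : ℝ => (f x : ℂ)) := by fun_prop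
  have hμ := tvz_ae_zero f hf (max |a| |b|) hM r₁ r₂ hV
  have hmom : ∀ l : ℝ,
      ∫ x, (x : ℂ) * (cexp (((l * x : ℝ) : ℂ) * I) * (f x : ℂ)) ∂(gaussianReal 0 1)
        = I * (l : ℂ) * ∫ x, cexp (((l * x : ℝ) : ℂ) * I) * (f x : ℂ) ∂(gaussianReal 0 1) := by
    intro l
    have h3 := tvz_moment f hf (max |a| |b|) hM r₁ r₂ h2 h hμ (l / r₁)
    have e : l / r₁ * r₁ = l := div_mul_cancel₀ l h1.ne'
    simp only [e] at h3
    exact h3
  have hΦ := tvz_charInt f hf (max |a| |b|) hM hmom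
  have hfint : Integrable f (gaussianReal 0 1) :=
    Integrable.of_bound hf.aestronglyMeasurable (max |a| |b|)
      (Filter.Eventually.of_forall fun t => by rw [Real.norm_eq_abs]; exact hM t)
  have hm0a : a ≤ ∫ s, f s ∂(gaussianReal 0 1) := by
    have h3 : ∫ _s, a ∂(gaussianReal 0 1) ≤ ∫ s, f s ∂(gaussianReal 0 1) :=
      integral_mono (integrable_const a) hfint (fun t => (hab t).1)
    simpa using h3
  have hfin1 : IsFiniteMeasure
      ((gaussianReal 0 1).withDensity (fun x => ENNReal.ofReal (f x - a + 1))) :=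
    isFiniteMeasure_withDensity_ofReal ((hfint.sub (integrable_const a)).add (integrable_const 1)).2
  have hfin2 : IsFiniteMeasure ((gaussianReal 0 1).withDensity
      (fun _ => ENNReal.ofReal ((∫ s, f s ∂(gaussianReal 0 1)) - a + 1))) :=
    isFiniteMeasure_withDensity_ofReal (integrable_const _).2
  have hmeq : (gaussianReal 0 1).withDensity (fun x => ENNReal.ofReal (f x - a + 1))
      = (gaussianReal 0 1).withDensity
        (fun _ => ENNReal.ofReal ((∫ s, f s ∂(gaussianReal 0 1)) - a + 1)) := by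
    apply Measure.ext_of_charFun
    funext l
    rw [tvz_charFun_withDensity (fun x => f x - a + 1) (by fun_prop)
        (fun x => by linarith [(hab x).1]) l,
      tvz_charFun_withDensity (fun _ => (∫ s, f s ∂(gaussianReal 0 1)) - a + 1) measurable_const
        (fun x => by linarith) l]
    have e1 : ∀ x : ℝ, cexp (((l * x : ℝ) : ℂ) * I) * ((f x - a + 1 : ℝ) : ℂ)
        = cexp (((l * x : ℝ) : ℂ) * I) * (f x : ℂ)
          + ((1 - a : ℝ) : ℂ) * (cexp (((l * x : ℝ) : ℂ) * I) * (1 : ℂ)) := by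
      intro x
      push_cast
      ring
    have e2 : ∀ x : ℝ, cexp (((l * x : ℝ) : ℂ) * I)
          * (((∫ s, f s ∂(gaussianReal 0 1)) - a + 1 : ℝ) : ℂ)
        = (((∫ s, f s ∂(gaussianReal 0 1)) - a + 1 : ℝ) : ℂ)
          * (cexp (((l * x : ℝ) : ℂ) * I) * (1 : ℂ)) := by
      intro x
      ring
    rw [integral_congr_ae (Filter.Eventually.of_forall e1),
      integral_congr_ae (Filter.Eventually.of_forall e2),
      integral_add (tvz_integrable₀ (fun x : ℝ => (f x : ℂ)) hfc (max |a| |b|) hMc l)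
        ((tvz_integrable₀ (fun _ : ℝ => (1 : ℂ)) measurable_const 1 (by simp) l).const_mul _),
      integral_const_mul, integral_const_mul, tvz_gauss₀, hΦ l]
    push_cast
    ring
  have hae := (withDensity_eq_iff_of_sigmaFinite
    (Measurable.aemeasurable (by fun_prop)) (Measurable.aemeasurable (by fun_prop))).mp hmeq
  filter_upwards [hae] with t ht
  have h7 := (ENNReal.ofReal_eq_ofReal_iff (by linarith [(hab t).1]) (by linarith)).mp ht
  linarith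

end Vale.Agent.Lib.P157
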