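import Mathlib

namespace Vale.Agent.Lib.P157

open MeasureTheory ProbabilityTheory

/-- The smoothed first moment: `E [G f(r₁ u + r₂ G)]` for a standard Gaussian `G`. -/
noncomputable def tiltMoment (f : ℝ → ℝ) (r₁ r₂ u : ℝ) : ℝ :=
  ∫ t, t * f (r₁ * u + r₂ * t) ∂(gaussianReal 0 1)

/-- The second moment of the smoothed first moment under the standard Gaussian law:
`E [(tiltMoment f r₁ r₂ U)²]` for a standard Gaussian `U`. -/
noncomputable def tiltVar (f : ℝ → ℝ) (r₁ r₂ : ℝ) : ℝ :=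
  ∫ u, (tiltMoment f r₁ r₂ u) ^ 2 ∂(gaussianReal 0 1)

end Vale.Agent.Lib.P157
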