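import Vale.Agent.Lib.P157.Defs

namespace Vale.Agent.Lib.P157

open MeasureTheory ProbabilityTheory

/-- The weighted column decomposition as a linear map. -/
noncomputable def wcolLin (M n : ℕ) (w : Fin M → ℝ) (a : Fin M) :
    (Fin M → Fin n → ℝ) →ₗ[ℝ] (Fin n → ℝ) × (Fin n → ℝ) where
  toFun g := ((fun i => ∑ b, w b * g b i),
    (fun i => g a i - w a * ∑ b, w b * g b i))
  map_add' g h := by
    ext i
    · simp only [Pi.add_apply, mul_add, Finset.sum_add_distrib, Prod.fst_add]
    · simp only [Pi.add_apply, mul_add, Finset.sum_add_distrib, Prod.snd_add]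
      ring
  map_smul' c g := by
    have hsum : ∀ i : Fin n, ∑ b, w b * (c * g b i) = c * ∑ b, w b * g b i := by
      intro i
      rw [Finset.mul_sum]
      apply Finset.sum_congr rfl
      intro b _
      ring
    ext i
    · simp only [Pi.smul_apply, smul_eq_mul, RingHom.id_apply, Prod.smul_fst, hsum]
    · simp only [Pi.smul_apply, smul_eq_mul, RingHom.id_apply, Prod.smul_snd, hsum]
      ring

/-- Scaling of the second component as a linear map. -/
noncomputable def wcolScale (n : ℕ) (k : ℝ) :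
    (Fin n → ℝ) × (Fin n → ℝ) →ₗ[ℝ] (Fin n → ℝ) × (Fin n → ℝ) where
  toFun p := (p.1, fun i => k * p.2 i)
  map_add' p q := by
    ext i
    · simp only [Prod.fst_add]
    · simp only [Prod.snd_add, Pi.add_apply]
      ring
  map_smul' c p := by
    ext i
    · simp only [Prod.smul_fst, RingHom.id_apply]
    · simp only [Prod.smul_snd, Pi.smul_apply, smul_eq_mul, RingHom.id_apply]
      ring

theorem wcol_sum_delta (M : ℕ) (w : Fin M → ℝ) (hw : ∑ b, w b ^ 2 = 1) (a : Fin M) :
    ∑ b : Fin M, w b * ((if b = a then (1 : ℝ) else 0) - w a * w b) = 0 := by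
  have h : ∀ b : Fin M, w b * ((if b = a then (1 : ℝ) else 0) - w a * w b)
      = (if b = a then w b else 0) - w a * w b ^ 2 := by
    intro b
    split_ifs <;> ring
  simp only [h]
  rw [Finset.sum_sub_distrib, Finset.sum_ite_eq' Finset.univ a, ← Finset.mul_sum, hw]
  simp only [Finset.mem_univ, if_true]
  ring

theorem wcol_sum_delta_sq (M : ℕ) (w : Fin M → ℝ) (hw : ∑ b, w b ^ 2 = 1) (a : Fin M) :
    ∑ b : Fin M, ((if b = a then (1 : ℝ) else 0) - w a * w b) ^ 2 = 1 - w a ^ 2 := by
  have h : ∀ b : Fin M, ((if b = a then (1 : ℝ) else 0) - w a * w b) ^ 2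
      = (if b = a then (1 - 2 * w a * w b) else 0) + w a ^ 2 * w b ^ 2 := by
    intro b
    split_ifs <;> ring
  simp only [h]
  rw [Finset.sum_add_distrib, Finset.sum_ite_eq' Finset.univ a, ← Finset.mul_sum, hw]
  simp only [Finset.mem_univ, if_true]
  ring

theorem wcol_charFunDual_gaussian (l : StrongDual ℝ ℝ) :
    charFunDual (gaussianReal 0 1) l = ((Real.exp (-((l 1) ^ 2 / 2)) : ℝ) : ℂ) := by
  have h1 : charFunDual (gaussianReal 0 1) l = charFun (gaussianReal 0 1) (l 1) := by
    rw [charFunDual_apply, charFun_apply_real]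
    congr 1
    funext v
    have hv : l v = v * l 1 := by
      have := l.map_smul v (1 : ℝ)
      simpa using this
    rw [hv]
    push_cast
    ring_nf
  rw [h1, charFun_gaussianReal]
  push_cast
  congr 1
  ring

theorem wcol_sum_sq (M : ℕ) (w : Fin M → ℝ) (hw : ∑ b, w b ^ 2 = 1) (a : Fin M) (s t : ℝ) :
    ∑ b : Fin M, (w b * s + ((if b = a then (1 : ℝ) else 0) - w a * w b) * t) ^ 2
      = s ^ 2 + t ^ 2 * (1 - w a ^ 2) := by
  have e : ∀ b : Fin M, (w b * s + ((if b = a then (1 : ℝ) else 0) - w a * w b) * t) ^ 2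
      = s ^ 2 * w b ^ 2
        + (2 * s * t) * (w b * ((if b = a then (1 : ℝ) else 0) - w a * w b))
        + t ^ 2 * ((if b = a then (1 : ℝ) else 0) - w a * w b) ^ 2 := by
    intro b
    ring
  simp only [e]
  rw [Finset.sum_add_distrib, Finset.sum_add_distrib, ← Finset.mul_sum, ← Finset.mul_sum,
    ← Finset.mul_sum, wcol_sum_delta M w hw a, wcol_sum_delta_sq M w hw a, hw]
  ring

theorem map_colDecomp_weighted (M n : ℕ) (w : Fin M → ℝ) (hw : ∑ b, w b ^ 2 = 1) (a : Fin M) :
    (patternLaw M n).map (fun g : Fin M → Fin n → ℝ =>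
        ((fun i => ∑ b, w b * g b i),
         (fun i => g a i - w a * ∑ b, w b * g b i)))
      = ((Measure.pi fun _ : Fin n => gaussianReal 0 1).prod
          (Measure.pi fun _ : Fin n => gaussianReal 0 1)).map
          (fun p : (Fin n → ℝ) × (Fin n → ℝ) =>
            (p.1, fun i => Real.sqrt (1 - w a ^ 2) * p.2 i)) := by
  have hwa : w a ^ 2 ≤ 1 := by
    rw [← hw]
    exact Finset.single_le_sum (f := fun b => w b ^ 2) (fun b _ => sq_nonneg (w b))
      (Finset.mem_univ a)
  have hk2 : 0 ≤ 1 - w a ^ 2 := by linarith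
  have hksq : Real.sqrt (1 - w a ^ 2) ^ 2 = 1 - w a ^ 2 := Real.sq_sqrt hk2
  let T : (Fin M → Fin n → ℝ) →L[ℝ] (Fin n → ℝ) × (Fin n → ℝ) :=
    LinearMap.toContinuousLinearMap (wcolLin M n w a)
  let S : (Fin n → ℝ) × (Fin n → ℝ) →L[ℝ] (Fin n → ℝ) × (Fin n → ℝ) :=
    LinearMap.toContinuousLinearMap (wcolScale n (Real.sqrt (1 - w a ^ 2)))
  have hTfun : (fun g : Fin M → Fin n → ℝ =>
        ((fun i => ∑ b, w b * g b i),
         (fun i => g a i - w a * ∑ b, w b * g b i))) = ⇑T := rfl
  have hSfun : (fun p : (Fin n → ℝ) × (Fin n → ℝ) =>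
            (p.1, fun i => Real.sqrt (1 - w a ^ 2) * p.2 i)) = ⇑S := rfl
  rw [hTfun, hSfun]
  have : IsProbabilityMeasure (patternLaw M n) := by unfold patternLaw; infer_instance
  have hS : IsProbabilityMeasure
      (((Measure.pi fun _ : Fin n => gaussianReal 0 1).prod
          (Measure.pi fun _ : Fin n => gaussianReal 0 1)).map ⇑S) :=
    Measure.isProbabilityMeasure_map S.continuous.aemeasurable
  have hT : IsProbabilityMeasure ((patternLaw M n).map ⇑T) :=
    Measure.isProbabilityMeasure_map T.continuous.aemeasurable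
  apply Measure.ext_of_charFunDual
  funext L
  rw [charFunDual_map, charFunDual_map, charFunDual_prod]
  unfold patternLaw
  rw [charFunDual_pi, charFunDual_pi, charFunDual_pi]
  simp_rw [charFunDual_pi, wcol_charFunDual_gaussian]
  have hs' : ∀ i : Fin n, (((L ∘SL S) ∘SL ContinuousLinearMap.inl ℝ (Fin n → ℝ) (Fin n → ℝ)) ∘SL
      ContinuousLinearMap.single ℝ (fun _ : Fin n => ℝ) i) 1 = L (Pi.single i 1, 0) := by
    intro i
    have hSv : S ((Pi.single i (1 : ℝ), 0) : (Fin n → ℝ) × (Fin n → ℝ))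
        = ((Pi.single i (1 : ℝ), 0) : (Fin n → ℝ) × (Fin n → ℝ)) := by
      show wcolScale n (Real.sqrt (1 - w a ^ 2)) (Pi.single i (1 : ℝ), 0) = _
      ext j
      · simp only [wcolScale, LinearMap.coe_mk, AddHom.coe_mk]
      · simp only [wcolScale, LinearMap.coe_mk, AddHom.coe_mk, Pi.zero_apply, mul_zero]
    have hcomp : (((L ∘SL S) ∘SL ContinuousLinearMap.inl ℝ (Fin n → ℝ) (Fin n → ℝ)) ∘SL
        ContinuousLinearMap.single ℝ (fun _ : Fin n => ℝ) i) 1
        = L (S ((Pi.single i (1 : ℝ), 0) : (Fin n → ℝ) × (Fin n → ℝ))) := by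
      simp
    rw [hcomp, hSv]
  have ht' : ∀ i : Fin n, (((L ∘SL S) ∘SL ContinuousLinearMap.inr ℝ (Fin n → ℝ) (Fin n → ℝ)) ∘SL
      ContinuousLinearMap.single ℝ (fun _ : Fin n => ℝ) i) 1
      = Real.sqrt (1 - w a ^ 2) * L (0, Pi.single i 1) := by
    intro i
    have hSv : S ((0, Pi.single i (1 : ℝ)) : (Fin n → ℝ) × (Fin n → ℝ))
        = Real.sqrt (1 - w a ^ 2) • ((0, Pi.single i (1 : ℝ)) : (Fin n → ℝ) × (Fin n → ℝ)) := by
      show wcolScale n (Real.sqrt (1 - w a ^ 2)) (0, Pi.single i (1 : ℝ)) = _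
      ext j
      · simp only [wcolScale, LinearMap.coe_mk, AddHom.coe_mk, Prod.smul_fst, smul_zero]
      · simp only [wcolScale, LinearMap.coe_mk, AddHom.coe_mk, Prod.smul_snd, Pi.smul_apply,
          smul_eq_mul]
    have hcomp : (((L ∘SL S) ∘SL ContinuousLinearMap.inr ℝ (Fin n → ℝ) (Fin n → ℝ)) ∘SL
        ContinuousLinearMap.single ℝ (fun _ : Fin n => ℝ) i) 1
        = L (S ((0, Pi.single i (1 : ℝ)) : (Fin n → ℝ) × (Fin n → ℝ))) := by
      simp
    rw [hcomp, hSv, map_smul, smul_eq_mul]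
  have hwt : ∀ (b : Fin M) (i : Fin n),
      (((L ∘SL T) ∘SL ContinuousLinearMap.single ℝ (fun _ : Fin M => Fin n → ℝ) b) ∘SL
        ContinuousLinearMap.single ℝ (fun _ : Fin n => ℝ) i) 1
      = w b * L (Pi.single i 1, 0)
        + ((if b = a then (1 : ℝ) else 0) - w a * w b) * L (0, Pi.single i 1) := by
    intro b i
    have hTv : T (Pi.single b (Pi.single i 1))
        = (w b) • ((Pi.single i (1 : ℝ), 0) : (Fin n → ℝ) × (Fin n → ℝ))
          + ((if b = a then (1 : ℝ) else 0) - w a * w b)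
            • ((0, Pi.single i (1 : ℝ)) : (Fin n → ℝ) × (Fin n → ℝ)) := by
      show wcolLin M n w a (Pi.single b (Pi.single i 1)) = _
      have hsum : ∀ j : Fin n, ∑ b' : Fin M,
          w b' * (Pi.single b (Pi.single i (1 : ℝ)) : Fin M → Fin n → ℝ) b' j
          = w b * (Pi.single i (1 : ℝ) : Fin n → ℝ) j := by
        intro j
        rw [Finset.sum_eq_single b]
        · rw [Pi.single_eq_same]
        · intro b' _ hb'
          rw [Pi.single_eq_of_ne hb']
          simp
        · intro h; exact absurd (Finset.mem_univ b) h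
      have hrow : ∀ j : Fin n, (Pi.single b (Pi.single i (1 : ℝ)) : Fin M → Fin n → ℝ) a j
          = (if b = a then (1 : ℝ) else 0) * (Pi.single i (1 : ℝ) : Fin n → ℝ) j := by
        intro j
        by_cases hba : b = a
        · subst hba
          rw [Pi.single_eq_same, if_pos rfl, one_mul]
        · rw [Pi.single_eq_of_ne (Ne.symm hba), if_neg hba, zero_mul]
          rfl
      ext j
      · simp only [wcolLin, LinearMap.coe_mk, AddHom.coe_mk, hsum, Prod.fst_add,
          Prod.smul_fst, Pi.add_apply, Pi.smul_apply, smul_eq_mul, Pi.zero_apply, mul_zero,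
          add_zero]
      · simp only [wcolLin, LinearMap.coe_mk, AddHom.coe_mk, hsum, hrow, Prod.snd_add,
          Prod.smul_snd, Pi.add_apply, Pi.smul_apply, smul_eq_mul, Pi.zero_apply, mul_zero,
          zero_add]
        ring
    have hcomp : (((L ∘SL T) ∘SL ContinuousLinearMap.single ℝ (fun _ : Fin M => Fin n → ℝ) b) ∘SL
        ContinuousLinearMap.single ℝ (fun _ : Fin n => ℝ) i) 1
        = L (T (Pi.single b (Pi.single i 1))) := by
      simp
    rw [hcomp, hTv, map_add, map_smul, map_smul]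
    simp only [smul_eq_mul]
  simp_rw [hs', ht', hwt]
  have hreal : (∏ b : Fin M, ∏ i : Fin n, Real.exp (-((w b * L (Pi.single i 1, 0)
        + ((if b = a then (1 : ℝ) else 0) - w a * w b) * L (0, Pi.single i 1)) ^ 2 / 2)))
      = (∏ i : Fin n, Real.exp (-(L (Pi.single i 1, 0) ^ 2 / 2)))
        * ∏ i : Fin n, Real.exp (-((Real.sqrt (1 - w a ^ 2) * L (0, Pi.single i 1)) ^ 2 / 2)) := by
    simp_rw [← Real.exp_sum]
    rw [← Real.exp_add]
    congr 1
    rw [Finset.sum_comm, ← Finset.sum_add_distrib]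
    apply Finset.sum_congr rfl
    intro i _
    have h := wcol_sum_sq M w hw a (L (Pi.single i 1, 0)) (L (0, Pi.single i 1))
    rw [Finset.sum_neg_distrib, ← Finset.sum_div, h, mul_pow, hksq]
    ring
  exact_mod_cast hreal

end Vale.Agent.Lib.P157
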