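import Vale.Agent.Lib.P157.SqrtLower
import Vale.Agent.Lib.P157.WeightedDecomp
import Vale.Agent.Lib.P157.ScaleGeneral
import Vale.Agent.Lib.P157.AppendLaw
import Vale.Agent.Lib.P157.Rotate
import Vale.Agent.Lib.P157.TiltDefs

namespace Vale.Agent.Lib.P157
open MeasureTheory ProbabilityTheory


/-- The second-stage test function on the decomposed space. -/
noncomputable def stageFun (M n : ℕ) (f : ℝ → ℝ) (w : Fin M → ℝ) (a : Fin M) (c sN : ℝ)
    (p : (Fin n → ℝ) × (Fin n → ℝ)) : ℝ :=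
  f (c + (w a * (∑ j, |p.1 j|) + ∑ j, p.2 j * spin (signBit 1 (p.1 j))) / sN)

lemma measurable_stageFun (M n : ℕ) (f : ℝ → ℝ) (hf : Measurable f) (w : Fin M → ℝ) (a : Fin M)
    (c sN : ℝ) : Measurable (stageFun M n f w a c sN) := by
  unfold stageFun
  simp only [spin_signBit]
  have hs := measurable_sgn 1
  fun_prop

lemma stage_eq_stageFun (M n : ℕ) (f : ℝ → ℝ) (w : Fin M → ℝ) (a : Fin M) (c sN : ℝ)
    (g : Fin M → Fin n → ℝ) :
    f (c + (∑ j, g a j * spin (signBit 1 (∑ b, w b * g b j))) / sN) =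
      stageFun M n f w a c sN
        ((fun i => ∑ b, w b * g b i), (fun i => g a i - w a * ∑ b, w b * g b i)) := by
  unfold stageFun
  congr 3
  simp only
  rw [Finset.mul_sum, ← Finset.sum_add_distrib]
  refine Finset.sum_congr rfl fun j _ => ?_
  rw [spin_signBit]
  have h1 := mul_sgn 1 (∑ b, w b * g b j) (Or.inl rfl)
  rw [one_mul] at h1
  rw [← h1]
  ring

/-- The Gaussian average appearing after the decomposition of the second stage. -/
noncomputable def stageAvg (M n : ℕ) (f : ℝ → ℝ) (w : Fin M → ℝ) (a : Fin M) (c sN : ℝ)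
    (z : Fin n → ℝ) : ℝ :=
  ∫ t, f (c + (w a * (∑ j, |z j|)) / sN +
    Real.sqrt (1 - w a ^ 2) * (Real.sqrt n / sN) * t) ∂(gaussianReal 0 1)

lemma inner_stageFun (M n : ℕ) (hn : 0 < n) (f : ℝ → ℝ) (hf : Measurable f) (w : Fin M → ℝ)
    (a : Fin M) (c sN : ℝ) (z : Fin n → ℝ) :
    ∫ h, stageFun M n f w a c sN (z, fun i => Real.sqrt (1 - w a ^ 2) * h i)
        ∂(Measure.pi fun _ : Fin n => gaussianReal 0 1) =
      stageAvg M n f w a c sN z := by
  unfold stageAvg stageFun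
  have hnpos : (0 : ℝ) < n := by exact_mod_cast hn
  have hsn : 0 < Real.sqrt n := Real.sqrt_pos.mpr hnpos
  have hmeas : Measurable (fun y : Fin n → ℝ =>
      (∑ i, y i * spin (signBit 1 (z i))) / Real.sqrt n) := by fun_prop
  have hF : Measurable (fun t : ℝ => f (c + (w a * (∑ j, |z j|)) / sN +
      Real.sqrt (1 - w a ^ 2) * (Real.sqrt n / sN) * t)) := by fun_prop
  have h3 := integral_map (μ := Measure.pi fun _ : Fin n => gaussianReal 0 1)
    hmeas.aemeasurable hF.aestronglyMeasurable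
  rw [map_overlap_row hn (fun i => signBit 1 (z i))] at h3
  rw [h3]
  refine integral_congr_ae (Filter.Eventually.of_forall fun h => ?_)
  simp only
  congr 1
  have : ∑ j, Real.sqrt (1 - w a ^ 2) * h j * spin (signBit 1 (z j)) =
      Real.sqrt (1 - w a ^ 2) * ∑ j, h j * spin (signBit 1 (z j)) := by
    rw [Finset.mul_sum]
    refine Finset.sum_congr rfl fun j _ => ?_
    ring
  rw [this]
  field_simp
  ring


lemma sq_le_one_of_sum (M : ℕ) (w : Fin M → ℝ) (hw : ∑ b, w b ^ 2 = 1) (a : Fin M) :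
    w a ^ 2 ≤ 1 := by
  rw [← hw]
  exact Finset.single_le_sum (f := fun b => w b ^ 2) (fun _ _ => sq_nonneg _) (Finset.mem_univ a)

/-- Pointwise lower bound for the second-stage Gaussian average. -/
lemma stageAvg_ge (M n : ℕ) (hn : 0 < n) (f : ℝ → ℝ) (hf : Measurable f) (a b : ℝ)
    (hab : ∀ t, a ≤ f t ∧ f t ≤ b) (w : Fin M → ℝ) (hw : ∑ b', w b' ^ 2 = 1) (a₀ : Fin M)
    (c sN : ℝ) (hsN : 0 < sN) (z : Fin n → ℝ) :
    ∫ t, f (c + Real.sqrt n / sN * t) ∂(gaussianReal 0 1)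
      + (w a₀ * (∑ j, |z j|) / Real.sqrt n) *
          ∫ t, t * f (c + Real.sqrt n / sN * t) ∂(gaussianReal 0 1)
      - 3 / 2 * (b - a) * (w a₀ * (∑ j, |z j|) / Real.sqrt n) ^ 2
      - 2 * (b - a) * w a₀ ^ 2 ≤ stageAvg M n f w a₀ c sN z := by
  unfold stageAvg
  have hnpos : (0 : ℝ) < n := by exact_mod_cast hn
  have hsn : 0 < Real.sqrt n := Real.sqrt_pos.mpr hnpos
  have hw1 := sq_le_one_of_sum M w hw a₀
  set r := Real.sqrt n / sN with hr
  set s := w a₀ * (∑ j, |z j|) / Real.sqrt n with hs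
  set κ := Real.sqrt (1 - w a₀ ^ 2) with hκ
  have hκ0 : 0 ≤ κ := Real.sqrt_nonneg _
  have hκ1 : κ ≤ 1 := by
    rw [hκ]
    apply Real.sqrt_le_one.mpr
    nlinarith [sq_nonneg (w a₀)]
  have hκ2 : κ ^ 2 = 1 - w a₀ ^ 2 := Real.sq_sqrt (by linarith)
  have hδ : (w a₀ * (∑ j, |z j|)) / sN = r * s := by
    rw [hr, hs]
    field_simp
  have h1 := scale_compare_general κ hκ0 hκ1 (fun t => f (c + r * s + r * t)) (by fun_prop) a b
    (fun t => hab _)
  have h2 := shift_taylor (fun t => f (c + r * t)) (by fun_prop) a b (fun t => hab _) s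
  have e1 : ∫ t, f (c + (w a₀ * (∑ j, |z j|)) / sN + κ * r * t) ∂(gaussianReal 0 1) =
      ∫ t, f (c + r * s + r * (κ * t)) ∂(gaussianReal 0 1) := by
    refine integral_congr_ae (Filter.Eventually.of_forall fun t => ?_)
    simp only
    rw [hδ]
    congr 1
    ring
  have e2 : ∫ t, f (c + r * s + r * t) ∂(gaussianReal 0 1) =
      ∫ t, f (c + r * (s + t)) ∂(gaussianReal 0 1) := by
    refine integral_congr_ae (Filter.Eventually.of_forall fun t => ?_)
    simp only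
    congr 1
    ring
  rw [e1]
  rw [e2, hκ2] at h1
  have h1' := (abs_le.mp h1).1
  have h2' := (abs_le.mp h2).1
  nlinarith

/-- The second-stage lower bound for a fixed unit weight vector. -/
lemma stage_lower (M n : ℕ) (hn : 0 < n) (f : ℝ → ℝ) (hf : Measurable f) (a b : ℝ)
    (hab : ∀ t, a ≤ f t ∧ f t ≤ b) (w : Fin M → ℝ) (hw : ∑ b', w b' ^ 2 = 1) (a₀ : Fin M)
    (c sN : ℝ) (hsN : 0 < sN) :
    ∫ t, f (c + Real.sqrt n / sN * t) ∂(gaussianReal 0 1)
      + w a₀ * (Real.sqrt n * Real.sqrt (2 / Real.pi)) *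
          ∫ t, t * f (c + Real.sqrt n / sN * t) ∂(gaussianReal 0 1)
      - 3 / 2 * (b - a) * (w a₀ ^ 2 * n) - 2 * (b - a) * w a₀ ^ 2 ≤
    ∫ g, f (c + (∑ j, g a₀ j * spin (signBit 1 (∑ b', w b' * g b' j))) / sN)
      ∂(patternLaw M n) := by
  have hnpos : (0 : ℝ) < n := by exact_mod_cast hn
  have hsn : 0 < Real.sqrt n := Real.sqrt_pos.mpr hnpos
  have hba : 0 ≤ b - a := by have := hab 0; linarith
  set π := Measure.pi fun _ : Fin n => gaussianReal 0 1 with hπ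
  have hC : ∀ t, |f t| ≤ max |a| |b| := by
    intro t
    rw [abs_le]
    have h1 := (hab t).1
    have h2 := (hab t).2
    constructor
    · have := neg_abs_le a
      have := le_max_left |a| |b|
      linarith
    · have := le_abs_self b
      have := le_max_right |a| |b|
      linarith
  -- rewrite the right side
  have hΦ := measurable_stageFun M n f hf w a₀ c sN
  have hZR : Measurable (fun g : Fin M → Fin n → ℝ =>
      ((fun i => ∑ b', w b' * g b' i), (fun i => g a₀ i - w a₀ * ∑ b', w b' * g b' i))) := by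
    fun_prop
  have hT : Measurable (fun p : (Fin n → ℝ) × (Fin n → ℝ) =>
      (p.1, fun i => Real.sqrt (1 - w a₀ ^ 2) * p.2 i)) := by fun_prop
  have hint : Integrable (fun p : (Fin n → ℝ) × (Fin n → ℝ) =>
      stageFun M n f w a₀ c sN (p.1, fun i => Real.sqrt (1 - w a₀ ^ 2) * p.2 i)) (π.prod π) :=
    Integrable.of_bound (hΦ.comp hT).aestronglyMeasurable (max |a| |b|)
      (Filter.Eventually.of_forall fun p => by rw [Real.norm_eq_abs]; exact hC _)
  have hR : ∫ g, f (c + (∑ j, g a₀ j * spin (signBit 1 (∑ b', w b' * g b' j))) / sN)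
      ∂(patternLaw M n) = ∫ z, stageAvg M n f w a₀ c sN z ∂π := by
    simp_rw [stage_eq_stageFun M n f w a₀ c sN]
    have h1 := integral_map (μ := patternLaw M n) hZR.aemeasurable hΦ.aestronglyMeasurable
    rw [map_colDecomp_weighted M n w hw a₀] at h1
    rw [← h1, integral_map hT.aemeasurable hΦ.aestronglyMeasurable, integral_prod _ hint]
    exact integral_congr_ae (Filter.Eventually.of_forall fun z =>
      inner_stageFun M n hn f hf w a₀ c sN z)
  have hAvgInt : Integrable (stageAvg M n f w a₀ c sN) π := by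
    refine hint.integral_prod_left.congr (Filter.Eventually.of_forall fun z => ?_)
    exact inner_stageFun M n hn f hf w a₀ c sN z
  rw [hR]
  set F0 := ∫ t, f (c + Real.sqrt n / sN * t) ∂(gaussianReal 0 1) with hF0
  set m := ∫ t, t * f (c + Real.sqrt n / sN * t) ∂(gaussianReal 0 1) with hm
  -- the explicit lower function
  have hS1 : Integrable (fun z : Fin n → ℝ => (w a₀ * (∑ j, |z j|) / Real.sqrt n) * m) π :=
    (((integrable_sum_abs n).const_mul (w a₀)).div_const _).mul_const _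
  have hS2 : Integrable (fun z : Fin n → ℝ =>
      3 / 2 * (b - a) * (w a₀ * (∑ j, |z j|) / Real.sqrt n) ^ 2) π := by
    have : (fun z : Fin n → ℝ => 3 / 2 * (b - a) * (w a₀ * (∑ j, |z j|) / Real.sqrt n) ^ 2) =
        fun z : Fin n → ℝ => (3 / 2 * (b - a) * (w a₀ / Real.sqrt n) ^ 2) * (∑ j, |z j|) ^ 2 := by
      funext z
      ring
    rw [this]
    exact (integrable_sum_abs_sq n).const_mul _
  have hA2 : Integrable (fun z : Fin n → ℝ => F0 + (w a₀ * (∑ j, |z j|) / Real.sqrt n) * m) π :=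
    (integrable_const _).add hS1
  have hA3 : Integrable (fun z : Fin n → ℝ => F0 + (w a₀ * (∑ j, |z j|) / Real.sqrt n) * m
      - 3 / 2 * (b - a) * (w a₀ * (∑ j, |z j|) / Real.sqrt n) ^ 2) π := hA2.sub hS2
  have hA4 : Integrable (fun z : Fin n → ℝ => F0 + (w a₀ * (∑ j, |z j|) / Real.sqrt n) * m
      - 3 / 2 * (b - a) * (w a₀ * (∑ j, |z j|) / Real.sqrt n) ^ 2
      - 2 * (b - a) * w a₀ ^ 2) π := hA3.sub (integrable_const _)
  have hmono := integral_mono hA4 hAvgInt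
    (fun z => stageAvg_ge M n hn f hf a b hab w hw a₀ c sN hsN z)
  have hE1 : ∫ z : Fin n → ℝ, (w a₀ * (∑ j, |z j|) / Real.sqrt n) * m ∂π =
      w a₀ * (Real.sqrt n * Real.sqrt (2 / Real.pi)) * m := by
    have : (fun z : Fin n → ℝ => (w a₀ * (∑ j, |z j|) / Real.sqrt n) * m) =
        fun z : Fin n → ℝ => (w a₀ / Real.sqrt n * m) * (∑ j, |z j|) := by
      funext z
      ring
    rw [this, integral_const_mul, integral_sum_abs]
    have h2 : (n : ℝ) = Real.sqrt n * Real.sqrt n := (Real.mul_self_sqrt hnpos.le).symm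
    field_simp
    nth_rewrite 1 [h2]
    ring
  have hE2 : ∫ z : Fin n → ℝ, 3 / 2 * (b - a) * (w a₀ * (∑ j, |z j|) / Real.sqrt n) ^ 2 ∂π ≤
      3 / 2 * (b - a) * (w a₀ ^ 2 * n) := by
    have : (fun z : Fin n → ℝ => 3 / 2 * (b - a) * (w a₀ * (∑ j, |z j|) / Real.sqrt n) ^ 2) =
        fun z : Fin n → ℝ => (3 / 2 * (b - a) * (w a₀ / Real.sqrt n) ^ 2) * (∑ j, |z j|) ^ 2 := by
      funext z
      ring
    rw [this, integral_const_mul]
    have h3 := integral_sum_abs_sq_le n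
    have h4 : (w a₀ / Real.sqrt n) ^ 2 = w a₀ ^ 2 / n := by
      rw [div_pow, Real.sq_sqrt hnpos.le]
    rw [h4]
    have h5 : 0 ≤ 3 / 2 * (b - a) * (w a₀ ^ 2 / n) := by positivity
    calc 3 / 2 * (b - a) * (w a₀ ^ 2 / n) * ∫ z : Fin n → ℝ, (∑ j, |z j|) ^ 2 ∂π
        ≤ 3 / 2 * (b - a) * (w a₀ ^ 2 / n) * (n : ℝ) ^ 2 := mul_le_mul_of_nonneg_left h3 h5
      _ = 3 / 2 * (b - a) * (w a₀ ^ 2 * n) := by field_simp
  have hEq : ∫ z : Fin n → ℝ, (F0 + (w a₀ * (∑ j, |z j|) / Real.sqrt n) * m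
      - 3 / 2 * (b - a) * (w a₀ * (∑ j, |z j|) / Real.sqrt n) ^ 2
      - 2 * (b - a) * w a₀ ^ 2) ∂π =
      F0 + w a₀ * (Real.sqrt n * Real.sqrt (2 / Real.pi)) * m
        - (∫ z : Fin n → ℝ, 3 / 2 * (b - a) * (w a₀ * (∑ j, |z j|) / Real.sqrt n) ^ 2 ∂π)
        - 2 * (b - a) * w a₀ ^ 2 := by
    rw [integral_sub hA3 (integrable_const _), integral_sub hA2 hS2,
      integral_add (integrable_const _) hS1, hE1]
    simp
  rw [hEq] at hmono
  linarith


/-- The smoothed average: `E f(r₁ u + r₂ G)` for a standard Gaussian `G`. -/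
noncomputable def tiltAvg (f : ℝ → ℝ) (r₁ r₂ u : ℝ) : ℝ :=
  ∫ t, f (r₁ * u + r₂ * t) ∂(gaussianReal 0 1)

lemma measurable_tiltMoment_fun (f : ℝ → ℝ) (hf : Measurable f) (r₁ r₂ : ℝ) :
    Measurable (tiltMoment f r₁ r₂) := by
  unfold tiltMoment
  have h : StronglyMeasurable (fun p : ℝ × ℝ => p.2 * f (r₁ * p.1 + r₂ * p.2)) := by
    apply Measurable.stronglyMeasurable
    fun_prop
  exact (h.integral_prod_right' (ν := gaussianReal 0 1)).measurable

lemma measurable_tiltAvg_fun (f : ℝ → ℝ) (hf : Measurable f) (r₁ r₂ : ℝ) :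
    Measurable (tiltAvg f r₁ r₂) := by
  unfold tiltAvg
  have h : StronglyMeasurable (fun p : ℝ × ℝ => f (r₁ * p.1 + r₂ * p.2)) := by
    apply Measurable.stronglyMeasurable
    fun_prop
  exact (h.integral_prod_right' (ν := gaussianReal 0 1)).measurable

lemma abs_tiltMoment_le (f : ℝ → ℝ) (hf : Measurable f) (a b : ℝ)
    (hab : ∀ t, a ≤ f t ∧ f t ≤ b) (r₁ r₂ u : ℝ) : |tiltMoment f r₁ r₂ u| ≤ (b - a) / 2 := by
  unfold tiltMoment
  exact abs_firstMoment_le (fun t => f (r₁ * u + r₂ * t)) (by fun_prop) a b (fun t => hab _)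

lemma tiltAvg_mem (f : ℝ → ℝ) (hf : Measurable f) (a b : ℝ)
    (hab : ∀ t, a ≤ f t ∧ f t ≤ b) (r₁ r₂ u : ℝ) :
    a ≤ tiltAvg f r₁ r₂ u ∧ tiltAvg f r₁ r₂ u ≤ b := by
  unfold tiltAvg
  have hint : Integrable (fun t => f (r₁ * u + r₂ * t)) (gaussianReal 0 1) := by
    refine Integrable.of_bound (C := max |a| |b|) ?_ ?_
    · exact (by fun_prop : Measurable fun t => f (r₁ * u + r₂ * t)).aestronglyMeasurable
    · refine Filter.Eventually.of_forall fun t => ?_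
      rw [Real.norm_eq_abs, abs_le]
      have h1 := (hab (r₁ * u + r₂ * t)).1
      have h2 := (hab (r₁ * u + r₂ * t)).2
      constructor
      · have := neg_abs_le a
        have := le_max_left |a| |b|
        linarith
      · have := le_abs_self b
        have := le_max_right |a| |b|
        linarith
  constructor
  · have := integral_mono (integrable_const a) hint (fun t => (hab _).1)
    simpa using this
  · have := integral_mono hint (integrable_const b) (fun t => (hab _).2)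
    simpa using this

/-- First-stage overlaps: the normalised row sums of the first block of columns. -/
noncomputable def firstOverlap {M N₁ : ℕ} (g₁ : Fin M → Fin N₁ → ℝ) (a : Fin M) : ℝ :=
  overlap g₁ (fun _ => true) a

/-- Euclidean norm of the vector of smoothed first moments at the first-stage overlaps. -/
noncomputable def gradNorm {M N₁ : ℕ} (f : ℝ → ℝ) (r₁ r₂ : ℝ) (g₁ : Fin M → Fin N₁ → ℝ) : ℝ :=
  Real.sqrt (∑ a, (tiltMoment f r₁ r₂ (firstOverlap g₁ a)) ^ 2)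

/-- The unit weight vector used by the second stage. -/
noncomputable def stageWeight {M N₁ : ℕ} (f : ℝ → ℝ) (r₁ r₂ : ℝ) (b₀ : Fin M)
    (g₁ : Fin M → Fin N₁ → ℝ) (b : Fin M) : ℝ :=
  if gradNorm f r₁ r₂ g₁ = 0 then (if b = b₀ then 1 else 0)
  else tiltMoment f r₁ r₂ (firstOverlap g₁ b) / gradNorm f r₁ r₂ g₁

lemma measurable_firstOverlap {M N₁ : ℕ} (a : Fin M) :
    Measurable (fun g₁ : Fin M → Fin N₁ → ℝ => firstOverlap g₁ a) :=
  measurable_overlap (fun _ => true) a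

lemma measurable_gradNorm {M N₁ : ℕ} (f : ℝ → ℝ) (hf : Measurable f) (r₁ r₂ : ℝ) :
    Measurable (gradNorm (M := M) (N₁ := N₁) f r₁ r₂) := by
  unfold gradNorm
  have h1 := measurable_tiltMoment_fun f hf r₁ r₂
  have h2 := fun a : Fin M => measurable_firstOverlap (M := M) (N₁ := N₁) a
  fun_prop

lemma measurable_stageWeight {M N₁ : ℕ} (f : ℝ → ℝ) (hf : Measurable f) (r₁ r₂ : ℝ)
    (b₀ b : Fin M) :
    Measurable (fun g₁ : Fin M → Fin N₁ → ℝ => stageWeight f r₁ r₂ b₀ g₁ b) := by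
  unfold stageWeight
  have h1 := measurable_tiltMoment_fun f hf r₁ r₂
  have h2 := measurable_firstOverlap (M := M) (N₁ := N₁) b
  have h3 := measurable_gradNorm (M := M) (N₁ := N₁) f hf r₁ r₂
  refine Measurable.ite ?_ measurable_const ?_
  · exact h3 (measurableSet_singleton 0)
  · exact (h1.comp h2).div h3

lemma stageWeight_unit {M N₁ : ℕ} (f : ℝ → ℝ) (r₁ r₂ : ℝ) (b₀ : Fin M)
    (g₁ : Fin M → Fin N₁ → ℝ) : ∑ b, stageWeight f r₁ r₂ b₀ g₁ b ^ 2 = 1 := by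
  unfold stageWeight
  by_cases h : gradNorm f r₁ r₂ g₁ = 0
  · simp [h]
  · simp only [h, if_false, div_pow]
    rw [← Finset.sum_div]
    have h2 : gradNorm f r₁ r₂ g₁ ^ 2 = ∑ a, (tiltMoment f r₁ r₂ (firstOverlap g₁ a)) ^ 2 := by
      unfold gradNorm
      exact Real.sq_sqrt (Finset.sum_nonneg fun _ _ => sq_nonneg _)
    rw [← h2]
    exact div_self (pow_ne_zero 2 h)

lemma stageWeight_dot {M N₁ : ℕ} (f : ℝ → ℝ) (r₁ r₂ : ℝ) (b₀ : Fin M)
    (g₁ : Fin M → Fin N₁ → ℝ) :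
    ∑ a, stageWeight f r₁ r₂ b₀ g₁ a * tiltMoment f r₁ r₂ (firstOverlap g₁ a) =
      gradNorm f r₁ r₂ g₁ := by
  have h2 : gradNorm f r₁ r₂ g₁ ^ 2 = ∑ a, (tiltMoment f r₁ r₂ (firstOverlap g₁ a)) ^ 2 := by
    unfold gradNorm
    exact Real.sq_sqrt (Finset.sum_nonneg fun _ _ => sq_nonneg _)
  unfold stageWeight
  by_cases h : gradNorm f r₁ r₂ g₁ = 0
  · simp only [h, if_true]
    rw [h] at h2
    have h3 : ∀ a ∈ Finset.univ, (tiltMoment f r₁ r₂ (firstOverlap g₁ a)) ^ 2 = 0 := by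
      have h4 : ∑ a, (tiltMoment f r₁ r₂ (firstOverlap g₁ a)) ^ 2 = 0 := by rw [← h2]; ring
      exact (Finset.sum_eq_zero_iff_of_nonneg fun _ _ => sq_nonneg _).mp h4
    apply Finset.sum_eq_zero
    intro a ha
    have := h3 a ha
    rw [pow_eq_zero_iff (by norm_num)] at this
    rw [this, mul_zero]
  · simp only [h, if_false]
    have h5 : ∀ a : Fin M, tiltMoment f r₁ r₂ (firstOverlap g₁ a) / gradNorm f r₁ r₂ g₁ *
        tiltMoment f r₁ r₂ (firstOverlap g₁ a) =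
        (tiltMoment f r₁ r₂ (firstOverlap g₁ a)) ^ 2 / gradNorm f r₁ r₂ g₁ := by
      intro a; ring
    simp only [h5]
    rw [← Finset.sum_div, ← h2]
    field_simp


/-- The two-stage configuration: `+1` on the first block of coordinates; on the second block,
the sign of the weighted column sums, the weights being the smoothed first moments at the
first-stage overlaps. -/
noncomputable def twoStageConfig {M N₁ N₂ : ℕ} (f : ℝ → ℝ) (r₁ r₂ : ℝ) (b₀ : Fin M)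
    (p : (Fin M → Fin N₁ → ℝ) × (Fin M → Fin N₂ → ℝ)) : Fin (N₁ + N₂) → Bool :=
  Fin.append (fun _ => true)
    (fun j => signBit 1 (∑ b, stageWeight f r₁ r₂ b₀ p.1 b * p.2 b j))

lemma overlap_twoStage {M N₁ N₂ : ℕ} (hN₁ : 0 < N₁) (f : ℝ → ℝ) (r₁ r₂ : ℝ) (b₀ : Fin M)
    (p : (Fin M → Fin N₁ → ℝ) × (Fin M → Fin N₂ → ℝ)) (a : Fin M) :
    overlap (fun a => Fin.append (p.1 a) (p.2 a)) (twoStageConfig f r₁ r₂ b₀ p) a =
      (Real.sqrt N₁ / Real.sqrt ((N₁ + N₂ : ℕ) : ℝ)) * firstOverlap p.1 a +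
        (∑ j, p.2 a j * spin (signBit 1 (∑ b, stageWeight f r₁ r₂ b₀ p.1 b * p.2 b j))) /
          Real.sqrt ((N₁ + N₂ : ℕ) : ℝ) := by
  have h1 : (0 : ℝ) < N₁ := by exact_mod_cast hN₁
  have hs1 : 0 < Real.sqrt N₁ := Real.sqrt_pos.mpr h1
  unfold firstOverlap overlap twoStageConfig
  rw [Fin.sum_univ_add]
  simp only [Fin.append_left, Fin.append_right]
  field_simp
  congr 1
  exact Finset.sum_congr rfl fun i _ => mul_comm _ _

lemma measurable_appendMap (M N₁ N₂ : ℕ) :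
    Measurable (fun p : (Fin M → Fin N₁ → ℝ) × (Fin M → Fin N₂ → ℝ) =>
      fun a => Fin.append (p.1 a) (p.2 a)) := by
  refine measurable_pi_lambda _ fun a => measurable_pi_lambda _ fun i => ?_
  refine Fin.addCases (fun i => ?_) (fun j => ?_) i
  · simp only [Fin.append_left]
    fun_prop
  · simp only [Fin.append_right]
    fun_prop


lemma abs_le_bound (f : ℝ → ℝ) (a b : ℝ) (hab : ∀ t, a ≤ f t ∧ f t ≤ b) (t : ℝ) :
    |f t| ≤ max |a| |b| := by
  rw [abs_le]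
  have h1 := (hab t).1
  have h2 := (hab t).2
  constructor
  · have := neg_abs_le a
    have := le_max_left |a| |b|
    linarith
  · have := le_abs_self b
    have := le_max_right |a| |b|
    linarith

lemma integrable_of_abs_le {Ω : Type*} [MeasurableSpace Ω] (μ : Measure Ω) [IsFiniteMeasure μ]
    (F : Ω → ℝ) (hF : Measurable F) (K : ℝ) (hK : ∀ x, |F x| ≤ K) : Integrable F μ :=
  Integrable.of_bound hF.aestronglyMeasurable K
    (Filter.Eventually.of_forall fun x => by rw [Real.norm_eq_abs]; exact hK x)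

/-- Lower bound of order `sqrt (M / N)` from the two-stage configuration. -/
theorem two_stage_lower (M N₁ N₂ : ℕ) (hN₁ : 0 < N₁) (hN₂ : 0 < N₂) (f : ℝ → ℝ)
    (hf : Measurable f) (a b : ℝ) (hab : ∀ t, a ≤ f t ∧ f t ≤ b) :
    ((M : ℝ) / ((N₁ + N₂ : ℕ) : ℝ)) * ∫ t, f t ∂(gaussianReal 0 1)
      + 2 * Real.sqrt (2 / Real.pi) * (Real.sqrt N₂ * Real.sqrt M / ((N₁ + N₂ : ℕ) : ℝ)) *
          (tiltVar f (Real.sqrt N₁ / Real.sqrt ((N₁ + N₂ : ℕ) : ℝ))
            (Real.sqrt N₂ / Real.sqrt ((N₁ + N₂ : ℕ) : ℝ)) / (b - a))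
      - 3 / 2 * (b - a) * ((N₂ : ℝ) / ((N₁ + N₂ : ℕ) : ℝ)) - 2 * (b - a) / ((N₁ + N₂ : ℕ) : ℝ)
      - Real.log 2
    ≤ ∫ g, isingPressure M (N₁ + N₂) f g ∂(patternLaw M (N₁ + N₂)) := by
  have hN : 0 < N₁ + N₂ := by omega
  have hNpos : (0 : ℝ) < ((N₁ + N₂ : ℕ) : ℝ) := by exact_mod_cast hN
  have hN1pos : (0 : ℝ) < N₁ := by exact_mod_cast hN₁
  have hN2pos : (0 : ℝ) < N₂ := by exact_mod_cast hN₂
  have hba : 0 ≤ b - a := by have := hab 0; linarith
  have hlog : 0 ≤ Real.log 2 := Real.log_nonneg (by norm_num)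
  have hC := abs_le_bound f a b hab
  set C := max |a| |b| with hCdef
  set Nr : ℝ := ((N₁ + N₂ : ℕ) : ℝ) with hNr
  set sN := Real.sqrt Nr with hsNdef
  have hsN : 0 < sN := Real.sqrt_pos.mpr hNpos
  set r₁ := Real.sqrt N₁ / sN with hr₁
  set r₂ := Real.sqrt N₂ / sN with hr₂
  have hr : r₁ ^ 2 + r₂ ^ 2 = 1 := by
    rw [hr₁, hr₂, div_pow, div_pow, Real.sq_sqrt hN1pos.le, Real.sq_sqrt hN2pos.le,
      Real.sq_sqrt hNpos.le, ← add_div]
    have : (N₁ : ℝ) + N₂ = Nr := by rw [hNr]; push_cast; ring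
    rw [this]
    exact div_self hNpos.ne'
  set m0 := ∫ t, f t ∂(gaussianReal 0 1) with hm0
  set V := tiltVar f r₁ r₂ with hV
  rcases Nat.eq_zero_or_pos M with hM0 | hM
  · subst hM0
    have hJ := jensen_lower_bound 0 (N₁ + N₂) hN f hf ⟨C, hC⟩
    simp only [Nat.cast_zero, zero_div, zero_mul, Real.sqrt_zero, mul_zero] at hJ ⊢
    have h1 : 0 ≤ 3 / 2 * (b - a) * ((N₂ : ℝ) / Nr) := by positivity
    have h2 : 0 ≤ 2 * (b - a) / Nr := by positivity
    linarith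
  have hMpos : (0 : ℝ) < M := by exact_mod_cast hM
  have hsM : 0 < Real.sqrt M := Real.sqrt_pos.mpr hMpos
  set b₀ : Fin M := ⟨0, hM⟩ with hb₀
  set P₁ := patternLaw M N₁ with hP₁
  set P₂ := patternLaw M N₂ with hP₂
  set e : (Fin M → Fin N₁ → ℝ) × (Fin M → Fin N₂ → ℝ) → (Fin M → Fin (N₁ + N₂) → ℝ) :=
    fun p => fun a => Fin.append (p.1 a) (p.2 a) with he
  have hemeas : Measurable e := measurable_appendMap M N₁ N₂
  have hmap : (P₁.prod P₂).map e = patternLaw M (N₁ + N₂) := map_append_patternLaw M N₁ N₂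
  -- step 1: pass to the product space
  have hpint := integrable_isingPressure M (N₁ + N₂) hN f hf ⟨C, hC⟩
  have hstep1 : ∫ g, isingPressure M (N₁ + N₂) f g ∂(patternLaw M (N₁ + N₂)) =
      ∫ p, isingPressure M (N₁ + N₂) f (e p) ∂(P₁.prod P₂) := by
    rw [← hmap]
    apply integral_map hemeas.aemeasurable
    rw [hmap]
    exact hpint.aestronglyMeasurable
  have hpint' : Integrable (fun p => isingPressure M (N₁ + N₂) f (e p)) (P₁.prod P₂) := by
    rw [← hmap] at hpint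
    exact (integrable_map_measure (by rw [hmap]; exact
      (integrable_isingPressure M (N₁ + N₂) hN f hf ⟨C, hC⟩).aestronglyMeasurable)
      hemeas.aemeasurable).mp hpint
  -- step 2: the two-stage configuration
  set Φ : Fin M → (Fin M → Fin N₁ → ℝ) × (Fin M → Fin N₂ → ℝ) → ℝ := fun a₀ p =>
    f (r₁ * firstOverlap p.1 a₀ +
      (∑ j, p.2 a₀ j * spin (signBit 1 (∑ b', stageWeight f r₁ r₂ b₀ p.1 b' * p.2 b' j))) / sN)
    with hΦ
  have hΦmeas : ∀ a₀, Measurable (Φ a₀) := by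
    intro a₀
    simp only [hΦ, spin_signBit]
    have hs := measurable_sgn 1
    have h1 : Measurable (fun p : (Fin M → Fin N₁ → ℝ) × (Fin M → Fin N₂ → ℝ) =>
        firstOverlap p.1 a₀) := (measurable_firstOverlap a₀).comp measurable_fst
    have h2 : ∀ b', Measurable (fun p : (Fin M → Fin N₁ → ℝ) × (Fin M → Fin N₂ → ℝ) =>
        stageWeight f r₁ r₂ b₀ p.1 b') := fun b' =>
      (measurable_stageWeight f hf r₁ r₂ b₀ b').comp measurable_fst
    fun_prop
  have hΦint : ∀ a₀, Integrable (Φ a₀) (P₁.prod P₂) := fun a₀ =>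
    integrable_of_abs_le _ _ (hΦmeas a₀) C (fun p => hC _)
  have hpt : ∀ p, (1 / Nr) * (∑ a₀, Φ a₀ p) - Real.log 2 ≤
      isingPressure M (N₁ + N₂) f (e p) := by
    intro p
    have h := pressure_ge_config M (N₁ + N₂) hN f (e p) (twoStageConfig f r₁ r₂ b₀ p)
    have h2 : ∀ a₀, f (overlap (e p) (twoStageConfig f r₁ r₂ b₀ p) a₀) = Φ a₀ p := by
      intro a₀
      simp only [hΦ, he]
      rw [overlap_twoStage hN₁ f r₁ r₂ b₀ p a₀]
    simp only [h2] at h
    exact h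
  have hlowint : Integrable (fun p => (1 / Nr) * (∑ a₀, Φ a₀ p) - Real.log 2) (P₁.prod P₂) :=
    ((integrable_finsetSum _ fun a₀ _ => hΦint a₀).const_mul _).sub (integrable_const _)
  have hstep2 : ∫ p, ((1 / Nr) * (∑ a₀, Φ a₀ p) - Real.log 2) ∂(P₁.prod P₂) ≤
      ∫ p, isingPressure M (N₁ + N₂) f (e p) ∂(P₁.prod P₂) :=
    integral_mono hlowint hpint' hpt
  have hstep3 : ∫ p, ((1 / Nr) * (∑ a₀, Φ a₀ p) - Real.log 2) ∂(P₁.prod P₂) =
      (1 / Nr) * (∑ a₀, ∫ p, Φ a₀ p ∂(P₁.prod P₂)) - Real.log 2 := by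
    rw [integral_sub ((integrable_finsetSum _ fun a₀ _ => hΦint a₀).const_mul _)
      (integrable_const _), integral_const_mul, integral_finsetSum _ fun a₀ _ => hΦint a₀]
    simp
  -- step 4: the second stage, conditionally on the first block
  set K := Real.sqrt N₂ * Real.sqrt (2 / Real.pi) with hK
  have hK0 : 0 ≤ K := by positivity
  set L : Fin M → (Fin M → Fin N₁ → ℝ) → ℝ := fun a₀ g₁ =>
    tiltAvg f r₁ r₂ (firstOverlap g₁ a₀)
      + stageWeight f r₁ r₂ b₀ g₁ a₀ * K * tiltMoment f r₁ r₂ (firstOverlap g₁ a₀)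
      - 3 / 2 * (b - a) * (stageWeight f r₁ r₂ b₀ g₁ a₀ ^ 2 * N₂)
      - 2 * (b - a) * stageWeight f r₁ r₂ b₀ g₁ a₀ ^ 2 with hL
  have hw1 : ∀ (g₁ : Fin M → Fin N₁ → ℝ) (a₀ : Fin M), |stageWeight f r₁ r₂ b₀ g₁ a₀| ≤ 1 := by
    intro g₁ a₀
    have := sq_le_one_of_sum M _ (stageWeight_unit f r₁ r₂ b₀ g₁) a₀
    exact abs_le_one_iff_mul_self_le_one.mpr (by nlinarith)
  have hmW : ∀ a₀, Measurable (fun g₁ : Fin M → Fin N₁ → ℝ => stageWeight f r₁ r₂ b₀ g₁ a₀) :=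
    fun a₀ => measurable_stageWeight f hf r₁ r₂ b₀ a₀
  have hmA : ∀ a₀, Measurable (fun g₁ : Fin M → Fin N₁ → ℝ =>
      tiltAvg f r₁ r₂ (firstOverlap g₁ a₀)) := fun a₀ =>
    (measurable_tiltAvg_fun f hf r₁ r₂).comp (measurable_firstOverlap a₀)
  have hmT : ∀ a₀, Measurable (fun g₁ : Fin M → Fin N₁ → ℝ =>
      tiltMoment f r₁ r₂ (firstOverlap g₁ a₀)) := fun a₀ =>
    (measurable_tiltMoment_fun f hf r₁ r₂).comp (measurable_firstOverlap a₀)
  have hT1 : ∀ a₀, Integrable (fun g₁ : Fin M → Fin N₁ → ℝ =>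
      tiltAvg f r₁ r₂ (firstOverlap g₁ a₀)) P₁ := fun a₀ =>
    integrable_of_abs_le _ _ (hmA a₀) C (fun g₁ => by
      have h := tiltAvg_mem f hf a b hab r₁ r₂ (firstOverlap g₁ a₀)
      exact abs_le_bound (fun _ => tiltAvg f r₁ r₂ (firstOverlap g₁ a₀)) a b (fun _ => h) 0)
  have hT2 : ∀ a₀, Integrable (fun g₁ : Fin M → Fin N₁ → ℝ =>
      stageWeight f r₁ r₂ b₀ g₁ a₀ * K * tiltMoment f r₁ r₂ (firstOverlap g₁ a₀)) P₁ := fun a₀ =>
    integrable_of_abs_le _ _ (((hmW a₀).mul_const K).mul (hmT a₀)) (K * ((b - a) / 2))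
      (fun g₁ => by
        rw [abs_mul, abs_mul, abs_of_nonneg hK0]
        have h1 := hw1 g₁ a₀
        have h2 := abs_tiltMoment_le f hf a b hab r₁ r₂ (firstOverlap g₁ a₀)
        have h3 : |stageWeight f r₁ r₂ b₀ g₁ a₀| * K ≤ 1 * K :=
          mul_le_mul_of_nonneg_right h1 hK0
        calc |stageWeight f r₁ r₂ b₀ g₁ a₀| * K * |tiltMoment f r₁ r₂ (firstOverlap g₁ a₀)|
            ≤ (1 * K) * ((b - a) / 2) :=
              mul_le_mul h3 h2 (abs_nonneg _) (by positivity)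
          _ = K * ((b - a) / 2) := by ring)
  have hT3 : ∀ a₀, Integrable (fun g₁ : Fin M → Fin N₁ → ℝ =>
      3 / 2 * (b - a) * (stageWeight f r₁ r₂ b₀ g₁ a₀ ^ 2 * N₂)) P₁ := fun a₀ =>
    integrable_of_abs_le _ _ ((((hmW a₀).pow_const 2).mul_const _).const_mul _)
      (3 / 2 * (b - a) * (1 * N₂)) (fun g₁ => by
        have h1 := sq_le_one_of_sum M _ (stageWeight_unit f r₁ r₂ b₀ g₁) a₀
        have h2 : 0 ≤ stageWeight f r₁ r₂ b₀ g₁ a₀ ^ 2 := sq_nonneg _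
        rw [abs_of_nonneg (by positivity)]
        have : stageWeight f r₁ r₂ b₀ g₁ a₀ ^ 2 * (N₂ : ℝ) ≤ 1 * N₂ :=
          mul_le_mul_of_nonneg_right h1 hN2pos.le
        nlinarith)
  have hT4 : ∀ a₀, Integrable (fun g₁ : Fin M → Fin N₁ → ℝ =>
      2 * (b - a) * stageWeight f r₁ r₂ b₀ g₁ a₀ ^ 2) P₁ := fun a₀ =>
    integrable_of_abs_le _ _ (((hmW a₀).pow_const 2).const_mul _) (2 * (b - a) * 1)
      (fun g₁ => by
        have h1 := sq_le_one_of_sum M _ (stageWeight_unit f r₁ r₂ b₀ g₁) a₀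
        have h2 : 0 ≤ stageWeight f r₁ r₂ b₀ g₁ a₀ ^ 2 := sq_nonneg _
        rw [abs_of_nonneg (by positivity)]
        nlinarith)
  have hLint : ∀ a₀, Integrable (L a₀) P₁ := fun a₀ =>
    (((hT1 a₀).add (hT2 a₀)).sub (hT3 a₀)).sub (hT4 a₀)
  have hstep4 : ∀ a₀, ∫ g₁, L a₀ g₁ ∂P₁ ≤ ∫ p, Φ a₀ p ∂(P₁.prod P₂) := by
    intro a₀
    rw [integral_prod _ (hΦint a₀)]
    refine integral_mono (hLint a₀) (hΦint a₀).integral_prod_left (fun g₁ => ?_)
    exact stage_lower M N₂ hN₂ f hf a b hab (stageWeight f r₁ r₂ b₀ g₁)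
      (stageWeight_unit f r₁ r₂ b₀ g₁) a₀ (r₁ * firstOverlap g₁ a₀) sN hsN
  -- step 5: sum over the patterns
  have hsumL : ∀ g₁, ∑ a₀, L a₀ g₁ =
      (∑ a₀, tiltAvg f r₁ r₂ (firstOverlap g₁ a₀)) + K * gradNorm f r₁ r₂ g₁
        - 3 / 2 * (b - a) * N₂ - 2 * (b - a) := by
    intro g₁
    have hu := stageWeight_unit f r₁ r₂ b₀ g₁
    have hd := stageWeight_dot f r₁ r₂ b₀ g₁
    simp only [hL]
    rw [Finset.sum_sub_distrib, Finset.sum_sub_distrib, Finset.sum_add_distrib]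
    have e1 : ∑ a₀, stageWeight f r₁ r₂ b₀ g₁ a₀ * K * tiltMoment f r₁ r₂ (firstOverlap g₁ a₀) =
        K * gradNorm f r₁ r₂ g₁ := by
      rw [← hd, Finset.mul_sum]
      exact Finset.sum_congr rfl fun a₀ _ => by ring
    have e2 : ∑ a₀, 3 / 2 * (b - a) * (stageWeight f r₁ r₂ b₀ g₁ a₀ ^ 2 * N₂) =
        3 / 2 * (b - a) * N₂ := by
      rw [← Finset.mul_sum, ← Finset.sum_mul, hu, one_mul]
    have e3 : ∑ a₀, 2 * (b - a) * stageWeight f r₁ r₂ b₀ g₁ a₀ ^ 2 = 2 * (b - a) := by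
      rw [← Finset.mul_sum, hu, mul_one]
    rw [e1, e2, e3]
  -- step 6: first-stage expectations
  have hEA : ∀ a₀, ∫ g₁, tiltAvg f r₁ r₂ (firstOverlap g₁ a₀) ∂P₁ = m0 := by
    intro a₀
    have h1 := integral_overlap (M := M) hN₁ (fun _ => true) a₀ (tiltAvg f r₁ r₂)
      (measurable_tiltAvg_fun f hf r₁ r₂)
    have h2 := integral_rotate f hf C hC r₁ r₂ hr
    unfold firstOverlap
    rw [h1]
    exact h2
  have hET : ∀ a₀, ∫ g₁, (tiltMoment f r₁ r₂ (firstOverlap g₁ a₀)) ^ 2 ∂P₁ = V := by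
    intro a₀
    have h1 := integral_overlap (M := M) hN₁ (fun _ => true) a₀
      (fun u => (tiltMoment f r₁ r₂ u) ^ 2) ((measurable_tiltMoment_fun f hf r₁ r₂).pow_const 2)
    unfold firstOverlap
    rw [h1]
    rfl
  have hT2sq : ∀ a₀, Integrable (fun g₁ : Fin M → Fin N₁ → ℝ =>
      (tiltMoment f r₁ r₂ (firstOverlap g₁ a₀)) ^ 2) P₁ := fun a₀ =>
    integrable_of_abs_le _ _ ((hmT a₀).pow_const 2) (((b - a) / 2) ^ 2) (fun g₁ => by
      have h2 := abs_tiltMoment_le f hf a b hab r₁ r₂ (firstOverlap g₁ a₀)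
      rw [abs_of_nonneg (sq_nonneg _), ← sq_abs]
      exact pow_le_pow_left₀ (abs_nonneg _) h2 2)
  have hGmeas : Measurable (gradNorm (M := M) (N₁ := N₁) f r₁ r₂) :=
    measurable_gradNorm f hf r₁ r₂
  have hGsq : ∀ g₁ : Fin M → Fin N₁ → ℝ, gradNorm f r₁ r₂ g₁ ^ 2 =
      ∑ a₀, (tiltMoment f r₁ r₂ (firstOverlap g₁ a₀)) ^ 2 := by
    intro g₁
    unfold gradNorm
    exact Real.sq_sqrt (Finset.sum_nonneg fun _ _ => sq_nonneg _)
  have hG0 : ∀ g₁ : Fin M → Fin N₁ → ℝ, 0 ≤ gradNorm f r₁ r₂ g₁ := fun g₁ => by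
    unfold gradNorm; exact Real.sqrt_nonneg _
  have hGle : ∀ g₁ : Fin M → Fin N₁ → ℝ, gradNorm f r₁ r₂ g₁ ≤ Real.sqrt M * ((b - a) / 2) := by
    intro g₁
    have h1 : gradNorm f r₁ r₂ g₁ ^ 2 ≤ (Real.sqrt M * ((b - a) / 2)) ^ 2 := by
      rw [hGsq, mul_pow, Real.sq_sqrt hMpos.le]
      have : ∀ a₀ ∈ Finset.univ, (tiltMoment f r₁ r₂ (firstOverlap g₁ a₀)) ^ 2 ≤
          ((b - a) / 2) ^ 2 := fun a₀ _ => by
        have h2 := abs_tiltMoment_le f hf a b hab r₁ r₂ (firstOverlap g₁ a₀)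
        rw [← sq_abs]
        exact pow_le_pow_left₀ (abs_nonneg _) h2 2
      have h3 := Finset.sum_le_sum this
      simp only [Finset.sum_const, Finset.card_univ, Fintype.card_fin, nsmul_eq_mul] at h3
      exact h3
    exact abs_le_of_sq_le_sq' h1 (by positivity) |>.2
  have hGint : Integrable (gradNorm (M := M) (N₁ := N₁) f r₁ r₂) P₁ :=
    integrable_of_abs_le _ _ hGmeas (Real.sqrt M * ((b - a) / 2)) (fun g₁ => by
      rw [abs_of_nonneg (hG0 g₁)]; exact hGle g₁)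
  have hEG : 2 * Real.sqrt M * (V / (b - a)) ≤ ∫ g₁, gradNorm f r₁ r₂ g₁ ∂P₁ := by
    have hpt2 : ∀ g₁ : Fin M → Fin N₁ → ℝ,
        2 / (Real.sqrt M * (b - a)) * (∑ a₀, (tiltMoment f r₁ r₂ (firstOverlap g₁ a₀)) ^ 2) ≤
          gradNorm f r₁ r₂ g₁ := by
      intro g₁
      rw [← hGsq]
      rcases eq_or_lt_of_le hba with h0 | hpos
      · rw [← h0]; simp [hG0 g₁]
      · have h1 := hGle g₁
        have h2 := hG0 g₁
        have h3 : 0 < Real.sqrt M * (b - a) := by positivity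
        rw [div_mul_eq_mul_div, div_le_iff₀ h3]
        nlinarith
    have hint2 : Integrable (fun g₁ : Fin M → Fin N₁ → ℝ =>
        2 / (Real.sqrt M * (b - a)) * (∑ a₀, (tiltMoment f r₁ r₂ (firstOverlap g₁ a₀)) ^ 2)) P₁ :=
      (integrable_finsetSum _ fun a₀ _ => hT2sq a₀).const_mul _
    have h4 := integral_mono hint2 hGint hpt2
    rw [integral_const_mul, integral_finsetSum _ fun a₀ _ => hT2sq a₀] at h4
    simp only [hET, Finset.sum_const, Finset.card_univ, Fintype.card_fin, nsmul_eq_mul] at h4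
    have h5 : 2 / (Real.sqrt M * (b - a)) * ((M : ℝ) * V) = 2 * Real.sqrt M * (V / (b - a)) := by
      have h6 : (M : ℝ) = Real.sqrt M * Real.sqrt M := (Real.mul_self_sqrt hMpos.le).symm
      rcases eq_or_lt_of_le hba with h0 | hpos
      · rw [← h0]; simp
      · field_simp
        nth_rewrite 1 [h6]
        ring
    rw [h5] at h4
    exact h4
  -- step 7: assemble
  have hsum : (M : ℝ) * m0 + K * (2 * Real.sqrt M * (V / (b - a)))
      - 3 / 2 * (b - a) * N₂ - 2 * (b - a) ≤ ∑ a₀, ∫ p, Φ a₀ p ∂(P₁.prod P₂) := by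
    have h1 : ∑ a₀, ∫ g₁, L a₀ g₁ ∂P₁ ≤ ∑ a₀, ∫ p, Φ a₀ p ∂(P₁.prod P₂) :=
      Finset.sum_le_sum fun a₀ _ => hstep4 a₀
    have h2 : ∑ a₀, ∫ g₁, L a₀ g₁ ∂P₁ = ∫ g₁, ∑ a₀, L a₀ g₁ ∂P₁ :=
      (integral_finsetSum _ fun a₀ _ => hLint a₀).symm
    have hI1 : Integrable (fun g₁ : Fin M → Fin N₁ → ℝ =>
        ∑ a₀, tiltAvg f r₁ r₂ (firstOverlap g₁ a₀)) P₁ :=
      integrable_finsetSum _ fun a₀ _ => hT1 a₀
    have hI2 : Integrable (fun g₁ : Fin M → Fin N₁ → ℝ => K * gradNorm f r₁ r₂ g₁) P₁ :=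
      hGint.const_mul _
    have h3 : ∫ g₁, ∑ a₀, L a₀ g₁ ∂P₁ =
        (M : ℝ) * m0 + K * (∫ g₁, gradNorm f r₁ r₂ g₁ ∂P₁) - 3 / 2 * (b - a) * N₂
          - 2 * (b - a) := by
      simp only [hsumL]
      have hI3 : Integrable (fun g₁ : Fin M → Fin N₁ → ℝ =>
          ∑ a₀, tiltAvg f r₁ r₂ (firstOverlap g₁ a₀) + K * gradNorm f r₁ r₂ g₁) P₁ :=
        hI1.add hI2
      have hI4 : Integrable (fun g₁ : Fin M → Fin N₁ → ℝ =>
          ∑ a₀, tiltAvg f r₁ r₂ (firstOverlap g₁ a₀) + K * gradNorm f r₁ r₂ g₁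
            - 3 / 2 * (b - a) * N₂) P₁ := hI3.sub (integrable_const _)
      rw [integral_sub hI4 (integrable_const _),
        integral_sub hI3 (integrable_const _), integral_add hI1 hI2,
        integral_finsetSum _ fun a₀ _ => hT1 a₀, integral_const_mul]
      simp only [hEA, Finset.sum_const, Finset.card_univ, Fintype.card_fin, nsmul_eq_mul]
      simp
    have h4 : K * (2 * Real.sqrt M * (V / (b - a))) ≤ K * (∫ g₁, gradNorm f r₁ r₂ g₁ ∂P₁) :=
      mul_le_mul_of_nonneg_left hEG hK0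
    linarith
  rw [hstep1]
  refine le_trans ?_ hstep2
  rw [hstep3]
  have hfin := mul_le_mul_of_nonneg_left hsum (by positivity : (0 : ℝ) ≤ 1 / Nr)
  have hrw : (1 / Nr) * ((M : ℝ) * m0 + K * (2 * Real.sqrt M * (V / (b - a)))
      - 3 / 2 * (b - a) * N₂ - 2 * (b - a)) =
      (M : ℝ) / Nr * m0 + 2 * Real.sqrt (2 / Real.pi) * (Real.sqrt N₂ * Real.sqrt M / Nr) *
        (V / (b - a)) - 3 / 2 * (b - a) * ((N₂ : ℝ) / Nr) - 2 * (b - a) / Nr := by
    rw [hK]
    field_simp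
  rw [hrw] at hfin
  linarith

end Vale.Agent.Lib.P157
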