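import Vale.Agent.Lib.P157.TwoStage
import Vale.Agent.Lib.P157.TiltConst

namespace Vale.Agent.Lib.P157
open MeasureTheory ProbabilityTheory

/-- The two-stage window: lower and upper bounds of order `sqrt (M / N)` for the expected
pressure, with the lower constant `tiltVar f r₁ r₂`, its two explicit lower bounds, and its
positivity for every `f` that is not almost everywhere constant. -/
theorem two_stage_window (M N₁ N₂ N : ℕ) (hN₁ : 0 < N₁) (hN₂ : 0 < N₂) (hN : N = N₁ + N₂)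
    (f : ℝ → ℝ) (hf : Measurable f) (a b : ℝ) (hab : ∀ t, a ≤ f t ∧ f t ≤ b)
    (r₁ r₂ : ℝ) (hr₁ : r₁ = Real.sqrt ((N₁ : ℝ) / N)) (hr₂ : r₂ = Real.sqrt ((N₂ : ℝ) / N)) :
    (((M : ℝ) / N) * ∫ t, f t ∂(gaussianReal 0 1)
        + 2 * Real.sqrt (2 / Real.pi) * r₂ * Real.sqrt ((M : ℝ) / N) * (tiltVar f r₁ r₂ / (b - a))
        - 3 / 2 * (b - a) * r₂ ^ 2 - 2 * (b - a) / N - Real.log 2
      ≤ ∫ g, isingPressure M N f g ∂(patternLaw M N)) ∧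
    (∫ g, isingPressure M N f g ∂(patternLaw M N) ≤
      ((M : ℝ) / N) * ∫ t, f t ∂(gaussianReal 0 1) +
        (b - a) * Real.sqrt (((M : ℝ) / N) * Real.log 2 / 2)) ∧
    (r₂ ^ 2 * (∫ t, t * f t ∂(gaussianReal 0 1)) ^ 2 ≤ tiltVar f r₁ r₂) ∧
    (r₁ ^ 2 * r₂ ^ 2 * (∫ t, (t ^ 2 - 1) * f t ∂(gaussianReal 0 1)) ^ 2 ≤ tiltVar f r₁ r₂) ∧
    (tiltVar f r₁ r₂ = 0 → ∀ᵐ t ∂(gaussianReal 0 1), f t = ∫ s, f s ∂(gaussianReal 0 1)) := by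
  subst hN
  have hNpos : (0 : ℝ) < ((N₁ + N₂ : ℕ) : ℝ) := by
    have : 0 < N₁ + N₂ := by omega
    exact_mod_cast this
  have hN1pos : (0 : ℝ) < N₁ := by exact_mod_cast hN₁
  have hN2pos : (0 : ℝ) < N₂ := by exact_mod_cast hN₂
  have hsN : 0 < Real.sqrt ((N₁ + N₂ : ℕ) : ℝ) := Real.sqrt_pos.mpr hNpos
  have e1 : r₁ = Real.sqrt N₁ / Real.sqrt ((N₁ + N₂ : ℕ) : ℝ) := by
    rw [hr₁, Real.sqrt_div hN1pos.le]
  have e2 : r₂ = Real.sqrt N₂ / Real.sqrt ((N₁ + N₂ : ℕ) : ℝ) := by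
    rw [hr₂, Real.sqrt_div hN2pos.le]
  have hr1pos : 0 < r₁ := by rw [e1]; positivity
  have hr2pos : 0 < r₂ := by rw [e2]; positivity
  have hr : r₁ ^ 2 + r₂ ^ 2 = 1 := by
    rw [hr₁, hr₂, Real.sq_sqrt (by positivity), Real.sq_sqrt (by positivity), ← add_div]
    have : (N₁ : ℝ) + N₂ = ((N₁ + N₂ : ℕ) : ℝ) := by push_cast; ring
    rw [this]
    exact div_self hNpos.ne'
  refine ⟨?_, sqrt_upper_bound M (N₁ + N₂) (by omega) f hf a b hab, ?_, ?_, ?_⟩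
  · have h := two_stage_lower M N₁ N₂ hN₁ hN₂ f hf a b hab
    rw [← e1, ← e2] at h
    have h3 : Real.sqrt N₂ * Real.sqrt M / ((N₁ + N₂ : ℕ) : ℝ) =
        r₂ * Real.sqrt ((M : ℝ) / ((N₁ + N₂ : ℕ) : ℝ)) := by
      rw [e2, Real.sqrt_div (Nat.cast_nonneg M)]
      have h4 : ((N₁ + N₂ : ℕ) : ℝ) =
          Real.sqrt ((N₁ + N₂ : ℕ) : ℝ) * Real.sqrt ((N₁ + N₂ : ℕ) : ℝ) :=
        (Real.mul_self_sqrt hNpos.le).symm
      field_simp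
      nth_rewrite 2 [h4]
      ring
    have h5 : (N₂ : ℝ) / ((N₁ + N₂ : ℕ) : ℝ) = r₂ ^ 2 := by
      rw [hr₂, Real.sq_sqrt (by positivity)]
    rw [h3, h5] at h
    have h6 : 2 * Real.sqrt (2 / Real.pi) * (r₂ * Real.sqrt ((M : ℝ) / ((N₁ + N₂ : ℕ) : ℝ))) *
        (tiltVar f r₁ r₂ / (b - a)) =
        2 * Real.sqrt (2 / Real.pi) * r₂ * Real.sqrt ((M : ℝ) / ((N₁ + N₂ : ℕ) : ℝ)) *
        (tiltVar f r₁ r₂ / (b - a)) := by ring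
    rw [h6] at h
    exact h
  · exact tiltVar_ge_first f hf a b hab r₁ r₂ hr
  · exact tiltVar_ge_second f hf a b hab r₁ r₂ hr
  · intro hV
    exact ae_const_of_tiltVar_eq_zero f hf a b hab r₁ r₂ hr1pos hr2pos hr hV

end Vale.Agent.Lib.P157
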